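import Crest.Agent.R195.EnumD

/-!
# Row 195: kernel enumerations for `k = 11, 12, 13`
-/

set_option autoImplicit false

namespace Crest.Agent.R195

theorem en_11_1 : en (quick true true 11 1) true [] 55 [] 54 54 20 = true := by decide +kernel
theorem en_11_2 : en (quick true true 11 2) true [] 55 [] 54 54 20 = true := by decide +kernel
theorem en_12_1 : en (quick true true 12 1) true [] 66 [] 65 65 22 = true := by decide +kernel
theorem en_12_2 : en (quick true true 12 2) true [] 66 [] 65 65 22 = true := by decide +kernel
theorem en_13_1 : en (quick true true 13 1) true [] 78 [] 77 77 24 = true := by decide +kernel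
theorem en_13_2 : en (quick true true 13 2) true [] 78 [] 77 77 24 = true := by decide +kernel

end Crest.Agent.R195
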