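import Crest.Agent.R195.Enum
import Crest.Agent.R195.CoverEn

/-!
# Row 195, task Cover: for `k ≥ 11` every large partition is covered; the uniform `Lcond`'s
-/

set_option autoImplicit false

open Finset

namespace Crest.Agent.R195

/-- Durfee square: let `j` be the least index with `lam j ≤ j`.  Then `j ≤ lam i` and `j ≤ lam' i`
for `i < j`, and (`IsConj.sum_min` with this `j`, splitting the sum at `j`)
`n + j * j = ∑_{i<j} lam i + ∑_{t<j} lam' t`. -/
theorem durfee {lam lam' : ℕ → ℕ} {n : ℕ} (hl : IsPar lam n) (hc : IsConj lam lam') :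
    ∃ j, (∀ i < j, j ≤ lam i ∧ j ≤ lam' i) ∧
      n + j * j = ∑ i ∈ range j, lam i + ∑ t ∈ range j, lam' t := by
  have hex : ∃ i, lam i ≤ i := ⟨n, hl.zero ▸ Nat.zero_le n⟩
  have h1 := Nat.find_spec hex
  have h2 : ∀ i < Nat.find hex, i < lam i := fun i hi => not_le.1 (Nat.find_min hex hi)
  generalize Nat.find hex = j at h1 h2
  have h3 : ∀ i < j, j ≤ lam i := fun i hi => by
    have a1 := h2 (j - 1) (by omega)
    have a2 := hl.anti (show i ≤ j - 1 by omega)
    omega
  refine ⟨j, fun i hi => ⟨h3 i hi, ?_⟩, ?_⟩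
  · have a1 := h2 (j - 1) (by omega)
    have a2 := (hc (j - 1) i).1 (by omega)
    omega
  · have hz : lam (j + n) = 0 := hl.eq_zero (Nat.le_add_left n j)
    have b1 := hc.sum_min hz j
    have b2 := hl.sum_of_zero hz
    rw [sum_range_add] at b1 b2
    rw [sum_congr rfl fun i hi => min_eq_right (h3 i (mem_range.1 hi)),
      sum_congr rfl fun i _ => min_eq_left ((hl.anti (Nat.le_add_right j i)).trans h1),
      sum_const, card_range, smul_eq_mul] at b1
    omega

/-- `omega` after unfolding `QX` (`rcases he`, `not_and_or`) -/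
theorem six_rows {k e : ℕ} (hk : 5 ≤ k) (he : e = 1 ∨ e = 2) {lam : ℕ → ℕ} (ha : Antitone lam)
    (h4 : 2 ≤ lam 4) (h1 : ¬ 2 * k - 1 ≤ lam 0 + lam 1) (hX : ¬ QX e (k - e) (k - e - 2) lam) :
    lam 0 + lam 1 + lam 2 + lam 3 + lam 4 + lam 5 ≤ 4 * k - 2 := by
  have a1 : lam 1 ≤ lam 0 := ha (by norm_num)
  have a2 : lam 2 ≤ lam 1 := ha (by norm_num)
  have a3 : lam 3 ≤ lam 2 := ha (by norm_num)
  have a4 : lam 4 ≤ lam 3 := ha (by norm_num)
  have a5 : lam 5 ≤ lam 4 := ha (by norm_num)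
  unfold QX at hX
  rcases he with rfl | rfl <;> omega

namespace CoverAux

theorem avg {lam : ℕ → ℕ} (ha : Antitone lam) {c : ℕ} (h : lam 0 + lam 1 + lam 2 + lam 3 + lam 4 + lam 5 ≤ c)
    {j : ℕ} (hj : 6 ≤ j) : 6 * ∑ i ∈ range j, lam i ≤ j * c := by
  induction j, hj using Nat.le_induction with
  | base =>
    simp only [sum_range_succ, range_zero, sum_empty]
    omega
  | succ j hj ih =>
    have a0 : lam j ≤ lam 0 := ha (by omega)
    have a1 : lam j ≤ lam 1 := ha (by omega)
    have a2 : lam j ≤ lam 2 := ha (by omega)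
    have a3 : lam j ≤ lam 3 := ha (by omega)
    have a4 : lam j ≤ lam 4 := ha (by omega)
    have a5 : lam j ≤ lam 5 := ha (by omega)
    rw [sum_range_succ, add_mul]
    omega

theorem small {k e m n : ℕ} (H : en (quick true true k e) true [] (m + 1) [] m m (2 * k - 2) = true)
    {lam lam' : ℕ → ℕ} (hl : IsPar lam n) (hc : IsConj lam lam') (hm : m ≤ n) : QK k e lam ∨ QK k e lam' := by
  obtain ⟨b, hb, hle⟩ := hl.exists_sub hm
  obtain ⟨b', hb'⟩ := hb.exists_conj
  have key : ∀ c, Cov (quick true true k e) c → QK k e c := fun c h => h.quick.imp And.right And.right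
  rcases en_sound _ true k m [] (fun _ L hL => by simp [quick, hL]) H hb hb' with h | h | ⟨l, h, -⟩
  · exact Or.inl ((key _ h).mono hle)
  · exact Or.inr ((key _ h).mono (hb'.mono hc hle))
  · exact absurd h List.not_mem_nil

theorem tail_le {s : ℕ} {a : ℕ → ℕ} (h : ∀ i, 1 ≤ i → a i ≤ s - 1 - i) (i : ℕ) :
    ∀ r, 1 ≤ r → r + i + 1 = s → 2 * tail s a r ≤ i * (i + 1) := by
  unfold tail
  induction i with
  | zero =>
    intro r h1 h2
    have := h r h1
    rw [sum_eq_sum_Ico_succ_bot (by omega), Ico_eq_empty_of_le (by omega), sum_empty]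
    omega
  | succ i ih =>
    intro r h1 h2
    have a1 := h r h1
    have a2 := ih (r + 1) (by omega) (by omega)
    have a3 : a r ≤ i + 1 := by omega
    rw [sum_eq_sum_Ico_succ_bot (by omega)]
    nlinarith

theorem half_le {s : ℕ} {a : ℕ → ℕ} (h : ∀ i, 1 ≤ i → a i ≤ s - 1 - i) (h0 : s ≤ 1 → a 0 = 0) {i r : ℕ}
    (hs : r + i + 1 = s) : 2 * min (a i) (tail s a r / (i + 1)) ≤ i := by
  rcases Nat.eq_zero_or_pos r with h1 | h1
  · rcases Nat.eq_zero_or_pos i with h2 | h2
    · rw [h2, h0 (by omega)]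
      simp
    · have := h i h2
      omega
  · have a1 := tail_le h i r h1 hs
    have a2 := Nat.div_mul_le_self (tail s a r) (i + 1)
    have a3 : 2 * (tail s a r / (i + 1)) ≤ i := Nat.le_of_mul_le_mul_right (c := i + 1) (by nlinarith) (by omega)
    omega

end CoverAux
open CoverAux

/-- For `k ≥ 14`.  Suppose neither is covered; `durfee`.  For `j ≤ 4` use only
`lam 0 + lam 1 ≤ 2k - 2` (and antitone): `n ≤ 8k - 24`; for `j = 5` use `six_rows`; for `j ≥ 6`:
`6 * ∑_{i<j} lam i ≤ j * (4k - 2)` (antitone averages; induction on `j`), so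
`3 n + 3 j² ≤ j (4k-2)`, `9 n ≤ (2k-1)²`.  All contradict `k (k-1) ≤ 2 n + 2` (`two_mul_tri`,
`nlinarith`). -/
theorem cover_large {k e n : ℕ} (hk : 14 ≤ k) (he : e = 1 ∨ e = 2) {lam lam' : ℕ → ℕ}
    (hl : IsPar lam n) (hc : IsConj lam lam') (hn : tri (k - 1) ≤ n + 1) :
    QK k e lam ∨ QK k e lam' := by
  by_contra hn'
  rw [not_or, QK, QK, not_or, not_or] at hn'
  obtain ⟨⟨p1, p2⟩, q1, q2⟩ := hn'
  have p3 : ¬ QX e (k - e) (k - e - 2) lam := fun h => p2 (h.q2 fun _ => le_rfl)
  have q3 : ¬ QX e (k - e) (k - e - 2) lam' := fun h => q2 (h.q2 fun _ => le_rfl)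
  have ha := hl.anti
  have ha' := hc.symm.anti
  obtain ⟨j, hj, hs⟩ := durfee hl hc
  obtain ⟨K, rfl⟩ : ∃ K, k = K + 1 := ⟨k - 1, by omega⟩
  have ht := two_mul_tri K
  rw [Nat.add_sub_cancel] at hn
  have h13 : 13 ≤ K := by omega
  have hsm : n + 16 ≤ 8 * K → False := fun h => by nlinarith
  rcases lt_or_ge j 5 with h5 | h5
  · have a1 : lam 1 ≤ lam 0 := ha (by norm_num)
    have a2 : lam 2 ≤ lam 1 := ha (by norm_num)
    have a3 : lam 3 ≤ lam 2 := ha (by norm_num)
    have b1 : lam' 1 ≤ lam' 0 := ha' (by norm_num)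
    have b2 : lam' 2 ≤ lam' 1 := ha' (by norm_num)
    have b3 : lam' 3 ≤ lam' 2 := ha' (by norm_num)
    refine hsm ?_
    interval_cases j <;> simp only [sum_range_succ, range_zero, sum_empty] at hs <;> omega
  have s1 := six_rows (by omega) he ha (by have := (hj 4 h5).1; omega) p1 p3
  have s2 := six_rows (by omega) he ha' (by have := (hj 4 h5).2; omega) q1 q3
  rcases h5.eq_or_lt with rfl | h6
  · simp only [sum_range_succ, range_zero, sum_empty] at hs
    exact hsm (by omega)
  · have t1 := avg ha s1 h6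
    have t2 := avg ha' s2 h6
    rw [show 4 * (K + 1) - 2 = 4 * K + 2 by omega] at t1 t2
    have t3 : 3 * n + 3 * (j * j) ≤ j * (4 * K + 2) := by omega
    have t4 : 9 * n ≤ (2 * K + 1) ^ 2 := by
      zify at t3 ⊢
      nlinarith [sq_nonneg (3 * (j : ℤ) - (2 * K + 1))]
    nlinarith


/-- For `k = 11, 12, 13` (kernel computations `en_11_1` … `en_13_2` in `CoverEn`): `IsPar.exists_sub` to size `tri (k-1) - 1`, `IsPar.exists_conj`,
`IsConj.mono`, `en_sound`, `Cov.quick`, `QK.mono`. -/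
theorem cover {k e n : ℕ} (hk : 11 ≤ k) (he : e = 1 ∨ e = 2) {lam lam' : ℕ → ℕ}
    (hl : IsPar lam n) (hc : IsConj lam lam') (hn : tri (k - 1) ≤ n + 1) :
    QK k e lam ∨ QK k e lam' := by
  rcases lt_or_ge k 14 with h | h
  · have t10 : tri 10 = 55 := rfl
    have t11 : tri 11 = 66 := rfl
    have t12 : tri 12 = 78 := rfl
    interval_cases k <;> rcases he with rfl | rfl <;> norm_num at hn
    · exact small en_11_1 hl hc (by omega)
    · exact small en_11_2 hl hc (by omega)
    · exact small en_12_1 hl hc (by omega)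
    · exact small en_12_2 hl hc (by omega)
    · exact small en_13_1 hl hc (by omega)
    · exact small en_13_2 hl hc (by omega)
  · exact cover_large h he hl hc hn

/-- `dd k a a i (k-1-i) ≤ a (k-1-i) ≤ i`, so `range (j+1)` is contained in the filter -/
theorem lcond_one {k : ℕ} {a : ℕ → ℕ} (h : ∀ i, a i ≤ k - 1 - i) : Lcond 1 k a a := by
  have h0 : ∀ i, k ≤ i → a i = 0 := fun i hi => by
    have := h i
    omega
  refine ⟨h0, h0, fun j hj => ?_⟩
  refine lt_of_lt_of_le (by simp) (card_le_card (s := range (j + 1)) fun i hi => ?_)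
  have h1 := h (k - 1 - i)
  simp only [mem_filter, mem_range, dd] at hi ⊢
  omega

/-- For `i + r = s - 1`: `dd s a a i r ≤ min (i / 2) (r / 2)`.  Indeed for `r ≥ 1`,
`tail s a r ≤ ∑_{r' ≥ r} (s-1-r') = i (i+1) / 2`, and for `r = 0` one has `a i = a (s-1) = 0`
when `s ≥ 2` (for `s = 1`, `i = r = 0`: use `h0`).  Then `#{i < s | 4 * (min i r / 2) ≤ j} > j`:
the map `t ↦ if t even then t / 2 else s - 1 - t / 2` is injective on `range (j+1)` with image in
this set. -/
theorem lcond_four {s : ℕ} {a : ℕ → ℕ} (h : ∀ i, 1 ≤ i → a i ≤ s - 1 - i) (h0 : s ≤ 1 → a 0 = 0) :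
    Lcond 4 s a a := by
  have hz : ∀ i, s ≤ i → a i = 0 := fun i hi => by
    rcases Nat.eq_zero_or_pos i with h1 | h1
    · rw [h1]
      exact h0 (by omega)
    · have := h i h1
      omega
  refine ⟨hz, hz, fun j hj => ?_⟩
  refine lt_of_lt_of_le (by simp) (card_le_card_of_injOn (s := range (j + 1))
    (fun t => if t % 2 = 0 then t / 2 else s - 1 - t / 2) (fun t ht => ?_) fun t ht t' ht' e => ?_)
  · have h1 : t < j + 1 := mem_range.1 ht
    simp only [coe_filter, mem_range, Set.mem_setOf_eq, dd]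
    split_ifs with h2
    · have := half_le h h0 (i := t / 2) (r := s - 1 - t / 2) (by omega)
      omega
    · have := half_le h h0 (i := s - 1 - (s - 1 - t / 2)) (r := s - 1 - t / 2) (by omega)
      omega
  · have h1 : t < j + 1 := mem_range.1 ht
    have h2 : t' < j + 1 := mem_range.1 ht'
    dsimp only at e
    split_ifs at e <;> omega

end Crest.Agent.R195
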