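import Crest.Agent.R195.Rules
import Crest.Agent.R195.Cover

/-!
# Row 195, task Main: the uniform induction
-/

set_option autoImplicit false

open Finset

namespace Crest.Agent.R195

theorem main_wrap_le {a : ℕ → ℕ} {k' : ℕ} (hk : 1 ≤ k') (hsub : ∀ i, a i ≤ k' - 2 - i) (i : ℕ) :
    wrap k' a i ≤ k' - i := by
  have := hsub (i - 1)
  simp only [wrap, Pi.add_apply, cons, col]
  split_ifs <;> omega

/-- **The uniform step.**  Let `k = k' + 1 + e`, `mu = wrap k (wrap k' a)` (symmetric:
`IsConj.wrap` twice).  For `lam ⊢ n` take a conjugate `lam'`; `cover` gives `QK k e lam` or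
`QK k e lam'` (`G.of_conj` in the second case).  `P1` with `wrap k' a` (`lcond_one`; one has
`wrap k' a i ≤ k' - i`) or `P2` (`lcond_four`). -/
theorem full_step {a : ℕ → ℕ} {m k' e : ℕ} (he : e = 1 ∨ e = 2) (hk : 11 ≤ k' + 1 + e)
    (hs : IsConj a a) (hsub : ∀ i, a i ≤ k' - 2 - i) (F : Full a m)
    (F' : Full (wrap k' a) (m + (2 * k' - 1)))
    (hn : tri (k' + e) ≤ m + (2 * k' - 1) + (2 * (k' + 1 + e) - 1) + 1) :
    Full (wrap (k' + 1 + e) (wrap k' a)) (m + (2 * k' - 1) + (2 * (k' + 1 + e) - 1)) := by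
  have hk' : 8 ≤ k' := by omega
  have hs1 : IsConj (wrap k' a) (wrap k' a) := hs.wrap (by omega) (by have := hsub 0; omega)
  have hw := main_wrap_le (by omega : 1 ≤ k') hsub
  have hs2 : IsConj (wrap (k' + 1 + e) (wrap k' a)) (wrap (k' + 1 + e) (wrap k' a)) :=
    hs1.wrap (by omega) (by have := hw 0; omega)
  have key : ∀ lam, IsPar lam (m + (2 * k' - 1) + (2 * (k' + 1 + e) - 1)) →
      QK (k' + 1 + e) e lam →
      G (wrap (k' + 1 + e) (wrap k' a)) (wrap (k' + 1 + e) (wrap k' a)) lam := by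
    rintro lam hl (hq | hq)
    · refine P1 (by omega) hs1 F' (lcond_one fun i => ?_) (lcond_one fun i => ?_) hl hq
      · have := hw i
        omega
      · have := hw (i - 1)
        simp only [cons]
        split_ifs <;> omega
    · have q1 : k' + 1 + e - e = k' + 1 := by omega
      have q2 : k' + 1 - 2 = k' - 1 := by omega
      rw [q1, q2] at hq
      refine P2 he (by omega) hs F (lcond_four (fun i _ => ?_) (by omega))
        (lcond_four (fun i hi => ?_) (by omega)) hl hq
      · have := hsub i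
        omega
      · have := hsub (i - 1 - 1)
        simp only [cons]
        split_ifs <;> omega
  intro lam hl
  obtain ⟨lam', hc⟩ := hl.exists_conj
  have q3 : k' + 1 + e - 1 = k' + e := by omega
  rcases cover hk he hl hc (by rw [q3]; exact hn) with h | h
  · exact key lam hl h
  · exact G.of_conj hs2 hc (key lam' (hl.conj hc) h)

/-- the induction invariant -/
def Nice (k n : ℕ) : Prop :=
  ∃ a m, IsPar a m ∧ IsConj a a ∧ (∀ i, a i ≤ k - 2 - i) ∧ Full a m ∧ Full (wrap k a) n ∧
    n = m + (2 * k - 1)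

/-- the sizes handled at level `k` -/
def InS (k n : ℕ) : Prop :=
  (tri (k - 1) + 1 ≤ n ∧ n ≤ tri k ∧ ¬ (k % 2 = 0 ∧ n + 1 = tri k)) ∨
    (k % 2 = 1 ∧ n + 1 = tri (k - 1))

/-- `full_step`, with the new `a := wrap k' a` (`IsPar.wrap`, `IsConj.wrap`) -/
theorem Nice.step {k' e n' : ℕ} (he : e = 1 ∨ e = 2) (hk : 11 ≤ k' + 1 + e) (h : Nice k' n')
    (hn : tri (k' + e) ≤ n' + (2 * (k' + 1 + e) - 1) + 1) :
    Nice (k' + 1 + e) (n' + (2 * (k' + 1 + e) - 1)) := by
  obtain ⟨a, m, hp, hs, hsub, F, F', rfl⟩ := h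
  have h0 : a 0 ≤ k' - 1 := by have := hsub 0; omega
  refine ⟨wrap k' a, m + (2 * k' - 1), hp.wrap (by omega) h0, hs.wrap (by omega) h0, fun i => ?_,
    F', full_step he hk hs hsub F F' hn, rfl⟩
  have := main_wrap_le (by omega : 1 ≤ k') hsub i
  omega

/-- write `k = j + 4`, unfold `tri` four times, `omega` -/
theorem InS.rec' {k n : ℕ} (hk : 11 ≤ k) (h : InS k n) :
    2 * k - 1 ≤ n ∧ tri (k - 1) ≤ n + 1 ∧
      (InS (k - 2) (n - (2 * k - 1)) ∨ InS (k - 3) (n - (2 * k - 1))) := by
  obtain ⟨j, rfl⟩ : ∃ j, k = j + 4 := ⟨k - 4, by omega⟩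
  have e1 : j + 4 - 1 = j + 3 := rfl
  have e2 : j + 4 - 2 = j + 2 := rfl
  have e3 : j + 4 - 3 = j + 1 := rfl
  have e4 : j + 2 - 1 = j + 1 := rfl
  have e5 : j + 1 - 1 = j := rfl
  have t1 : tri (j + 1) = tri j + (j + 1) := rfl
  have t2 : tri (j + 2) = tri (j + 1) + (j + 2) := rfl
  have t3 : tri (j + 3) = tri (j + 2) + (j + 3) := rfl
  have t4 : tri (j + 4) = tri (j + 3) + (j + 4) := rfl
  simp only [InS, e1, e2, e3, e4, e5] at h ⊢
  generalize tri (j + 4) = T4 at *
  generalize tri (j + 3) = T3 at *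
  generalize tri (j + 2) = T2 at *
  generalize tri (j + 1) = T1 at *
  generalize tri j = T0 at *
  have hn : 2 * (j + 4) - 1 ≤ n := by omega
  obtain ⟨n', rfl⟩ : ∃ n', n = n' + (2 * (j + 4) - 1) := ⟨n - (2 * (j + 4) - 1), by omega⟩
  rw [Nat.add_sub_cancel]
  refine ⟨hn, by omega, ?_⟩
  have e6 : 2 * (j + 4) - 1 = 2 * j + 7 := by omega
  rw [e6] at h
  clear hn e1 e2 e3 e4 e5 e6
  rcases Nat.mod_two_eq_zero_or_one j with hj | hj
  · have a1 : (j + 4) % 2 = 0 := by omega
    have a2 : (j + 2) % 2 = 0 := by omega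
    have a3 : (j + 1) % 2 = 1 := by omega
    simp only [a1, a2, a3, true_and, zero_ne_one, one_ne_zero, false_and, or_false,
      not_false_eq_true, and_true] at h ⊢
    omega
  · have a1 : (j + 4) % 2 = 1 := by omega
    have a2 : (j + 2) % 2 = 1 := by omega
    have a3 : (j + 1) % 2 = 0 := by omega
    simp only [a1, a2, a3, true_and, zero_ne_one, one_ne_zero, false_and, or_false,
      not_false_eq_true, and_true] at h ⊢
    omega

/-- strong induction on `k` -/
theorem nice_all (base : ∀ k n, 8 ≤ k → k ≤ 10 → InS k n → Nice k n) :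
    ∀ k n, 8 ≤ k → InS k n → Nice k n := by
  intro k
  induction k using Nat.strong_induction_on with
  | _ k ih =>
    intro n hk h
    by_cases h10 : k ≤ 10
    · exact base k n hk h10 h
    obtain ⟨h1, h2, h3⟩ := h.rec' (by omega)
    have en : n - (2 * k - 1) + (2 * k - 1) = n := by omega
    rcases h3 with h3 | h3
    · have e1 : k - 2 + 1 + 1 = k := by omega
      have e2 : k - 2 + 1 = k - 1 := by omega
      have := Nice.step (Or.inl rfl) (by omega) (ih (k - 2) (by omega) _ (by omega) h3)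
        (by rw [e1, e2, en]; exact h2)
      rwa [e1, en] at this
    · have e1 : k - 3 + 1 + 2 = k := by omega
      have e2 : k - 3 + 2 = k - 1 := by omega
      have := Nice.step (Or.inr rfl) (by omega) (ih (k - 3) (by omega) _ (by omega) h3)
        (by rw [e1, e2, en]; exact h2)
      rwa [e1, en] at this

/-- every `n ≥ 29` lies in some level `k ≥ 8` (take the least `k` with `n ≤ tri k`) -/
theorem exists_InS {n : ℕ} (hn : 29 ≤ n) : ∃ k, 8 ≤ k ∧ InS k n := by
  have key : ∀ j, n ≤ tri (7 + j) → ∃ k, 7 ≤ k ∧ tri k < n ∧ n ≤ tri (k + 1) := by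
    intro j
    induction j with
    | zero =>
      intro h
      have : tri (7 + 0) = 28 := rfl
      omega
    | succ j ih =>
      intro h
      by_cases h' : n ≤ tri (7 + j)
      · exact ih h'
      · exact ⟨7 + j, by omega, by omega, h⟩
  obtain ⟨k, hk, h1, h2⟩ := key n (by
    have : tri (7 + n) = tri (6 + n) + (6 + n + 1) := by
      rw [show 7 + n = 6 + n + 1 by omega]; rfl
    omega)
  by_cases h : (k + 1) % 2 = 0 ∧ n + 1 = tri (k + 1)
  · exact ⟨k + 2, by omega, Or.inr ⟨by omega, h.2⟩⟩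
  · exact ⟨k + 1, by omega, Or.inl ⟨h1, h2, h⟩⟩

theorem Nice.full {k n : ℕ} (hk : 2 ≤ k) (h : Nice k n) : ∃ a, IsPar a n ∧ Full a n := by
  obtain ⟨a, m, hp, -, hsub, -, F', rfl⟩ := h
  exact ⟨wrap k a, hp.wrap (by omega) (by have := hsub 0; omega), F'⟩

/-- strong induction; `full_step` with `a = stair (k-4)`, `k' = k - 2`, `e = 1`, `wrap_stair` -/
theorem full_stair (base : ∀ k, k ≤ 10 → Full (stair k) (tri k)) :
    ∀ k, Full (stair k) (tri k) := by
  intro k
  induction k using Nat.strong_induction_on with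
  | _ k ih =>
    by_cases h10 : k ≤ 10
    · exact base k h10
    obtain ⟨j, rfl⟩ : ∃ j, k = j + 4 := ⟨k - 4, by omega⟩
    have t1 : tri (j + 1) = tri j + (j + 1) := rfl
    have t2 : tri (j + 2) = tri (j + 1) + (j + 2) := rfl
    have t3 : tri (j + 2 + 1) = tri (j + 2) + (j + 3) := rfl
    have t4 : tri (j + 4) = tri (j + 2 + 1) + (j + 4) := rfl
    have e1 : tri j + (2 * (j + 2) - 1) = tri (j + 2) := by omega
    have e2 : tri (j + 2) + (2 * (j + 2 + 1 + 1) - 1) = tri (j + 4) := by omega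
    have := full_step (a := stair j) (m := tri j) (k' := j + 2) (e := 1) (Or.inl rfl) (by omega)
      (isConj_stair j) (fun i => le_rfl) (ih j (by omega))
      (by rw [wrap_stair, e1]; exact ih (j + 2) (by omega)) (by omega)
    rw [wrap_stair, e1, e2] at this
    exact wrap_stair (j + 2) ▸ this

/-- boolean check producing `Nice` -/
theorem nice_ofL {a mu : List ℕ} {k m n : ℕ} (F : Full (ofL a) m) (F' : Full (ofL mu) n)
    (e : (parL a m && decide (conjL a = a) && decide (wrapL k a = mu) &&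
      decide (n = m + (2 * k - 1)) &&
      (List.range a.length).all fun i => decide (ofL a i ≤ k - 2 - i)) = true) : Nice k n := by
  simp only [Bool.and_eq_true, decide_eq_true_eq, List.all_eq_true, List.mem_range] at e
  obtain ⟨⟨⟨⟨e1, e2⟩, e3⟩, e4⟩, e5⟩ := e
  have hp := isPar_ofL e1
  refine ⟨ofL a, m, hp, ?_, fun i => ?_, F, by rw [← ofL_wrapL, e3]; exact F', e4⟩
  · have := isConj_ofL hp.anti
    rwa [e2] at this
  · by_cases hi : i < a.length
    · exact e5 i hi
    · rw [ofL, List.getD_eq_default _ _ (not_lt.1 hi)]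
      exact Nat.zero_le _

theorem ofL_stair (k : ℕ) : ofL ((List.range k).map fun i => k - i) = stair k := by
  funext i
  by_cases hi : i < k
  · rw [ofL, List.getD_eq_getElem _ _ (by simpa using hi)]
    simp [stair]
  · rw [ofL, List.getD_eq_default _ _ (by simpa using hi), stair]
    omega

end Crest.Agent.R195
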