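import Crest.Agent.R195.Cert9
import Crest.Agent.R195.Main

/-!
# Row 195: base cases and the final existence statements
-/

set_option autoImplicit false

namespace Crest.Agent.R195

theorem N29 : Nice 8 29 := nice_ofL F14 F29 (by decide +kernel)
theorem N30 : Nice 8 30 := nice_ofL F15 F30 (by decide +kernel)
theorem N31 : Nice 8 31 := nice_ofL F16 F31 (by decide +kernel)
theorem N32 : Nice 8 32 := nice_ofL F17 F32 (by decide +kernel)
theorem N33 : Nice 8 33 := nice_ofL F18 F33 (by decide +kernel)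
theorem N34 : Nice 8 34 := nice_ofL F19 F34 (by decide +kernel)
theorem N35 : Nice 9 35 := nice_ofL F18 F35 (by decide +kernel)
theorem N36 : Nice 8 36 := nice_ofL F21 F36 (by decide +kernel)
theorem N37 : Nice 9 37 := nice_ofL F20 F37 (by decide +kernel)
theorem N38 : Nice 9 38 := nice_ofL F21 F38 (by decide +kernel)
theorem N39 : Nice 9 39 := nice_ofL F22 F39 (by decide +kernel)
theorem N40 : Nice 9 40 := nice_ofL F23 F40 (by decide +kernel)
theorem N41 : Nice 9 41 := nice_ofL F24 F41 (by decide +kernel)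
theorem N42 : Nice 9 42 := nice_ofL F25 F42 (by decide +kernel)
theorem N43 : Nice 9 43 := nice_ofL F26 F43 (by decide +kernel)
theorem N44 : Nice 9 44 := nice_ofL F27 F44 (by decide +kernel)
theorem N45 : Nice 9 45 := nice_ofL F28 F45 (by decide +kernel)
theorem N46 : Nice 10 46 := nice_ofL F27 F46 (by decide +kernel)
theorem N47 : Nice 10 47 := nice_ofL F28 F47 (by decide +kernel)
theorem N48 : Nice 10 48 := nice_ofL F29 F48 (by decide +kernel)
theorem N49 : Nice 10 49 := nice_ofL F30 F49 (by decide +kernel)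
theorem N50 : Nice 10 50 := nice_ofL F31 F50 (by decide +kernel)
theorem N51 : Nice 10 51 := nice_ofL F32 F51 (by decide +kernel)
theorem N52 : Nice 10 52 := nice_ofL F33 F52 (by decide +kernel)
theorem N53 : Nice 10 53 := nice_ofL F34 F53 (by decide +kernel)
theorem N55 : Nice 10 55 := nice_ofL F36 F55 (by decide +kernel)

theorem nice_base (k n : ℕ) (h8 : 8 ≤ k) (h10 : k ≤ 10) (h : InS k n) : Nice k n := by
  have t7 : tri 7 = 28 := by decide
  have t8 : tri 8 = 36 := by decide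
  have t9 : tri 9 = 45 := by decide
  have t10 : tri 10 = 55 := by decide
  obtain rfl | rfl | rfl : k = 8 ∨ k = 9 ∨ k = 10 := by omega
  · have h' : (tri 7 + 1 ≤ n ∧ n ≤ tri 8 ∧ ¬ (8 % 2 = 0 ∧ n + 1 = tri 8)) ∨
        (8 % 2 = 1 ∧ n + 1 = tri 7) := h
    rw [t7, t8] at h'
    obtain rfl | rfl | rfl | rfl | rfl | rfl | rfl :
        n = 29 ∨ n = 30 ∨ n = 31 ∨ n = 32 ∨ n = 33 ∨ n = 34 ∨ n = 36 := by omega
    exacts [N29, N30, N31, N32, N33, N34, N36]
  · have h' : (tri 8 + 1 ≤ n ∧ n ≤ tri 9 ∧ ¬ (9 % 2 = 0 ∧ n + 1 = tri 9)) ∨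
        (9 % 2 = 1 ∧ n + 1 = tri 8) := h
    rw [t8, t9] at h'
    obtain rfl | rfl | rfl | rfl | rfl | rfl | rfl | rfl | rfl | rfl :
        n = 35 ∨ n = 37 ∨ n = 38 ∨ n = 39 ∨ n = 40 ∨ n = 41 ∨ n = 42 ∨ n = 43 ∨ n = 44 ∨ n = 45 := by omega
    exacts [N35, N37, N38, N39, N40, N41, N42, N43, N44, N45]
  · have h' : (tri 9 + 1 ≤ n ∧ n ≤ tri 10 ∧ ¬ (10 % 2 = 0 ∧ n + 1 = tri 10)) ∨
        (10 % 2 = 1 ∧ n + 1 = tri 9) := h
    rw [t9, t10] at h'
    obtain rfl | rfl | rfl | rfl | rfl | rfl | rfl | rfl | rfl :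
        n = 46 ∨ n = 47 ∨ n = 48 ∨ n = 49 ∨ n = 50 ∨ n = 51 ∨ n = 52 ∨ n = 53 ∨ n = 55 := by omega
    exacts [N46, N47, N48, N49, N50, N51, N52, N53, N55]

theorem small_full (n : ℕ) (h0 : 0 < n) (h28 : n ≤ 28) (h2 : n ≠ 2) (h4 : n ≠ 4) (h9 : n ≠ 9) :
    ∃ a, IsPar a n ∧ Full a n := by
  interval_cases n
  · exact ⟨_, isPar_ofL (by decide +kernel), F1⟩
  · exact absurd rfl h2
  · exact ⟨_, isPar_ofL (by decide +kernel), F3⟩
  · exact absurd rfl h4
  · exact ⟨_, isPar_ofL (by decide +kernel), F5⟩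
  · exact ⟨_, isPar_ofL (by decide +kernel), F6⟩
  · exact ⟨_, isPar_ofL (by decide +kernel), F7⟩
  · exact ⟨_, isPar_ofL (by decide +kernel), F8⟩
  · exact absurd rfl h9
  · exact ⟨_, isPar_ofL (by decide +kernel), F10⟩
  · exact ⟨_, isPar_ofL (by decide +kernel), F11⟩
  · exact ⟨_, isPar_ofL (by decide +kernel), F12⟩
  · exact ⟨_, isPar_ofL (by decide +kernel), F13⟩
  · exact ⟨_, isPar_ofL (by decide +kernel), F14⟩
  · exact ⟨_, isPar_ofL (by decide +kernel), F15⟩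
  · exact ⟨_, isPar_ofL (by decide +kernel), F16⟩
  · exact ⟨_, isPar_ofL (by decide +kernel), F17⟩
  · exact ⟨_, isPar_ofL (by decide +kernel), F18⟩
  · exact ⟨_, isPar_ofL (by decide +kernel), F19⟩
  · exact ⟨_, isPar_ofL (by decide +kernel), F20⟩
  · exact ⟨_, isPar_ofL (by decide +kernel), F21⟩
  · exact ⟨_, isPar_ofL (by decide +kernel), F22⟩
  · exact ⟨_, isPar_ofL (by decide +kernel), F23⟩
  · exact ⟨_, isPar_ofL (by decide +kernel), F24⟩
  · exact ⟨_, isPar_ofL (by decide +kernel), F25⟩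
  · exact ⟨_, isPar_ofL (by decide +kernel), F26⟩
  · exact ⟨_, isPar_ofL (by decide +kernel), F27⟩
  · exact ⟨_, isPar_ofL (by decide +kernel), F28⟩

theorem exists_full (n : ℕ) (h0 : 0 < n) (h2 : n ≠ 2) (h4 : n ≠ 4) (h9 : n ≠ 9) :
    ∃ a, IsPar a n ∧ Full a n := by
  by_cases h28 : n ≤ 28
  · exact small_full n h0 h28 h2 h4 h9
  · obtain ⟨k, hk, hS⟩ := exists_InS (n := n) (by omega)
    exact (nice_all nice_base k n hk hS).full (by omega)

theorem stair_base (k : ℕ) (hk : k ≤ 10) : Full (stair k) (tri k) := by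
  rw [← ofL_stair]
  interval_cases k
  exacts [full_nil, F1, F3, F6, F10, F15, F21, F28, F36, F45, F55]

theorem full_stair_all (k : ℕ) : Full (stair k) (tri k) := full_stair stair_base k

end Crest.Agent.R195
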