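import Crest.Agent.R195.Cert7

/-!
# Row 195: generated certificates, part 8
-/

set_option autoImplicit false
set_option maxRecDepth 4000

namespace Crest.Agent.R195

theorem t721 : GG [9, 8, 6, 3, 3, 3, 2, 1] [9, 8, 6, 3, 3, 3, 2, 1] [9, 5, 5, 5, 5, 1, 1, 1, 1, 1, 1] :=
  GG.sg t39
    t706 (by decide +kernel)
theorem t722 : GG [9, 8, 6, 3, 3, 3, 2, 2, 1] [9, 8, 6, 3, 3, 3, 2, 2, 1] [11, 5, 5, 5, 5, 1, 1, 1, 1, 1, 1] :=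
  GG.sg t39
    (t721.var (a' := [8, 7, 6, 3, 3, 3, 2, 2, 1]) (b' := [8, 7, 6, 3, 3, 3, 2, 2, 1]) (c' := [9, 5, 5, 5, 5, 1, 1, 1, 1, 1, 1]) 1 0 (by decide +kernel)) (by decide +kernel)
theorem A37 : AllG [9, 8, 6, 3, 3, 3, 2, 2, 1] [[11, 5, 5, 5, 5, 1, 1, 1, 1, 1, 1]] :=
  AllG.cons t722 <|
    AllG.nil _
theorem F37 : Full (ofL [9, 8, 6, 3, 3, 3, 2, 2, 1]) 37 :=
  full2 7 1 F20 F7 A37 (by decide +kernel)
theorem A38 : AllG [9, 7, 6, 5, 4, 3, 2, 1, 1] [] :=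
  AllG.nil _
theorem F38 : Full (ofL [9, 7, 6, 5, 4, 3, 2, 1, 1]) 38 :=
  full2 6 2 F21 F10 A38 (by decide +kernel)
theorem A39 : AllG [9, 7, 6, 5, 5, 3, 2, 1, 1] [] :=
  AllG.nil _
theorem F39 : Full (ofL [9, 7, 6, 5, 5, 3, 2, 1, 1]) 39 :=
  full2 6 2 F22 F11 A39 (by decide +kernel)
theorem A40 : AllG [9, 8, 6, 5, 4, 3, 2, 2, 1] [] :=
  AllG.nil _
theorem F40 : Full (ofL [9, 8, 6, 5, 4, 3, 2, 2, 1]) 40 :=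
  full2 7 1 F23 F10 A40 (by decide +kernel)
theorem A41 : AllG [9, 8, 6, 5, 5, 3, 2, 2, 1] [] :=
  AllG.nil _
theorem F41 : Full (ofL [9, 8, 6, 5, 5, 3, 2, 2, 1]) 41 :=
  full2 7 1 F24 F11 A41 (by decide +kernel)
theorem A42 : AllG [9, 8, 7, 5, 4, 3, 3, 2, 1] [] :=
  AllG.nil _
theorem F42 : Full (ofL [9, 8, 7, 5, 4, 3, 3, 2, 1]) 42 :=
  full2 7 1 F25 F12 A42 (by decide +kernel)
theorem A43 : AllG [9, 8, 7, 5, 5, 3, 3, 2, 1] [] :=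
  AllG.nil _
theorem F43 : Full (ofL [9, 8, 7, 5, 5, 3, 3, 2, 1]) 43 :=
  full2 7 1 F26 F13 A43 (by decide +kernel)
theorem A44 : AllG [9, 8, 7, 6, 4, 4, 3, 2, 1] [] :=
  AllG.nil _
theorem F44 : Full (ofL [9, 8, 7, 6, 4, 4, 3, 2, 1]) 44 :=
  full2 7 1 F27 F14 A44 (by decide +kernel)
theorem A45 : AllG [9, 8, 7, 6, 5, 4, 3, 2, 1] [] :=
  AllG.nil _
theorem F45 : Full (ofL [9, 8, 7, 6, 5, 4, 3, 2, 1]) 45 :=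
  full2 7 1 F28 F15 A45 (by decide +kernel)

end Crest.Agent.R195
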