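import Crest.Agent.R195.Cert8

/-!
# Row 195: generated certificates, part 9
-/

set_option autoImplicit false
set_option maxRecDepth 4000

namespace Crest.Agent.R195

theorem A46 : AllG [10, 8, 7, 6, 4, 4, 3, 2, 1, 1] [] :=
  AllG.nil _
theorem F46 : Full (ofL [10, 8, 7, 6, 4, 4, 3, 2, 1, 1]) 46 :=
  full2 7 2 F27 F14 A46 (by decide +kernel)
theorem A47 : AllG [10, 8, 7, 6, 5, 4, 3, 2, 1, 1] [] :=
  AllG.nil _
theorem F47 : Full (ofL [10, 8, 7, 6, 5, 4, 3, 2, 1, 1]) 47 :=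
  full2 7 2 F28 F15 A47 (by decide +kernel)
theorem A48 : AllG [10, 9, 7, 6, 4, 4, 3, 2, 2, 1] [] :=
  AllG.nil _
theorem F48 : Full (ofL [10, 9, 7, 6, 4, 4, 3, 2, 2, 1]) 48 :=
  full2 8 1 F29 F14 A48 (by decide +kernel)
theorem A49 : AllG [10, 9, 7, 6, 5, 4, 3, 2, 2, 1] [] :=
  AllG.nil _
theorem F49 : Full (ofL [10, 9, 7, 6, 5, 4, 3, 2, 2, 1]) 49 :=
  full2 8 1 F30 F15 A49 (by decide +kernel)
theorem A50 : AllG [10, 9, 8, 6, 4, 4, 3, 3, 2, 1] [] :=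
  AllG.nil _
theorem F50 : Full (ofL [10, 9, 8, 6, 4, 4, 3, 3, 2, 1]) 50 :=
  full2 8 1 F31 F16 A50 (by decide +kernel)
theorem A51 : AllG [10, 9, 8, 6, 5, 4, 3, 3, 2, 1] [] :=
  AllG.nil _
theorem F51 : Full (ofL [10, 9, 8, 6, 5, 4, 3, 3, 2, 1]) 51 :=
  full2 8 1 F32 F17 A51 (by decide +kernel)
theorem A52 : AllG [10, 9, 8, 7, 4, 4, 4, 3, 2, 1] [] :=
  AllG.nil _
theorem F52 : Full (ofL [10, 9, 8, 7, 4, 4, 4, 3, 2, 1]) 52 :=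
  full2 8 1 F33 F18 A52 (by decide +kernel)
theorem A53 : AllG [10, 9, 8, 7, 5, 4, 4, 3, 2, 1] [] :=
  AllG.nil _
theorem F53 : Full (ofL [10, 9, 8, 7, 5, 4, 4, 3, 2, 1]) 53 :=
  full2 8 1 F34 F19 A53 (by decide +kernel)
theorem A55 : AllG [10, 9, 8, 7, 6, 5, 4, 3, 2, 1] [] :=
  AllG.nil _
theorem F55 : Full (ofL [10, 9, 8, 7, 6, 5, 4, 3, 2, 1]) 55 :=
  full2 8 1 F36 F21 A55 (by decide +kernel)

end Crest.Agent.R195
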