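import Crest.Agent.R195.Ev

/-!
# Row 195, task Chain: cancelling the factors `qq l l`, `uu l` one at a time
-/

set_option autoImplicit false

open Finset Equiv MvPolynomial

namespace Crest.Agent.R195

variable {X : Type} [Fintype X] [DecidableEq X] {L : Type} [DecidableEq L]
  {V : Type} [AddCommGroup V] [Module ℂ V]

theorem dE_qq (m l a b : L) :
    dE m l (qq a b) = (if a = l then qq m b else 0) + (if b = l then qq a m else 0) := by
  unfold qq dE
  by_cases ha : a = l <;> by_cases hb : b = l <;>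
    simp [dP_X, ha, hb, Finset.sum_add_distrib, mul_comm, add_comm]

theorem dE_uu (m l a : L) : dE m l (uu a) = if a = l then uu m else 0 := by
  unfold uu dE
  by_cases ha : a = l <;> simp [dP_X, ha, derivation_C]

theorem qq_comm (a b : L) : qq a b = qq b a := by
  simp [qq, mul_comm]

theorem dE_mem_IQ (m l : L) : ∀ p ∈ IQ L, dE m l p ∈ IQ L := by
  -- `Submodule.span_induction`, Leibniz
  intro p hp
  induction hp using Submodule.span_induction with
  | mem p hp =>
    obtain ⟨⟨a, b⟩, rfl⟩ := hp
    rw [dE_qq]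
    refine Ideal.add_mem _ ?_ ?_ <;> split_ifs
    · exact Ideal.subset_span ⟨(m, b), rfl⟩
    · exact Ideal.zero_mem _
    · exact Ideal.subset_span ⟨(a, m), rfl⟩
    · exact Ideal.zero_mem _
  | zero => rw [map_zero]; exact Ideal.zero_mem _
  | add p q _ _ hp hq => rw [map_add]; exact Ideal.add_mem _ hp hq
  | smul a p hp ih =>
    rw [smul_eq_mul, Derivation.leibniz]
    exact Ideal.add_mem _ (Ideal.mul_mem_left _ _ ih) (Ideal.mul_mem_right _ _ hp)

theorem dE_mem_IU (m l : L) : ∀ p ∈ IU L, dE m l p ∈ IU L := by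
  intro p hp
  induction hp using Submodule.span_induction with
  | mem p hp =>
    obtain ⟨a, rfl⟩ := hp
    rw [dE_uu]
    split_ifs
    · exact Ideal.subset_span ⟨m, rfl⟩
    · exact Ideal.zero_mem _
  | zero => rw [map_zero]; exact Ideal.zero_mem _
  | add p q _ _ hp hq => rw [map_add]; exact Ideal.add_mem _ hp hq
  | smul a p hp ih =>
    rw [smul_eq_mul, Derivation.leibniz]
    exact Ideal.add_mem _ (Ideal.mul_mem_left _ _ ih) (Ideal.mul_mem_right _ _ hp)

/-- if the letter `m` does not occur in `h`, `Ann h` is stable under `dE a m`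
(`eL_ev`; `eL a m h = 0`, also for `a = m`) -/
theorem dE_mem_Ann {h : (X → Al L) → V} {m : L} (hm : DegLE h m 0) (a : L) {p : Pol L}
    (hp : p ∈ Ann h) : dE a m p ∈ Ann h := by
  have h1 : eL X V a m h = 0 := by
    funext w
    by_contra hw
    rw [eL_eq] at hw
    obtain ⟨x, -, h1⟩ := opE_ne_zero hw
    exact degLE_zero_iff.1 hm _ h1 x (Function.update_self _ _ _)
  have h2 := eL_ev a m p h
  rw [mem_Ann.1 hp, h1, map_zero, map_zero, zero_add] at h2
  exact h2.symm

/-- infinitely many fresh letters -/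
theorem FinL.exists_fresh [Infinite L] {h : (X → Al L) → V} (hh : FinL h) (T : Finset L)
    (ι : Type) [Fintype ι] :
    ∃ m : ι → L, Function.Injective m ∧ ∀ i, m i ∉ T ∧ DegLE h (m i) 0 := by
  obtain ⟨S, hS⟩ := hh
  let e := (Finset.finite_toSet (S ∪ T)).infinite_compl.natEmbedding
  refine ⟨fun i => (e (Fintype.equivFin ι i)).1, fun i j hij => ?_, fun i => ?_⟩
  · exact (Fintype.equivFin ι).injective (Fin.ext (e.injective (Subtype.ext hij)))
  · have := (e (Fintype.equivFin ι i)).2
    simp only [Finset.coe_union, Set.mem_compl_iff, Set.mem_union, Finset.mem_coe, not_or] at this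
    exact ⟨this.2, degLE_zero_iff.2 fun w hw x hx => this.1 (hS w hw x _ hx)⟩

/-- membership criterion for `I ^ r ≤ N` when `I` is spanned by a range
(`Ideal.span`/`Submodule.span_pow`, `Set.mem_pow`) -/
theorem span_range_pow_le {A ι : Type} [CommRing A] (g : ι → A) (r : ℕ) (N : Ideal A)
    (h : ∀ k : Fin r → ι, ∏ i, g (k i) ∈ N) : Ideal.span (Set.range g) ^ r ≤ N := by
  rw [Ideal.span, Submodule.span_pow, Submodule.span_le]
  intro x hx
  obtain ⟨f, rfl⟩ := Set.mem_pow.1 hx
  choose k hk using fun i => (f i).2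
  rw [List.prod_ofFn]
  have := h k
  simp only [hk] at this
  exact this

theorem deriv_prod_eq_zero {A : Type} [CommRing A] [Algebra ℂ A] (δ : Derivation ℂ A A) {ι : Type}
    [DecidableEq ι] (s : Finset ι) (f : ι → A) (h : ∀ i ∈ s, δ (f i) = 0) : δ (∏ i ∈ s, f i) = 0 := by
  rw [deriv_prod]
  exact Finset.sum_eq_zero fun i hi => by rw [h i hi, zero_mul]

omit [DecidableEq L] in
theorem mem_of_natCast_mul_mem (I : Ideal (Pol L)) (n : ℕ) {p : Pol L} (h : ((n + 1 : ℕ) : Pol L) * p ∈ I) :
    p ∈ I := by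
  refine (Ideal.unit_mul_mem_iff_mem I ?_).1 h
  rw [← map_natCast (C : ℂ →+* Pol L)]
  exact (Ne.isUnit (Nat.cast_ne_zero.2 n.succ_ne_zero)).map C

/-- **Polarisation for `q`.**  Given pairs `(a i, b i)`, choose fresh distinct `m i` different from
all `a j`, `b j`; by induction on `A : Finset (Fin r)`,
`∏_{i ∈ A} qq (a i) (b i) * ∏_{i ∉ A} qq (m i) (m i) ∈ Ann h`: apply `dE (a i) (m i)` after
`dE (b i) (m i)`, which kill the other factors and send `qq m m` to `2 * qq (a i) (b i)`. -/
theorem polarQ [Infinite L] {h : (X → Al L) → V} (hh : FinL h) {r : ℕ}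
    (H : ∀ m : Fin r → L, Function.Injective m → (∀ i, DegLE h (m i) 0) →
      ∏ i, qq (m i) (m i) ∈ Ann h) : IQ L ^ r ≤ Ann h := by
  refine span_range_pow_le _ r _ fun k => ?_
  obtain ⟨m, hm, hm'⟩ := hh.exists_fresh (univ.image (fun i => (k i).1) ∪ univ.image fun i => (k i).2) (Fin r)
  have ha : ∀ i j, (k i).1 ≠ m j := fun i j e => (hm' j).1 (by simp [← e])
  have hb : ∀ i j, (k i).2 ≠ m j := fun i j e => (hm' j).1 (by simp [← e])
  have key : ∀ A : Finset (Fin r),
      ∏ i, (if i ∈ A then qq (k i).1 (k i).2 else qq (m i) (m i)) ∈ Ann h := by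
    intro A
    induction A using Finset.induction_on with
    | empty => simpa using H m hm fun i => (hm' i).2
    | insert i A hi ih =>
      rw [← Finset.mul_prod_erase _ _ (Finset.mem_univ i)] at ih ⊢
      rw [if_neg hi] at ih
      rw [if_pos (Finset.mem_insert_self _ _), Finset.prod_congr rfl fun j hj => by
        rw [if_congr (Finset.mem_insert.trans (or_iff_right (Finset.ne_of_mem_erase hj))) rfl rfl]]
      set p := ∏ j ∈ univ.erase i, (if j ∈ A then qq (k j).1 (k j).2 else qq (m j) (m j)) with hp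
      have h0 : ∀ c, dE c (m i) p = 0 := fun c => deriv_prod_eq_zero _ _ _ fun j hj => by
        have : m j ≠ m i := fun e => Finset.ne_of_mem_erase hj (hm e)
        split_ifs <;> simp [dE_qq, ha, hb, this]
      have h1 := dE_mem_Ann (hm' i).2 (k i).1 (dE_mem_Ann (hm' i).2 (k i).2 ih)
      refine mem_of_natCast_mul_mem _ 1 ?_
      convert h1 using 1
      simp only [Derivation.leibniz, h0, smul_eq_mul, mul_zero, zero_add, dE_qq, if_true, map_add, hb, if_false,
        add_zero, qq_comm (k i).2 (k i).1]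
      push_cast
      ring
  simpa using key univ

/-- **Polarisation for `u`.**  Choose `m` fresh, different from all `a i`; induction on `j`:
`uu m ^ (r - j) * ∏_{i<j} uu (a i) ∈ Ann h` by applying `dE (a j) m`. -/
theorem polarU [Infinite L] {h : (X → Al L) → V} (hh : FinL h) {r : ℕ}
    (H : ∀ m : L, DegLE h m 0 → uu m ^ r ∈ Ann h) : IU L ^ r ≤ Ann h := by
  refine span_range_pow_le _ r _ fun k => ?_
  obtain ⟨m, -, hm'⟩ := hh.exists_fresh (univ.image k) Unit
  have ha : ∀ i, k i ≠ m () := fun i e => (hm' ()).1 (by simp [← e])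
  have key : ∀ A : Finset (Fin r), uu (m ()) ^ (r - #A) * ∏ i ∈ A, uu (k i) ∈ Ann h := by
    intro A
    induction A using Finset.induction_on with
    | empty => simpa using H _ (hm' ()).2
    | insert i A hi ih =>
      have h1 : #(insert i A) ≤ r := (Finset.card_le_univ _).trans_eq (Fintype.card_fin r)
      rw [Finset.card_insert_of_notMem hi] at h1 ⊢
      rw [show r - #A = r - (#A + 1) + 1 by omega] at ih
      have h0 : dE (k i) (m ()) (∏ i ∈ A, uu (k i)) = 0 :=
        deriv_prod_eq_zero _ _ _ fun j _ => by simp [dE_uu, ha]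
      refine mem_of_natCast_mul_mem _ (r - (#A + 1)) ?_
      convert dE_mem_Ann (hm' ()).2 (k i) ih using 1
      rw [Derivation.leibniz, h0, Derivation.leibniz_pow, dE_uu, if_pos rfl, Finset.prod_insert hi]
      simp only [smul_eq_mul, nsmul_eq_mul, Nat.add_sub_cancel]
      ring
  simpa using key univ

end Crest.Agent.R195
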