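import Crest.Agent.R195.Weyl

/-!
# Row 195, task Chain2: the chain lemmas
-/

set_option autoImplicit false

open Finset Equiv MvPolynomial

namespace Crest.Agent.R195

variable {X : Type} [Fintype X] [DecidableEq X] {L : Type} [DecidableEq L]
  {V : Type} [AddCommGroup V] [Module ℂ V]

/-- One step.  `polarQ`: given fresh `m`, choose four more fresh letters `n c` (`FinL.exists_fresh`,
avoiding `l` and the `m i`).  `stepQ` with `φ = ev`, `e = eL (n c) l`, `δ = dE (n c) l` (`eL_ev`),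
`a = qq l l`, `b = qq (n c) l + qq l (n c)`, `c = qq (n c) (n c)` (`dE_qq`, `DegLE.eL_pow`);
`sum_four_pow_mem`; `weyl`. -/
theorem stepQ' [Infinite L] {h : (X → Al L) → V} (hf : FinL h) {l : L} {d s : ℕ}
    (hd : DegLE h l d) (hds : 4 * d ≤ s) (h4 : Hom4 h (2 * (s + 1)))
    (H : IQ L ^ s ≤ Ann (ev X L V (qq l l) h)) : IQ L ^ (s + 1) ≤ Ann h := by
  refine polarQ hf fun m hm hm0 => ?_
  obtain ⟨n, hn, hn'⟩ := hf.exists_fresh (insert l (univ.image m)) (Fin 4)
  have hl : ∀ c, n c ≠ l := fun c e => (hn' c).1 (by simp [e])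
  have hq : ∀ a b : L, qq a b ∈ IQ L := fun a b => Ideal.subset_span ⟨(a, b), rfl⟩
  refine weyl h4 m n hm hn (fun i c e => (hn' c).1 (by simp [← e])) hm0 (fun c => (hn' c).2)
    (sum_four_pow_mem (IQ L) (Ann h) (fun c => qq (n c) (n c)) (fun c => hq _ _) hds fun c p hp => ?_)
  exact stepQ (ev X L V) (dE (n c) l) (eL X V (n c) l) (fun p m => eL_ev _ _ p m) (IQ L) (dE_mem_IQ _ _)
    (hq l l) (Ideal.add_mem _ (hq (n c) l) (hq l (n c))) (hq (n c) (n c)) (by simp [dE_qq])
    (by simp [dE_qq, hl, two_mul]) (by simp [dE_qq, hl]) (by omega) (hd.eL_pow (hl c))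
    (fun p hp => (ev_mul _ _ _).trans (H hp)) p hp

/-- One step.  `polarU`: for fresh `m ≠ l` use `stepU` with `p = uu m ^ (s - d)`; for `m = l` use
`H` directly with `uu l ^ s`. -/
theorem stepU' [Infinite L] {h : (X → Al L) → V} (hf : FinL h) {l : L} {d s : ℕ}
    (hd : DegLE h l d) (hds : d ≤ s) (H : IU L ^ s ≤ Ann (ev X L V (uu l) h)) :
    IU L ^ (s + 1) ≤ Ann h := by
  have hq : ∀ a : L, uu a ∈ IU L := fun a => Ideal.subset_span ⟨a, rfl⟩
  refine polarU hf fun m _ => ?_
  by_cases hm : m = l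
  · rw [hm, pow_succ]
    exact (ev_mul _ _ _).trans (H (Ideal.pow_mem_pow (hq l) s))
  · have := stepU (ev X L V) (dE m l) (eL X V m l) (fun p m => eL_ev _ _ p m) (IU L) (dE_mem_IU _ _)
      (hq l) (hq m) (by simp [dE_uu]) (by simp [dE_uu, hm]) hds (hd.eL_pow hm)
      (fun p hp => (ev_mul _ _ _).trans (H hp)) _ (Ideal.pow_mem_pow (hq m) (s - d))
    rwa [← pow_add, show s - d + (d + 1) = s + 1 by omega] at this

/-- removing an element of maximal `d` preserves the Hall condition -/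
theorem hall_erase {ι : Type} [DecidableEq ι] (m : ℕ) (d : ι → ℕ) (T : Finset ι) (i0 : ι)
    (hi0 : i0 ∉ T) (hmax : ∀ i ∈ T, d i ≤ d i0)
    (hall : ∀ j < #(insert i0 T), j < #{i ∈ insert i0 T | m * d i ≤ j}) :
    m * d i0 ≤ #T ∧ ∀ j < #T, j < #{i ∈ T | m * d i ≤ j} := by
  rw [Finset.card_insert_of_notMem hi0] at hall
  constructor
  · by_contra hc
    have := hall #T (Nat.lt_succ_self _)
    rw [Finset.filter_insert, if_neg hc] at this
    exact absurd (Finset.card_filter_le _ _) (not_le.2 this)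
  · intro j hj
    by_cases hc : m * d i0 ≤ j
    · rwa [Finset.filter_true_of_mem fun i hi => (Nat.mul_le_mul_left m (hmax i hi)).trans hc]
    · have := hall j (Nat.lt_succ_of_lt hj)
      rwa [Finset.filter_insert, if_neg hc] at this

/-- `Finset.induction_on_max_value d`, generalising `h`; apply the induction hypothesis to
`ev (qq (l i0) (l i0)) h` (`DegLE.ev`, `vars_qq`, `Hom4.ev`, `FinL.ev`), then `stepQ'`. -/
theorem chainQ [Infinite L] {ι : Type} [DecidableEq ι] (T : Finset ι) (l : ι → L)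
    (hl : Set.InjOn l T) (d : ι → ℕ) (hall : ∀ j < #T, j < #{i ∈ T | 4 * d i ≤ j})
    {h : (X → Al L) → V} (hf : FinL h) (hd : ∀ i ∈ T, DegLE h (l i) (d i)) (h4 : Hom4 h (2 * #T))
    (H : ∏ i ∈ T, qq (l i) (l i) ∈ Ann h) : IQ L ^ #T ≤ Ann h := by
  induction T using Finset.induction_on_max_value d generalizing h with
  | empty =>
    rw [Finset.prod_empty] at H
    rw [(Ideal.eq_top_iff_one _).2 H]
    exact le_top
  | insert i0 T hi0 hmax ih =>
    obtain ⟨h1, h2⟩ := hall_erase 4 d T i0 hi0 hmax hall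
    rw [Finset.card_insert_of_notMem hi0] at h4 ⊢
    rw [Finset.prod_insert hi0, mul_comm] at H
    refine stepQ' hf (hd i0 (Finset.mem_insert_self _ _)) h1 h4
      (ih (hl.mono (by simp)) h2 (hf.ev _) (fun i hi => (hd i (Finset.mem_insert_of_mem hi)).ev
        fun v hv e => hi0 ?_) (Hom4.ev (m := 2) h4 (qq_isHomogeneous _ _)) ((ev_mul _ _ _).symm.trans H))
    have := (vars_qq _ _ v hv).elim id id
    rwa [hl (by simp) (by simp [hi]) (this.symm.trans e)]

theorem chainU [Infinite L] {ι : Type} [DecidableEq ι] (T : Finset ι) (l : ι → L)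
    (hl : Set.InjOn l T) (d : ι → ℕ) (hall : ∀ j < #T, j < #{i ∈ T | 1 * d i ≤ j})
    {h : (X → Al L) → V} (hf : FinL h) (hd : ∀ i ∈ T, DegLE h (l i) (d i))
    (H : ∏ i ∈ T, uu (l i) ∈ Ann h) : IU L ^ #T ≤ Ann h := by
  induction T using Finset.induction_on_max_value d generalizing h with
  | empty =>
    rw [Finset.prod_empty] at H
    rw [(Ideal.eq_top_iff_one _).2 H]
    exact le_top
  | insert i0 T hi0 hmax ih =>
    obtain ⟨h1, h2⟩ := hall_erase 1 d T i0 hi0 hmax hall
    rw [Finset.card_insert_of_notMem hi0]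
    rw [Finset.prod_insert hi0, mul_comm] at H
    refine stepU' hf (hd i0 (Finset.mem_insert_self _ _)) (by omega)
      (ih (hl.mono (by simp)) h2 (hf.ev _) (fun i hi => (hd i (Finset.mem_insert_of_mem hi)).ev
        fun v hv e => hi0 ?_) ((ev_mul _ _ _).symm.trans H))
    rwa [hl (by simp) (by simp [hi]) ((vars_uu _ v hv).symm.trans e)]

end Crest.Agent.R195
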