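import Mathlib

/-!
# Row 195 (Saxl / tensor square conjecture): definitions

Word model for representations of `Perm X`.  A *word* is a function `X → A` (`A` an alphabet).
We study functions `f : (X → A) → V`, `V` a representation of `Perm X`.
`opE a b` is the `gl`-generator `E_{ab}` acting on such functions.
`HW a f` : `f` has content `a` and is killed by the raising operators.
`HV ρ a` : the Specht module `S^a` occurs in `ρ`; `K ρ a b` : `Hom(S^a ⊗ S^b, ρ) ≠ 0`;
`G a b c` : the Kronecker coefficient `g(a,b,c)` is non-zero.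
Partitions are antitone functions `ℕ → ℕ` (`IsPar a n`).
-/

set_option autoImplicit false

open Finset Equiv

namespace Crest.Agent.R195

/-! ### Partitions -/

/-- `a` is a partition of `n`. -/
structure IsPar (a : ℕ → ℕ) (n : ℕ) : Prop where
  anti : Antitone a
  zero : a n = 0
  sum : ∑ i ∈ range n, a i = n

/-- `a'` is the conjugate (transpose) of `a`. -/
def IsConj (a a' : ℕ → ℕ) : Prop := ∀ i j, j < a i ↔ i < a' j

/-- a column of length `k` -/
def col (k : ℕ) : ℕ → ℕ := fun i => if i < k then 1 else 0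

/-- put a row of length `m` on top of `a` -/
def cons (m : ℕ) (a : ℕ → ℕ) : ℕ → ℕ := fun i => if i = 0 then m else a (i - 1)

/-- wrap a hook with `2k-1` cells around `a` -/
def wrap (k : ℕ) (a : ℕ → ℕ) : ℕ → ℕ := cons (k - 1) a + col k

/-- the staircase `(k, k-1, …, 1)` -/
def stair (k : ℕ) : ℕ → ℕ := fun i => k - i

/-- triangular numbers -/
def tri : ℕ → ℕ
  | 0 => 0
  | k + 1 => tri k + (k + 1)

/-- the function given by a list -/
def ofL (l : List ℕ) : ℕ → ℕ := fun i => l.getD i 0

/-- cells `(row, column)` of a partition of `n` -/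
def cells (a : ℕ → ℕ) (n : ℕ) : Finset (ℕ × ℕ) :=
  (range n ×ˢ range n).filter fun p => p.2 < a p.1

/-! ### Operators on functions of words -/

section Ops
variable {X : Type} [Fintype X] [DecidableEq X] {A : Type} [DecidableEq A]
  {V : Type} [AddCommGroup V] [Module ℂ V]

/-- `opP p t f w = ∑_{x : p (w x)} f (w[x := t (w x)])`. -/
def opP (p : A → Bool) (t : A → A) : Module.End ℂ ((X → A) → V) where
  toFun f w := ∑ x, if p (w x) then f (Function.update w x (t (w x))) else 0
  map_add' f g := by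
    funext w
    simp only [Pi.add_apply, ← Finset.sum_add_distrib]
    refine Finset.sum_congr rfl fun x _ => ?_
    split_ifs <;> simp
  map_smul' c f := by
    funext w
    simp only [Pi.smul_apply, RingHom.id_apply, Finset.smul_sum]
    refine Finset.sum_congr rfl fun x _ => ?_
    split_ifs <;> simp

theorem opP_apply (p : A → Bool) (t : A → A) (f : (X → A) → V) (w : X → A) :
    opP p t f w = ∑ x, if p (w x) then f (Function.update w x (t (w x))) else 0 := rfl

/-- `E_{ab}`: `opE a b f w = ∑_{x : w x = a} f (w[x := b])`. -/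
def opE (a b : A) : Module.End ℂ ((X → A) → V) := opP (fun l => decide (l = a)) (fun _ => b)

theorem opE_apply (a b : A) (f : (X → A) → V) (w : X → A) :
    opE a b f w = ∑ x, if w x = a then f (Function.update w x b) else 0 := by
  simp [opE, opP_apply]

/-- the off-diagonal part of a product of two `opP`'s -/
def opD (p : A → Bool) (t : A → A) (p' : A → Bool) (t' : A → A) (f : (X → A) → V) (w : X → A) :
    V :=
  ∑ x, ∑ y, if x ≠ y ∧ p (w x) ∧ p' (w y) then
    f (Function.update (Function.update w x (t (w x))) y (t' (w y))) else 0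

theorem opD_comm (p : A → Bool) (t : A → A) (p' : A → Bool) (t' : A → A) (f : (X → A) → V)
    (w : X → A) : opD p t p' t' f w = opD p' t' p t f w := by
  unfold opD
  rw [Finset.sum_comm]
  refine Finset.sum_congr rfl fun x _ => Finset.sum_congr rfl fun y _ => ?_
  by_cases h : y ≠ x ∧ p (w y) ∧ p' (w x)
  · rw [if_pos h, if_pos ⟨h.1.symm, h.2.2, h.2.1⟩, Function.update_comm h.1]
  · rw [if_neg h, if_neg fun h' => h ⟨h'.1.symm, h'.2.2, h'.2.1⟩]

theorem opP_opP (p : A → Bool) (t : A → A) (p' : A → Bool) (t' : A → A) (f : (X → A) → V)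
    (w : X → A) :
    opP p t (opP p' t' f) w
      = opD p t p' t' f w + opP (fun l => p l && p' (t l)) (fun l => t' (t l)) f w := by
  unfold opD
  simp only [opP_apply, ← Finset.sum_add_distrib]
  refine Finset.sum_congr rfl fun x _ => ?_
  by_cases hx : p (w x)
  · rw [if_pos hx, ← Finset.add_sum_erase _ _ (Finset.mem_univ x),
      ← Finset.add_sum_erase _ _ (Finset.mem_univ x)]
    simp only [Function.update_self, Function.update_idem, ne_eq, not_true, false_and, if_false,
      zero_add, hx, Bool.true_and, true_and]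
    rw [add_comm]
    congr 1
    refine Finset.sum_congr rfl fun y hy => ?_
    have hxy : y ≠ x := (Finset.mem_erase.1 hy).1
    simp [Function.update_of_ne hxy, hxy.symm]
  · simp [hx]

/-- commutation relation of the operators `opP` -/
theorem opP_comm (p : A → Bool) (t : A → A) (p' : A → Bool) (t' : A → A) :
    (opP p t * opP p' t' + opP (fun l => p' l && p (t' l)) (fun l => t (t' l)) :
        Module.End ℂ ((X → A) → V))
      = opP p' t' * opP p t + opP (fun l => p l && p' (t l)) (fun l => t' (t l)) := by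
  ext f w
  simp only [LinearMap.add_apply, Module.End.mul_apply, Pi.add_apply, opP_opP]
  rw [opD_comm p t p' t']
  abel

theorem opP_false (t : A → A) : (opP (fun _ => false) t : Module.End ℂ ((X → A) → V)) = 0 := by
  ext f w
  simp [opP_apply]

end Ops

/-! ### Representations, highest weight functions -/

section Rep
variable {X : Type} [Fintype X] [DecidableEq X] {V : Type} [AddCommGroup V] [Module ℂ V]

/-- the word `α` has content `a` -/
def Cont (a : ℕ → ℕ) (α : X → ℕ) : Prop := ∀ i, #{x | α x = i} = a i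

/-- `f` has content `a` and is killed by the raising operators -/
structure HW (a : ℕ → ℕ) (f : (X → ℕ) → V) : Prop where
  cont : ∀ α, f α ≠ 0 → Cont a α
  kill : ∀ i j, i < j → opE i j f = 0

variable (X V) in
/-- the space of highest weight functions -/
def HWs (a : ℕ → ℕ) : Submodule ℂ ((X → ℕ) → V) where
  carrier := {f | HW a f}
  zero_mem' := ⟨fun _ h => absurd rfl h, fun _ _ _ => map_zero _⟩
  add_mem' := by
    intro f g hf hg
    refine ⟨fun α h => ?_, fun i j hij => by rw [map_add, hf.kill i j hij, hg.kill i j hij, add_zero]⟩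
    by_cases h1 : f α = 0
    · exact hg.cont α (by simpa [h1] using h)
    · exact hf.cont α h1
  smul_mem' := by
    intro c f hf
    refine ⟨fun α h => hf.cont α fun h1 => h (by simp [h1]),
      fun i j hij => by rw [map_smul, hf.kill i j hij, smul_zero]⟩

theorem mem_HWs {a : ℕ → ℕ} {f : (X → ℕ) → V} : f ∈ HWs X V a ↔ HW a f := Iff.rfl

/-- equivariant function of words -/
def Eqv {A : Type} (ρ : Representation ℂ (Perm X) V) (f : (X → A) → V) : Prop :=
  ∀ (g : Perm X) (w : X → A), ρ g (f (w ∘ g)) = f w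

/-- the representation on functions of words: `(g • f) w = ρ g (f (w ∘ g))` -/
def funRep (A : Type) (ρ : Representation ℂ (Perm X) V) :
    Representation ℂ (Perm X) ((X → A) → V) where
  toFun g :=
    { toFun := fun f w => ρ g (f (w ∘ g))
      map_add' := fun f f' => by funext w; simp
      map_smul' := fun c f => by funext w; simp }
  map_one' := by ext f w; simp
  map_mul' g h := by
    ext f w
    simp [Function.comp_assoc]

theorem funRep_apply {A : Type} (ρ : Representation ℂ (Perm X) V) (g : Perm X)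
    (f : (X → A) → V) (w : X → A) : funRep A ρ g f w = ρ g (f (w ∘ g)) := rfl

theorem update_comp_perm {A : Type} (w : X → A) (g : Perm X) (x : X) (b : A) :
    Function.update w (g x) b ∘ g = Function.update (w ∘ g) x b := by
  funext y
  by_cases h : y = x
  · subst h; simp
  · simp [Function.update_of_ne h, Function.update_of_ne (g.injective.ne h)]

theorem opP_funRep {A : Type} [DecidableEq A] (ρ : Representation ℂ (Perm X) V) (g : Perm X)
    (p : A → Bool) (t : A → A) (f : (X → A) → V) :
    opP p t (funRep A ρ g f) = funRep A ρ g (opP p t f) := by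
  funext w
  simp only [funRep_apply, opP_apply, map_sum]
  rw [← Equiv.sum_comp g]
  refine Finset.sum_congr rfl fun x _ => ?_
  simp only [Function.comp_apply, update_comp_perm]
  split_ifs <;> simp

theorem Cont.comp {a : ℕ → ℕ} {α : X → ℕ} {Y : Type} [Fintype Y] [DecidableEq Y]
    (h : Cont a α) (g : Y ≃ X) : Cont a (α ∘ g) := by
  intro i
  rw [← h i]
  exact Finset.card_equiv g (by simp)

theorem HW.funRep {a : ℕ → ℕ} {f : (X → ℕ) → V} (hf : HW a f)
    (ρ : Representation ℂ (Perm X) V) (g : Perm X) : HW a (funRep ℕ ρ g f) := by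
  refine ⟨fun α h => ?_, fun i j hij => ?_⟩
  · have h1 : f (α ∘ g) ≠ 0 := fun h0 => h (by simp [funRep_apply, h0])
    have := (hf.cont _ h1).comp g.symm
    simpa [Function.comp_assoc] using this
  · have := hf.kill i j hij
    unfold opE at this ⊢
    rw [opP_funRep, this, map_zero]

/-- `R_a(ρ)`: the representation on highest weight functions of content `a` -/
def hwRep (a : ℕ → ℕ) (ρ : Representation ℂ (Perm X) V) :
    Representation ℂ (Perm X) (HWs X V a) :=
  (funRep ℕ ρ).subrepresentation (HWs X V a) fun g _ hf => HW.funRep hf ρ g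

theorem hwRep_apply (a : ℕ → ℕ) (ρ : Representation ℂ (Perm X) V) (g : Perm X)
    (f : HWs X V a) (w : X → ℕ) : (hwRep a ρ g f).1 w = ρ g (f.1 (w ∘ g)) := rfl

variable (X) in
/-- the model of the Specht module: scalar highest weight functions -/
noncomputable def Sp (a : ℕ → ℕ) : Representation ℂ (Perm X) (HWs X ℂ a) :=
  hwRep a (Representation.trivial ℂ (Perm X) ℂ)

theorem Sp_apply (a : ℕ → ℕ) (g : Perm X) (f : HWs X ℂ a) (w : X → ℕ) :
    (Sp X a g f).1 w = f.1 (w ∘ g) := rfl

/-- `S^a` occurs in `ρ` -/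
def HV (ρ : Representation ℂ (Perm X) V) (a : ℕ → ℕ) : Prop :=
  ∃ f : (X → ℕ) → V, f ≠ 0 ∧ Eqv ρ f ∧ HW a f

/-- an equivariant function of two words, highest weight in both -/
structure IsK (ρ : Representation ℂ (Perm X) V) (a b : ℕ → ℕ)
    (F : (X → ℕ) → (X → ℕ) → V) : Prop where
  eqv : ∀ (g : Perm X) α β, ρ g (F (α ∘ g) (β ∘ g)) = F α β
  left : ∀ β, HW a fun α => F α β
  right : ∀ α, HW b (F α)

/-- `Hom (S^a ⊗ S^b, ρ) ≠ 0` -/
def K (ρ : Representation ℂ (Perm X) V) (a b : ℕ → ℕ) : Prop := ∃ F, F ≠ 0 ∧ IsK ρ a b F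

/-- an invariant scalar function of three words, highest weight in all three -/
structure IsG (a b c : ℕ → ℕ) (T : (X → ℕ) → (X → ℕ) → (X → ℕ) → ℂ) : Prop where
  inv : ∀ (g : Perm X) α β γ, T (α ∘ g) (β ∘ g) (γ ∘ g) = T α β γ
  h1 : ∀ β γ, HW a fun α => T α β γ
  h2 : ∀ α γ, HW b fun β => T α β γ
  h3 : ∀ α β, HW c (T α β)

variable (X) in
def GX (a b c : ℕ → ℕ) : Prop :=
  ∃ T : (X → ℕ) → (X → ℕ) → (X → ℕ) → ℂ, T ≠ 0 ∧ IsG a b c T

/-- the Kronecker coefficient `g(a,b,c)` is non-zero -/
def G (a b c : ℕ → ℕ) : Prop := ∃ n, GX (Fin n) a b c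

/-- `S^a ⊗ S^a` contains all irreducible representations of `S_n` -/
def Full (a : ℕ → ℕ) (n : ℕ) : Prop := ∀ c, IsPar c n → G a a c

/-- `x ↦ (α x, κ x)` is a bijection from `X` to the cells of `a` -/
structure Tab (a : ℕ → ℕ) (α κ : X → ℕ) : Prop where
  mem : ∀ x, κ x < a (α x)
  inj : ∀ x y, α x = α y → κ x = κ y → x = y
  surj : ∀ i j, j < a i → ∃ x, α x = i ∧ κ x = j

/-- the stabiliser of a word -/
def Stab (κ : X → ℕ) : Finset (Perm X) := {σ | ∀ x, κ (σ x) = κ x}

theorem mem_Stab {κ : X → ℕ} {σ : Perm X} : σ ∈ Stab κ ↔ ∀ x, κ (σ x) = κ x := by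
  simp [Stab]

/-- the sign as a complex number -/
def sgn (σ : Perm X) : ℂ := ((Perm.sign σ : ℤˣ) : ℤ)

@[simp] theorem sgn_one : sgn (1 : Perm X) = 1 := by simp [sgn]
@[simp] theorem sgn_mul (σ τ : Perm X) : sgn (σ * τ) = sgn σ * sgn τ := by simp [sgn]
@[simp] theorem sgn_inv (σ : Perm X) : sgn σ⁻¹ = sgn σ := by simp [sgn]
@[simp] theorem sgn_mul_self (σ : Perm X) : sgn σ * sgn σ = 1 := by
  nth_rewrite 1 [← sgn_inv σ]
  rw [← sgn_mul, inv_mul_cancel, sgn_one]

/-- symmetriser over the stabiliser of `α` -/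
def symz (ρ : Representation ℂ (Perm X) V) (α : X → ℕ) : Module.End ℂ V := ∑ σ ∈ Stab α, ρ σ

/-- antisymmetriser over the stabiliser of `κ` -/
def alt (ρ : Representation ℂ (Perm X) V) (κ : X → ℕ) : Module.End ℂ V :=
  ∑ σ ∈ Stab κ, sgn σ • ρ σ

/-- the polytabloid of the tableau `(α, κ)` as a function of words -/
noncomputable def polyt (α κ : X → ℕ) (β : X → ℕ) : ℂ :=
  ∑ σ ∈ Stab κ, if β = α ∘ σ then sgn σ else 0

/-- twist by the sign character -/
def tw (ρ : Representation ℂ (Perm X) V) : Representation ℂ (Perm X) V where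
  toFun g := sgn g • ρ g
  map_one' := by simp
  map_mul' g h := by
    simp [mul_smul, smul_comm (sgn g) (sgn h)]

theorem tw_apply (ρ : Representation ℂ (Perm X) V) (g : Perm X) (v : V) :
    tw ρ g v = sgn g • ρ g v := rfl

theorem finite_cont (a : ℕ → ℕ) : {α : X → ℕ | Cont a α}.Finite := by
  rcases Set.eq_empty_or_nonempty {α : X → ℕ | Cont a α} with h | ⟨α0, h0⟩
  · rw [h]; exact Set.finite_empty
  · refine (Fintype.piFinset fun _ : X => Finset.univ.image α0).finite_toSet.subset fun α hα => ?_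
    simp only [Finset.mem_coe, Fintype.mem_piFinset, Finset.mem_image, Finset.mem_univ, true_and]
    intro x
    have h1 : 0 < #{y | α0 y = α x} := by
      rw [h0 (α x), ← hα (α x)]
      exact Finset.card_pos.2 ⟨x, by simp⟩
    obtain ⟨y, hy⟩ := Finset.card_pos.1 h1
    exact ⟨y, by simpa using hy⟩

variable (X) in
/-- the finite set of words of content `a` -/
noncomputable def words (a : ℕ → ℕ) : Finset (X → ℕ) := (finite_cont a).toFinset

theorem mem_words {a : ℕ → ℕ} {α : X → ℕ} : α ∈ words X a ↔ Cont a α := by simp [words]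

/-- `hat a f u = ∑_β u β • f β` (sum over the words of content `a`) -/
noncomputable def hat (a : ℕ → ℕ) (f : (X → ℕ) → V) : ((X → ℕ) → ℂ) →ₗ[ℂ] V where
  toFun u := ∑ β ∈ words X a, u β • f β
  map_add' u u' := by simp [add_smul, Finset.sum_add_distrib]
  map_smul' c u := by simp [Finset.smul_sum, mul_smul]

theorem hat_apply (a : ℕ → ℕ) (f : (X → ℕ) → V) (u : (X → ℕ) → ℂ) :
    hat a f u = ∑ β ∈ words X a, u β • f β := rfl

end Rep

/-! ### The lifting conditions -/

/-- `∑_{r ≤ r' < k} b r'` -/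
def tail (k : ℕ) (b : ℕ → ℕ) (r : ℕ) : ℕ := ∑ r' ∈ Ico r k, b r'

/-- bound for the multiplicity of the letter `(i, r)` in a minimal word -/
def dd (k : ℕ) (a b : ℕ → ℕ) (i r : ℕ) : ℕ :=
  min (min (a i) (b r)) (min (tail k b r / (i + 1)) (tail k a i / (r + 1)))

/-- Hall-type condition of the lifting lemmas (`m = 1` : one column, `m = 4` : two columns) -/
structure Lcond (m k : ℕ) (a b : ℕ → ℕ) : Prop where
  la : ∀ i, k ≤ i → a i = 0
  lb : ∀ i, k ≤ i → b i = 0
  hall : ∀ j < k, j < #{i ∈ range k | m * dd k a b i (k - 1 - i) ≤ j}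

/-- The two-block condition on `lam` for rule P2 (`E` = effective row lengths, dominoes occupy
columns `2j, 2j+1 < E r`; the `e` single cells of the two blocks are at the ends of the initial
segments of lengths `La`, `Lb` of the rows `ra 0`, `rb 0`). -/
def Q2 (e s1 s2 : ℕ) (lam : ℕ → ℕ) : Prop :=
  ∃ (ra rb : Fin 4 → ℕ) (E : ℕ → ℕ) (La Lb : ℕ), Function.Injective ra ∧ Function.Injective rb ∧
    ra 0 ≠ rb 0 ∧ ra 0 ≠ rb 1 ∧ rb 0 ≠ ra 1 ∧ (∀ r, E r ≤ lam r) ∧
    E (ra 0) + e ≤ La ∧ La ≤ lam (ra 0) ∧ E (rb 0) + e ≤ Lb ∧ Lb ≤ lam (rb 0) ∧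
    (e = 2 → E (ra 1) < La ∧ E (rb 1) < Lb) ∧
    s1 ≤ ∑ t, E (ra t) / 2 ∧ s2 ≤ ∑ t, E (rb t) / 2 ∧
    s1 + s2 ≤ ∑ r ∈ univ.image ra ∪ univ.image rb, E r / 2

end Crest.Agent.R195
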