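import Crest.Agent.R195.Defs

/-!
# Row 195: polynomial operators for the lifting lemmas

Alphabet `Al L = L ⊕ Fin 4`.  The operators `E_{(inl l),(inr c)}` commute, so they define an action
`ev` of the polynomial ring `Pol L = ℂ[X_{l,c}]` on functions of words.
-/

set_option autoImplicit false

open Finset Equiv MvPolynomial

namespace Crest.Agent.R195

abbrev Al (L : Type) := L ⊕ Fin 4

abbrev Pol (L : Type) := MvPolynomial (L × Fin 4) ℂ

section Ev
variable {X : Type} [Fintype X] [DecidableEq X] {L : Type} [DecidableEq L]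
  {V : Type} [AddCommGroup V] [Module ℂ V]

variable (X V) in
/-- the generator: replace a letter `inr c` by `inl l` -/
def genE (v : L × Fin 4) : Module.End ℂ ((X → Al L) → V) := opE (Sum.inl v.1) (Sum.inr v.2)

theorem genE_comm (v v' : L × Fin 4) : genE X V v * genE X V v' = genE X V v' * genE X V v := by
  have := opP_comm (X := X) (V := V) (fun l : Al L => decide (l = Sum.inl v.1))
    (fun _ => Sum.inr v.2) (fun l : Al L => decide (l = Sum.inl v'.1)) (fun _ => Sum.inr v'.2)
  simpa [opP_false, genE, opE] using this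

open scoped IsMulCommutative in
variable (X V L) in
/-- the action of the polynomial ring on functions of words -/
noncomputable def ev : Pol L →ₐ[ℂ] Module.End ℂ ((X → Al L) → V) :=
  haveI : IsMulCommutative (Algebra.adjoin ℂ (Set.range (genE X V (L := L)))) :=
    Algebra.isMulCommutative_adjoin ℂ (by
      rintro _ ⟨v, rfl⟩ _ ⟨v', rfl⟩
      exact genE_comm v v')
  (Algebra.adjoin ℂ (Set.range (genE X V (L := L)))).val.comp
    (MvPolynomial.aeval fun v => ⟨genE X V v, Algebra.subset_adjoin ⟨v, rfl⟩⟩)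

theorem ev_X (v : L × Fin 4) :
    ev X L V (MvPolynomial.X v) = opE (Sum.inl v.1) (Sum.inr v.2) := by
  simp [ev, genE]

/-- the annihilator of a function of words -/
def Ann (h : (X → Al L) → V) : Ideal (Pol L) where
  carrier := {p | ev X L V p h = 0}
  zero_mem' := by simp
  add_mem' := by
    intro p q hp hq
    simp only [Set.mem_setOf_eq, map_add, LinearMap.add_apply] at hp hq ⊢
    rw [hp, hq, add_zero]
  smul_mem' := by
    intro c p hp
    simp only [Set.mem_setOf_eq, smul_eq_mul, map_mul, Module.End.mul_apply] at hp ⊢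
    rw [hp, map_zero]

theorem mem_Ann {h : (X → Al L) → V} {p : Pol L} : p ∈ Ann h ↔ ev X L V p h = 0 := Iff.rfl

variable (X V) in
/-- letter-map operator acting on the letters `inl l` only -/
def opL (p : L → Bool) (t : L → L) : Module.End ℂ ((X → Al L) → V) :=
  opP (Sum.elim p fun _ => false) (Sum.map t id)

/-- the derivation `X_{m,c} ↦ [p m] X_{s m, c}` -/
noncomputable def dP (p : L → Bool) (s : L → L) : Derivation ℂ (Pol L) (Pol L) :=
  MvPolynomial.mkDerivation ℂ fun v => if p v.1 then MvPolynomial.X (s v.1, v.2) else 0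

theorem dP_X (p : L → Bool) (s : L → L) (m : L) (c : Fin 4) :
    dP p s (MvPolynomial.X (m, c)) = if p m then MvPolynomial.X (s m, c) else 0 := by
  simp [dP]

variable (X V) in
/-- `E_{ab}` for letters `a b : L` -/
def eL (a b : L) : Module.End ℂ ((X → Al L) → V) := opL X V (fun l => decide (l = a)) fun _ => b

/-- the derivation `X_{b,c} ↦ X_{a,c}` (commutator with `eL a b`) -/
noncomputable def dE (a b : L) : Derivation ℂ (Pol L) (Pol L) :=
  dP (fun l => decide (l = b)) fun _ => a

/-- the polarised quadratic form `q(a,b) = ∑_c X_{a,c} X_{b,c}` -/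
noncomputable def qq (a b : L) : Pol L := ∑ c : Fin 4, MvPolynomial.X (a, c) * MvPolynomial.X (b, c)

/-- the isotropic vector `u = (1, i, 0, 0)` -/
noncomputable def uvec : Fin 4 → ℂ := ![1, Complex.I, 0, 0]

/-- the linear form `X_{m,0} + i X_{m,1}` -/
noncomputable def uu (m : L) : Pol L :=
  MvPolynomial.X (m, 0) + C Complex.I * MvPolynomial.X (m, 1)

/-- the `2 × 2` matrix of linear forms with `ent 0 0 = uu` and determinant `qq m m` -/
noncomputable def ent (ε η : Fin 2) (m : L) : Pol L :=
  if ε = 0 then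
    (if η = 0 then uu m else MvPolynomial.X (m, 2) + C Complex.I * MvPolynomial.X (m, 3))
  else
    (if η = 0 then -(MvPolynomial.X (m, 2) - C Complex.I * MvPolynomial.X (m, 3))
      else MvPolynomial.X (m, 0) - C Complex.I * MvPolynomial.X (m, 1))

variable (L) in
/-- ideal generated by the `qq a b` -/
noncomputable def IQ : Ideal (Pol L) := Ideal.span (Set.range fun ab : L × L => qq ab.1 ab.2)

variable (L) in
/-- ideal generated by the `uu m` -/
noncomputable def IU : Ideal (Pol L) := Ideal.span (Set.range fun m : L => uu m)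

/-- the letter `inl l` occurs at most `d` times in the words of the support -/
def DegLE (h : (X → Al L) → V) (l : L) (d : ℕ) : Prop :=
  ∀ w, h w ≠ 0 → #{x | w x = Sum.inl l} ≤ d

/-- the words of the support have exactly `s` letters from `Fin 4` -/
def Hom4 (h : (X → Al L) → V) (s : ℕ) : Prop :=
  ∀ w, h w ≠ 0 → #{x | (w x).isRight = true} = s

/-- only finitely many letters occur in the support -/
def FinL (h : (X → Al L) → V) : Prop :=
  ∃ S : Finset L, ∀ w, h w ≠ 0 → ∀ x m, w x = Sum.inl m → m ∈ S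

/-- total `ω`-weight of a word -/
def wt (ω : L → ℕ) (w : X → Al L) : ℕ := ∑ x, Sum.elim ω (fun _ => 0) (w x)

/-- kill the variables of positive `ω`-weight -/
noncomputable def low (ω : L → ℕ) : Pol L →ₐ[ℂ] Pol L :=
  MvPolynomial.aeval fun v => if ω v.1 = 0 then MvPolynomial.X v else 0

end Ev

/-! ### The determinant -/

section Det
variable {X : Type} [Fintype X] [DecidableEq X] {V : Type} [AddCommGroup V] [Module ℂ V]

variable (X V) in
/-- `E_{ij}` acting on the first coordinate of the letters `inl (i, r)` -/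
def opA (i j : ℕ) : Module.End ℂ ((X → Al (ℕ × ℕ)) → V) :=
  opL X V (fun l => decide (l.1 = i)) fun l => (j, l.2)

variable (X V) in
/-- `E_{ij}` acting on the second coordinate of the letters `inl (i, r)` -/
def opB (i j : ℕ) : Module.End ℂ ((X → Al (ℕ × ℕ)) → V) :=
  opL X V (fun l => decide (l.2 = i)) fun l => (l.1, j)

/-- commutator with `opA i j` -/
noncomputable def dA (i j : ℕ) : Derivation ℂ (Pol (ℕ × ℕ)) (Pol (ℕ × ℕ)) :=
  dP (fun l => decide (l.1 = j)) fun l => (i, l.2)

/-- commutator with `opB i j` -/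
noncomputable def dB (i j : ℕ) : Derivation ℂ (Pol (ℕ × ℕ)) (Pol (ℕ × ℕ)) :=
  dP (fun l => decide (l.2 = j)) fun l => (l.1, i)

/-- the matrix with rows indexed through `ri`, columns through `ci` -/
noncomputable def detM {R : Type} (ri ci : R → ℕ × Fin 2) : Matrix R R (Pol (ℕ × ℕ)) :=
  Matrix.of fun x y => ent (ri x).2 (ci y).2 ((ri x).1, (ci y).1)

/-- the index set is closed under decreasing the first coordinate -/
def Down {R : Type} (ri : R → ℕ × Fin 2) : Prop :=
  ∀ x i, i < (ri x).1 → ∃ x', ri x' = (i, (ri x).2)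

end Det

/-! ### The contraction map and its image -/

/-- positions: dominoes `J × Fin 2` and singles `S` -/
abbrev Pos (J S : Type) := (J × Fin 2) ⊕ S

section Phi
variable {J S E : Type} [Fintype J] [DecidableEq J] [Fintype S] [DecidableEq S] [Fintype E]
  [DecidableEq E] {V : Type} [AddCommGroup V] [Module ℂ V]

/-- the tensor `q^{⊗ J} ⊗ u^{⊗ S}` -/
noncomputable def c0 (y : Pos J S → Fin 4) : ℂ :=
  (∏ j : J, if y (Sum.inl (j, 0)) = y (Sum.inl (j, 1)) then 1 else 0) * ∏ t : S, uvec (y (Sum.inr t))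

/-- restriction of a representation of `Perm (P ⊕ E)` to `Perm E` -/
def resE {P : Type} [Fintype P] [DecidableEq P] (ρ : Representation ℂ (Perm (P ⊕ E)) V) :
    Representation ℂ (Perm E) V :=
  ρ.comp ((Perm.sumCongrHom P E).comp (MonoidHom.inr _ _))

theorem resE_apply {P : Type} [Fintype P] [DecidableEq P] (ρ : Representation ℂ (Perm (P ⊕ E)) V)
    (g : Perm E) : resE ρ g = ρ (Perm.sumCongr 1 g) := rfl

/-- the contraction map -/
noncomputable def Phi (ρ : Representation ℂ (Perm (Pos J S ⊕ E)) V) :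
    ((Pos J S → Fin 4) → V) →ₗ[ℂ] V where
  toFun v := ∑ g : Perm (Pos J S), ∑ y : Pos J S → Fin 4,
    c0 y • ρ (Perm.sumCongr g 1) (v (y ∘ g))
  map_add' v v' := by simp [Finset.sum_add_distrib]
  map_smul' c v := by simp [Finset.smul_sum, smul_comm c]

theorem Phi_apply (ρ : Representation ℂ (Perm (Pos J S ⊕ E)) V) (v : (Pos J S → Fin 4) → V) :
    Phi ρ v = ∑ g : Perm (Pos J S), ∑ y : Pos J S → Fin 4,
      c0 y • ρ (Perm.sumCongr g 1) (v (y ∘ g)) := rfl

theorem resE_Phi (ρ : Representation ℂ (Perm (Pos J S ⊕ E)) V) (g : Perm E)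
    (v : (Pos J S → Fin 4) → V) : resE ρ g (Phi ρ v) = Phi ρ fun y => resE ρ g (v y) := by
  simp only [Phi_apply, map_sum, map_smul, resE_apply, ← Module.End.mul_apply, ← map_mul,
    Perm.sumCongr_mul, one_mul, mul_one]

theorem Phi_single (ρ : Representation ℂ (Perm (Pos J S ⊕ E)) V) (y0 : Pos J S → Fin 4) (v : V) :
    Phi ρ (Pi.single y0 v)
      = ∑ g : Perm (Pos J S), c0 (y0 ∘ g.symm) • ρ (Perm.sumCongr g 1) v := by
  rw [Phi_apply]
  refine Finset.sum_congr rfl fun g _ => ?_
  rw [Finset.sum_eq_single (y0 ∘ g.symm)]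
  · simp [Function.comp_assoc]
  · intro y _ hy
    rw [Pi.single_eq_of_ne, map_zero, smul_zero]
    rintro rfl
    exact hy (by simp [Function.comp_assoc])
  · simp

/-- the image of the contraction map as a representation of `Perm E` -/
noncomputable def imgRep (ρ : Representation ℂ (Perm (Pos J S ⊕ E)) V) :
    Representation ℂ (Perm E) (LinearMap.range (Phi ρ)) :=
  (resE ρ).subrepresentation (LinearMap.range (Phi ρ)) (by
    rintro g _ ⟨v, rfl⟩
    exact ⟨_, (resE_Phi ρ g v).symm⟩)

theorem imgRep_apply (ρ : Representation ℂ (Perm (Pos J S ⊕ E)) V) (g : Perm E)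
    (v : LinearMap.range (Phi ρ)) : (imgRep ρ g v).1 = ρ (Perm.sumCongr 1 g) v.1 := rfl

/-- the word with `Fin 4`-letters `y` on the positions and letters `(α e, β e)` on `E` -/
def mixW {P : Type} (y : P → Fin 4) (α β : E → ℕ) : P ⊕ E → Al (ℕ × ℕ) :=
  Sum.elim (fun p => Sum.inr (y p)) fun e => Sum.inl (α e, β e)

end Phi

end Crest.Agent.R195
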