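import Crest.Agent.R195.Ev

/-!
# Row 195, task Det: the determinant is a highest weight vector; its lowest component
-/

set_option autoImplicit false

open Finset Equiv MvPolynomial

namespace Crest.Agent.R195

section
variable {X : Type} [Fintype X] [DecidableEq X] {V : Type} [AddCommGroup V] [Module ℂ V]

theorem opA_ev (i j : ℕ) (q : Pol (ℕ × ℕ)) (h : (X → Al (ℕ × ℕ)) → V) :
    opA X V i j (ev X _ V q h) = ev X _ V q (opA X V i j h) + ev X _ V (dA i j q) h := by
  exact opL_ev _ _ _ _ (by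
    rintro ⟨a, b⟩ ⟨c, d⟩
    simp only [decide_eq_true_eq, Prod.mk.injEq]
    omega) q h

theorem opB_ev (i j : ℕ) (q : Pol (ℕ × ℕ)) (h : (X → Al (ℕ × ℕ)) → V) :
    opB X V i j (ev X _ V q h) = ev X _ V q (opB X V i j h) + ev X _ V (dB i j q) h := by
  exact opL_ev _ _ _ _ (by
    rintro ⟨a, b⟩ ⟨c, d⟩
    simp only [decide_eq_true_eq, Prod.mk.injEq]
    omega) q h

/-- on words with letters `inl (α x, β x)` the operator `opA` is `opE` in `α` -/
theorem opA_pair (i j : ℕ) (h : (X → Al (ℕ × ℕ)) → V) (α β : X → ℕ) :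
    opA X V i j h (fun x => Sum.inl (α x, β x))
      = opE i j (fun α' : X → ℕ => h fun x => Sum.inl (α' x, β x)) α := by
  rw [opA, opL, opP_apply, opE_apply]
  refine Finset.sum_congr rfl fun x _ => ?_
  simp only [Sum.elim_inl, decide_eq_true_eq, Sum.map_inl]
  split_ifs
  · congr 1
    funext y
    by_cases hy : y = x
    · subst hy; simp
    · simp [hy]
  · rfl

theorem opB_pair (i j : ℕ) (h : (X → Al (ℕ × ℕ)) → V) (α β : X → ℕ) :
    opB X V i j h (fun x => Sum.inl (α x, β x))
      = opE i j (fun β' : X → ℕ => h fun x => Sum.inl (α x, β' x)) β := by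
  rw [opB, opL, opP_apply, opE_apply]
  refine Finset.sum_congr rfl fun x _ => ?_
  simp only [Sum.elim_inl, decide_eq_true_eq, Sum.map_inl]
  split_ifs
  · congr 1
    funext y
    by_cases hy : y = x
    · subst hy; simp
    · simp [hy]
  · rfl

theorem opA_self (i : ℕ) (h : (X → Al (ℕ × ℕ)) → V) (w : X → Al (ℕ × ℕ)) :
    opA X V i i h w = (#{x | Sum.elim (fun l : ℕ × ℕ => decide (l.1 = i)) (fun _ => false) (w x) = true} : ℂ)
      • h w := by
  rw [opA, opL, opP_apply, Nat.cast_smul_eq_nsmul, ← Finset.sum_const, Finset.sum_filter]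
  refine Finset.sum_congr rfl fun x _ => ?_
  split_ifs with hx
  · congr 1
    rw [Function.update_eq_self_iff]
    rcases e : w x with l | l
    · rw [e] at hx
      simp only [Sum.elim_inl, decide_eq_true_eq] at hx
      simp [← hx]
    · rfl
  · rfl

theorem opB_self (i : ℕ) (h : (X → Al (ℕ × ℕ)) → V) (w : X → Al (ℕ × ℕ)) :
    opB X V i i h w = (#{x | Sum.elim (fun l : ℕ × ℕ => decide (l.2 = i)) (fun _ => false) (w x) = true} : ℂ)
      • h w := by
  rw [opB, opL, opP_apply, Nat.cast_smul_eq_nsmul, ← Finset.sum_const, Finset.sum_filter]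
  refine Finset.sum_congr rfl fun x _ => ?_
  split_ifs with hx
  · congr 1
    rw [Function.update_eq_self_iff]
    rcases e : w x with l | l
    · rw [e] at hx
      simp only [Sum.elim_inl, decide_eq_true_eq] at hx
      simp [← hx]
    · rfl
  · rfl

end

theorem dP_ent {L : Type} [DecidableEq L] (p : L → Bool) (s : L → L) (ε η : Fin 2) (m : L) :
    dP p s (ent ε η m) = if p m then ent ε η (s m) else 0 := by
  unfold ent uu
  by_cases h : p m = true <;> split_ifs <;> simp [dP_X, h, derivation_C]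

theorem low_ent {L : Type} [DecidableEq L] (ω : L → ℕ) (ε η : Fin 2) (m : L) :
    low ω (ent ε η m) = if ω m = 0 then ent ε η m else 0 := by
  unfold ent uu low
  by_cases h : ω m = 0 <;> split_ifs <;> simp [h]

theorem det_ent {L : Type} [DecidableEq L] (m : L) :
    (Matrix.of fun ε η : Fin 2 => ent ε η m).det = qq m m := by
  -- `Matrix.det_fin_two`, `Fin.sum_univ_four`, `C I * C I = -1`
  have hI : (C Complex.I : Pol L) * C Complex.I = -1 := by rw [← map_mul, Complex.I_mul_I, map_neg, map_one]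
  rw [Matrix.det_fin_two, qq, Fin.sum_univ_four]
  simp only [Matrix.of_apply, ent, uu, if_true, one_ne_zero, if_false]
  linear_combination (-(MvPolynomial.X (m, 1)) ^ 2 - (MvPolynomial.X (m, 3)) ^ 2) * hI

variable {R : Type} [Fintype R] [DecidableEq R]

theorem detM_isHomogeneous (ri ci : R → ℕ × Fin 2) :
    (detM ri ci).det.IsHomogeneous (Fintype.card R) := by
  rw [Matrix.det_apply]
  refine IsHomogeneous.sum _ _ _ fun σ _ => ?_
  have := IsHomogeneous.prod univ (fun i => detM ri ci (σ i) i) (fun _ => 1)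
    fun i _ => ent_isHomogeneous _ _ _
  rw [Finset.sum_const, smul_eq_mul, mul_one, Finset.card_univ] at this
  rw [Units.smul_def]
  exact zsmul_mem (show _ ∈ homogeneousSubmodule _ ℂ _ from this) _

theorem det_kill {A : Type} [CommRing A] [Algebra ℂ A] (δ : Derivation ℂ A A) (P : Matrix R R A)
    (h : ∀ x, (∀ y, δ (P x y) = 0) ∨ ∃ x', x' ≠ x ∧ ∀ y, δ (P x y) = P x' y) : δ P.det = 0 := by
  rw [deriv_det]
  refine Finset.sum_eq_zero fun x _ => ?_
  rcases h x with h | ⟨x', hx, h⟩
  · exact Matrix.det_eq_zero_of_row_eq_zero x fun y => by simp [h]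
  · rw [funext h]
    exact Matrix.det_updateRow_eq_zero hx

theorem det_self {A : Type} [CommRing A] [Algebra ℂ A] (δ : Derivation ℂ A A) (P : Matrix R R A)
    (pr : R → Prop) [DecidablePred pr] (h : ∀ x y, δ (P x y) = if pr x then P x y else 0) :
    δ P.det = (#{x | pr x} : ℂ) • P.det := by
  rw [deriv_det, Nat.cast_smul_eq_nsmul, ← Finset.sum_const, Finset.sum_filter]
  refine Finset.sum_congr rfl fun x _ => ?_
  split_ifs with hx
  · simp only [h, if_pos hx]
    exact congrArg _ (Matrix.updateRow_eq_self P x)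
  · exact Matrix.det_eq_zero_of_row_eq_zero x fun y => by simp [h, hx]

/-- `deriv_det`, `dP_ent`: the row `x` becomes `0` or equal to the row `x'` given by `Down`
(`Matrix.det_zero_of_row_eq`, `Matrix.det_updateRow_eq_zero`) -/
theorem dA_det {ri : R → ℕ × Fin 2} (hd : Down ri) (ci : R → ℕ × Fin 2) {i j : ℕ} (hij : i < j) :
    dA i j (detM ri ci).det = 0 := by
  refine det_kill _ _ fun x => ?_
  by_cases h : (ri x).1 = j
  · obtain ⟨x', hx'⟩ := hd x i (h ▸ hij)
    refine Or.inr ⟨x', fun e => ?_, fun y => by simp [detM, dA, dP_ent, h, hx']⟩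
    have := congrArg Prod.fst hx'
    rw [e, h] at this
    exact hij.ne' this
  · exact Or.inl fun y => by simp [detM, dA, dP_ent, h]

theorem dA_det_self (ri ci : R → ℕ × Fin 2) (i : ℕ) :
    dA i i (detM ri ci).det = (#{x | (ri x).1 = i} : ℂ) • (detM ri ci).det := by
  refine det_self _ _ _ fun x y => ?_
  by_cases h : (ri x).1 = i <;> simp [detM, dA, dP_ent, h]

/-- the same for the transposed matrix (`Matrix.det_transpose`) -/
theorem dB_det (ri : R → ℕ × Fin 2) {ci : R → ℕ × Fin 2} (hd : Down ci) {i j : ℕ} (hij : i < j) :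
    dB i j (detM ri ci).det = 0 := by
  rw [← Matrix.det_transpose]
  refine det_kill _ _ fun x => ?_
  by_cases h : (ci x).1 = j
  · obtain ⟨x', hx'⟩ := hd x i (h ▸ hij)
    refine Or.inr ⟨x', fun e => ?_, fun y => by simp [detM, dB, dP_ent, h, hx']⟩
    have := congrArg Prod.fst hx'
    rw [e, h] at this
    exact hij.ne' this
  · exact Or.inl fun y => by simp [detM, dB, dP_ent, h]

theorem dB_det_self (ri ci : R → ℕ × Fin 2) (i : ℕ) :
    dB i i (detM ri ci).det = (#{x | (ci x).1 = i} : ℂ) • (detM ri ci).det := by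
  rw [← Matrix.det_transpose]
  refine det_self _ _ _ fun x y => ?_
  by_cases h : (ci x).1 = i <;> simp [detM, dB, dP_ent, h]

/-- **The product with the determinant is a highest weight function.** -/
theorem isK_det {X : Type} [Fintype X] [DecidableEq X] {V : Type} [AddCommGroup V] [Module ℂ V]
    {ρ : Representation ℂ (Perm X) V} {f : (X → Al (ℕ × ℕ)) → V} (he : Eqv ρ f) {a b : ℕ → ℕ}
    (hA : ∀ i j, i < j → opA X V i j f = 0) (hB : ∀ i j, i < j → opB X V i j f = 0)
    (hA' : ∀ i, opA X V i i f = (a i : ℂ) • f) (hB' : ∀ i, opB X V i i f = (b i : ℂ) • f)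
    {ri ci : R → ℕ × Fin 2} (hr : Down ri) (hc : Down ci) :
    IsK ρ (fun i => a i + #{x | (ri x).1 = i}) (fun i => b i + #{x | (ci x).1 = i})
      fun α β => ev X _ V (detM ri ci).det f fun x => Sum.inl (α x, β x) := by
  -- `Eqv.ev`; `opA_pair`, `opA_ev`, `dA_det`; content: `opA_self`, `dA_det_self`, cancel in char 0
  refine ⟨fun g α β => he.ev _ g fun x => Sum.inl (α x, β x), fun β => ⟨fun α hα i => ?_, fun i j hij => ?_⟩,
    fun α => ⟨fun β hβ i => ?_, fun i j hij => ?_⟩⟩
  · have h1 := congrFun (opA_ev i i (detM ri ci).det f) fun x => Sum.inl (α x, β x)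
    rw [opA_self, hA', dA_det_self, map_smul, map_smul, LinearMap.smul_apply, ← add_smul, Pi.smul_apply] at h1
    have h2 := smul_left_injective ℂ hα h1
    simp only [Sum.elim_inl, decide_eq_true_eq] at h2
    exact_mod_cast h2
  · funext α
    rw [← opA_pair, opA_ev, hA i j hij, dA_det hr ci hij]
    simp
  · have h1 := congrFun (opB_ev i i (detM ri ci).det f) fun x => Sum.inl (α x, β x)
    rw [opB_self, hB', dB_det_self, map_smul, map_smul, LinearMap.smul_apply, ← add_smul, Pi.smul_apply] at h1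
    have h2 := smul_left_injective ℂ hβ h1
    simp only [Sum.elim_inl, decide_eq_true_eq] at h2
    exact_mod_cast h2
  · funext β
    rw [← opB_pair, opB_ev, hB i j hij, dB_det ri hc hij]
    simp

/-! ### The two index systems -/

/-- one column of length `k` -/
def r1 (k : ℕ) : Fin k → ℕ × Fin 2 := fun i => (i, 0)
def c1 (k : ℕ) : Fin k → ℕ × Fin 2 := fun i => (k - 1 - i, 0)
/-- weight vanishing on the antidiagonal `i + r = k - 1` -/
def ω1 (k : ℕ) : ℕ × ℕ → ℕ := fun l => (((l.1 : ℤ) + l.2 - (k - 1 : ℤ)) ^ 2).toNat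

/-- two columns of lengths `s + e` and `s` -/
def r2 (s e : ℕ) : (Fin 2 × Fin s) ⊕ Fin e → ℕ × Fin 2 :=
  Sum.elim (fun p => (p.2, p.1)) fun j => (s + j, 0)
def c2 (s e : ℕ) : (Fin 2 × Fin s) ⊕ Fin e → ℕ × Fin 2 :=
  Sum.elim (fun p => (s - 1 - p.2, p.1)) fun j => (s + j, 0)
def ω2 (s : ℕ) : ℕ × ℕ → ℕ := fun l => if l.1 < s then ω1 s l else if l.1 = l.2 then 0 else 1

theorem down_r1 (k : ℕ) : Down (r1 k) := by
  intro x i hi
  exact ⟨⟨i, lt_trans hi x.2⟩, rfl⟩

theorem down_c1 (k : ℕ) : Down (c1 k) := by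
  intro x i hi
  have hi' : i < k - 1 - x := hi
  exact ⟨⟨k - 1 - i, by omega⟩, Prod.ext (show k - 1 - (k - 1 - i) = i by omega) rfl⟩

theorem down_r2 (s e : ℕ) : Down (r2 s e) := by
  rintro (⟨ε, a⟩ | j) i hi
  · exact ⟨Sum.inl (ε, ⟨i, lt_trans hi a.2⟩), rfl⟩
  · have hi' : i < s + j := hi
    by_cases h : i < s
    · exact ⟨Sum.inl (0, ⟨i, h⟩), rfl⟩
    · exact ⟨Sum.inr ⟨i - s, by omega⟩, Prod.ext (show s + (i - s) = i by omega) rfl⟩

theorem down_c2 (s e : ℕ) : Down (c2 s e) := by
  rintro (⟨ε, a⟩ | j) i hi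
  · have hi' : i < s - 1 - a := hi
    exact ⟨Sum.inl (ε, ⟨s - 1 - i, by omega⟩), Prod.ext (show s - 1 - (s - 1 - i) = i by omega) rfl⟩
  · have hi' : i < s + j := hi
    by_cases h : i < s
    · exact ⟨Sum.inl (0, ⟨s - 1 - i, by omega⟩), Prod.ext (show s - 1 - (s - 1 - i) = i by omega) rfl⟩
    · exact ⟨Sum.inr ⟨i - s, by omega⟩, Prod.ext (show s + (i - s) = i by omega) rfl⟩

theorem card_r1 (k i : ℕ) : #{x | (r1 k x).1 = i} = col k i := by
  unfold col
  split_ifs with h
  · exact Finset.card_eq_one.2 ⟨⟨i, h⟩, by ext x; simp [r1, Fin.ext_iff]⟩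
  · exact Finset.card_eq_zero.2 (Finset.filter_eq_empty_iff.2 fun x _ e => h (e ▸ x.2))

theorem card_c1 (k i : ℕ) : #{x | (c1 k x).1 = i} = col k i := by
  rw [← card_r1]
  refine Finset.card_equiv Fin.revPerm fun x => ?_
  simp only [c1, r1, Finset.mem_filter, Finset.mem_univ, true_and, Fin.revPerm_apply, Fin.val_rev]
  omega

theorem card_r2 (s e i : ℕ) : #{x | (r2 s e x).1 = i} = col (s + e) i + col s i := by
  have h1 := card_r1 s i
  have h2 := card_r1 (s + e) i
  rw [Finset.card_filter] at h1 h2 ⊢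
  rw [Fin.sum_univ_add] at h2
  rw [Fintype.sum_sum_type, Fintype.sum_prod_type, Fin.sum_univ_two, ← h1, ← h2]
  simp only [r1, r2, Sum.elim_inl, Sum.elim_inr, Fin.val_castAdd, Fin.val_natAdd]
  ring

theorem card_c2 (s e i : ℕ) : #{x | (c2 s e x).1 = i} = col (s + e) i + col s i := by
  have h0 := card_c1 s i
  have h1 := card_r1 s i
  have h2 := card_r1 (s + e) i
  rw [Finset.card_filter] at h0 h1 h2 ⊢
  rw [Fin.sum_univ_add] at h2
  rw [Fintype.sum_sum_type, Fintype.sum_prod_type, Fin.sum_univ_two, ← h2]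
  have h3 : ∀ a b c : ℕ, a = col s i → b = col s i → a + a + c = b + c + col s i := by
    intro a b c ha hb
    omega
  exact h3 _ _ _ h0 h1

theorem ω1_eq_zero {k a b : ℕ} : ω1 k (a, b) = 0 ↔ (a : ℤ) + b = k - 1 := by
  simp only [ω1, Int.toNat_eq_zero, sq_nonpos_iff, sub_eq_zero]

/-- `AlgHom.map_det`, `low_ent`: the matrix becomes diagonal -/
theorem low_det1 (k : ℕ) :
    low (ω1 k) (detM (r1 k) (c1 k)).det = ∏ i ∈ range k, uu (i, k - 1 - i) := by
  have : (low (ω1 k)).mapMatrix (detM (r1 k) (c1 k)) =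
      Matrix.diagonal fun x : Fin k => uu ((x : ℕ), k - 1 - x) := by
    refine Matrix.ext fun x y => ?_
    have hy := y.2
    simp only [AlgHom.mapMatrix_apply, Matrix.map_apply, detM, Matrix.of_apply, r1, c1, low_ent,
      Matrix.diagonal_apply, ω1_eq_zero]
    by_cases h : x = y
    · subst h
      rw [if_pos (by omega), if_pos rfl]
      rfl
    · rw [if_neg (by rw [Fin.ext_iff] at h; omega), if_neg h]
  rw [AlgHom.map_det, this, Matrix.det_diagonal, Fin.prod_univ_eq_prod_range fun i => uu (i, k - 1 - i)]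

/-- the matrix becomes `fromBlocks (blockDiagonal B) 0 0 (diagonal _)`
(`Matrix.det_fromBlocks_zero₂₁`, `Matrix.det_blockDiagonal`, `det_ent`) -/
theorem low_det2 (s e : ℕ) :
    low (ω2 s) (detM (r2 s e) (c2 s e)).det
      = (∏ i ∈ range s, qq (i, s - 1 - i) (i, s - 1 - i)) * ∏ j : Fin e, uu (s + (j : ℕ), s + (j : ℕ)) := by
  have : (low (ω2 s)).mapMatrix (detM (r2 s e) (c2 s e)) = Matrix.fromBlocks
      (Matrix.blockDiagonal fun a : Fin s => Matrix.of fun ε η : Fin 2 => ent ε η ((a : ℕ), s - 1 - a)) 0 0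
      (Matrix.diagonal fun j : Fin e => uu (s + (j : ℕ), s + (j : ℕ))) := by
    refine Matrix.ext fun x y => ?_
    simp only [AlgHom.mapMatrix_apply, Matrix.map_apply, detM, Matrix.of_apply, low_ent]
    rcases x with ⟨ε, a⟩ | j <;> rcases y with ⟨η, b⟩ | j'
    · have hb := b.2
      simp only [r2, c2, Sum.elim_inl, Matrix.fromBlocks_apply₁₁, Matrix.blockDiagonal_apply, ω2, a.2, if_true,
        ω1_eq_zero, Matrix.of_apply]
      by_cases h : a = b
      · subst h
        rw [if_pos (by omega), if_pos rfl]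
      · rw [if_neg (by rw [Fin.ext_iff] at h; omega), if_neg h]
    · simp only [r2, c2, Sum.elim_inl, Sum.elim_inr, Matrix.fromBlocks_apply₁₂, ω2, a.2, if_true,
        ω1_eq_zero, Matrix.zero_apply]
      rw [if_neg (by omega)]
    · have hb := b.2
      simp only [r2, c2, Sum.elim_inl, Sum.elim_inr, Matrix.fromBlocks_apply₂₁, ω2, Matrix.zero_apply]
      rw [if_neg]
      rw [if_neg (by omega), if_neg (by omega)]
      exact one_ne_zero
    · simp only [r2, c2, Sum.elim_inr, Matrix.fromBlocks_apply₂₂, ω2, Matrix.diagonal_apply]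
      by_cases h : j = j'
      · subst h
        simp [ent]
      · rw [if_neg h, if_neg]
        rw [if_neg (by omega), if_neg (by rw [Fin.ext_iff] at h; omega)]
        exact one_ne_zero
  rw [AlgHom.map_det, this, Matrix.det_fromBlocks_zero₂₁, Matrix.det_blockDiagonal, Matrix.det_diagonal]
  simp only [det_ent]
  rw [Fin.prod_univ_eq_prod_range fun i => qq (i, s - 1 - i) (i, s - 1 - i)]

end Crest.Agent.R195
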