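import Crest.Agent.R195.EnumD

/-!
# Row 195, task Enum: soundness of the boolean checkers
-/

set_option autoImplicit false

open Finset

namespace Crest.Agent.R195

/-- `ra = ![0,1,2,3]`, `rb = ![4,5,0,1]`, `La = L 0`, `Lb = L 4`,
`E r = if r = 0 then L 0 - e else if r = 1 then min … else if r = 4 … else if r = 5 … else L r`;
`Fin.sum_univ_four`; the union of the images is `{0,1,2,3,4,5}` (`decide`). -/
theorem QX.q2 {e s1 s2 : ℕ} {L lam : ℕ → ℕ} (h : QX e s1 s2 L) (hle : ∀ i, L i ≤ lam i) :
    Q2 e s1 s2 lam := by
  obtain ⟨a1, a2, a3, a4, a5⟩ := h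
  refine ⟨![0, 1, 2, 3], ![4, 5, 0, 1], fun r => if r = 0 then L 0 - e else if r = 1 then min (L 1) (L 0 + 1 - e)
    else if r = 4 then L 4 - e else if r = 5 then min (L 5) (L 4 + 1 - e) else L r, L 0, L 4, by decide, by decide,
    by decide, by decide, by decide, fun r => ?_, ?_, hle 0, ?_, hle 4, ?_, ?_, ?_, ?_⟩
  · have := hle r
    dsimp only
    split_ifs <;> subst_vars <;> omega
  · simp; omega
  · simp; omega
  · simp; omega
  · simpa [Fin.sum_univ_four] using a3
  · simpa [Fin.sum_univ_four] using a4
  · rw [show (univ.image ![0, 1, 2, 3] ∪ univ.image ![4, 5, 0, 1] : Finset ℕ) = range 6 by decide]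
    simpa [sum_range_succ] using a5

theorem QY.q2 {e s1 s2 : ℕ} {L lam : ℕ → ℕ} (h : QY e s1 s2 L) (hle : ∀ i, L i ≤ lam i) :
    Q2 e s1 s2 lam := by
  obtain ⟨a1, a2, a3, a4⟩ := h
  refine ⟨![0, 3, 4, 7], ![1, 2, 5, 6], fun r => if r = 0 then L 0 - e else if r = 3 then min (L 3) (L 0 + 1 - e)
    else if r = 1 then L 1 - e else if r = 2 then min (L 2) (L 1 + 1 - e) else L r, L 0, L 1, by decide, by decide,
    by decide, by decide, by decide, fun r => ?_, ?_, hle 0, ?_, hle 1, ?_, ?_, ?_, ?_⟩
  · have := hle r
    dsimp only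
    split_ifs <;> subst_vars <;> omega
  · simp; omega
  · simp; omega
  · simp; omega
  · simpa [Fin.sum_univ_four] using a3
  · simpa [Fin.sum_univ_four] using a4
  · rw [show (univ.image ![0, 3, 4, 7] ∪ univ.image ![1, 2, 5, 6] : Finset ℕ) = range 8 by decide]
    simp [sum_range_succ]
    omega

theorem QZ.q2 {e s1 s2 : ℕ} {L lam : ℕ → ℕ} (h : QZ e s1 s2 L) (hle : ∀ i, L i ≤ lam i) :
    Q2 e s1 s2 lam := by
  obtain ⟨a1, a2, a3, a4, a5⟩ := h
  refine ⟨![0, 3, 1, 4], ![2, 5, 0, 6], fun r => if r = 0 then L 0 - e else if r = 3 then min (L 3) (L 0 + 1 - e)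
    else if r = 2 then L 2 - e else if r = 5 then min (L 5) (L 2 + 1 - e) else L r, L 0, L 2, by decide, by decide,
    by decide, by decide, by decide, fun r => ?_, ?_, hle 0, ?_, hle 2, ?_, ?_, ?_, ?_⟩
  · have := hle r
    dsimp only
    split_ifs <;> subst_vars <;> omega
  · simp; omega
  · simp; omega
  · simp; omega
  · simpa [Fin.sum_univ_four] using a3
  · simpa [Fin.sum_univ_four] using a4
  · rw [show (univ.image ![0, 3, 1, 4] ∪ univ.image ![2, 5, 0, 6] : Finset ℕ) = range 7 by decide]
    simp [sum_range_succ]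
    omega

theorem Cov.quick {h1 h2 : Bool} {k e : ℕ} {lam : ℕ → ℕ} (h : Cov (quick h1 h2 k e) lam) :
    (h1 = true ∧ 2 * k - 1 ≤ lam 0 + lam 1) ∨ (h2 = true ∧ Q2 e (k - e) (k - e - 2) lam) := by
  obtain ⟨L, hL, hq⟩ := h
  simp only [R195.quick, Bool.or_eq_true, Bool.and_eq_true, decide_eq_true_eq] at hq
  rcases hq with ⟨a, b⟩ | ⟨a, (b | b) | b⟩
  · exact Or.inl ⟨a, b.trans (add_le_add (hL 0) (hL 1))⟩
  · exact Or.inr ⟨a, b.q2 hL⟩
  · exact Or.inr ⟨a, b.q2 hL⟩
  · exact Or.inr ⟨a, b.q2 hL⟩

theorem QK.mono {k e : ℕ} {a b : ℕ → ℕ} (h : QK k e a) (hab : ∀ i, a i ≤ b i) : QK k e b := by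
  rcases h with h | ⟨ra, rb, E, La, Lb, a1, a2, a3, a4, a5, a6, a7, a8, a9, a10, a11⟩
  · exact Or.inl (h.trans (add_le_add (hab 0) (hab 1)))
  · exact Or.inr ⟨ra, rb, E, La, Lb, a1, a2, a3, a4, a5, fun r => (a6 r).trans (hab r), a7, a8.trans (hab _), a9,
      a10.trans (hab _), a11⟩

namespace EnumAux

theorem ofL_zero (a : ℕ) (l : List ℕ) : ofL (a :: l) 0 = a := rfl

theorem ofL_succ (a : ℕ) (l : List ℕ) (i : ℕ) : ofL (a :: l) (i + 1) = ofL l i := rfl

theorem ofL_ge {l : List ℕ} {i : ℕ} (h : l.length ≤ i) : ofL l i = 0 := List.getD_eq_default _ _ h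

theorem ofL_map {N i : ℕ} (f : ℕ → ℕ) : ofL ((List.range N).map f) i = if i < N then f i else 0 := by
  split_ifs with h
  · simp [ofL, List.getD_eq_getElem?_getD, h]
  · exact ofL_ge (by simpa using h)

theorem ofL_head (l : List ℕ) : l.headD 0 = ofL l 0 := by cases l <;> rfl

theorem count_conj {l : List ℕ} (h : Antitone (ofL l)) (i j : ℕ) :
    j < ofL l i ↔ i < l.countP fun x => decide (j < x) := by
  induction l generalizing i with
  | nil => simp [ofL]
  | cons a l ih =>
    have h' : Antitone (ofL l) := fun i j hij => h (Nat.succ_le_succ hij)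
    have h0 := ih h' 0
    have h1 : ofL l 0 ≤ a := h (Nat.zero_le 1)
    rw [List.countP_cons]
    cases i with
    | zero =>
      rw [ofL_zero]
      simp only [decide_eq_true_eq]
      split_ifs <;> omega
    | succ i =>
      have h2 := ih h' i
      have h3 : ofL l i ≤ a := h (Nat.zero_le (i + 1))
      rw [ofL_succ]
      simp only [decide_eq_true_eq]
      split_ifs <;> omega

theorem sum_ofL (l : List ℕ) (N : ℕ) : ∑ i ∈ range N, ofL l i = (l.take N).sum := by
  induction l generalizing N with
  | nil => simp [ofL]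
  | cons a l ih =>
    cases N with
    | zero => rfl
    | succ N =>
      rw [sum_range_succ', List.take_succ_cons, List.sum_cons, ← ih, add_comm]
      rfl

theorem tail_ofL {l : List ℕ} {k : ℕ} (h : l.length ≤ k) (r : ℕ) : tail k (ofL l) r = tailL l r := by
  unfold tail tailL
  rcases le_total r k with h1 | h1
  · have h2 := sum_range_add_sum_Ico (ofL l) h1
    rw [sum_ofL, sum_ofL, List.take_of_length_le h] at h2
    have h3 := List.sum_take_add_sum_drop l r
    omega
  · rw [Ico_eq_empty_of_le h1, List.drop_of_length_le (h.trans h1)]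
    rfl

theorem card_range (p : ℕ → Prop) [DecidablePred p] (k : ℕ) :
    #{i ∈ range k | p i} = (List.range k).countP fun i => decide (p i) := by
  induction k with
  | zero => rfl
  | succ k ih =>
    rw [card_filter, sum_range_succ, ← card_filter, ih, List.range_succ, List.countP_append]
    simp [List.countP_cons]

theorem en_aux (q : List ℕ → Bool) (h1 : Bool) (k n : ℕ) (left : List (List ℕ))
    (hq : h1 = true → ∀ L, 2 * k - 1 ≤ ofL L 0 + ofL L 1 → q L = true) {lam lam' : ℕ → ℕ} (hl : IsPar lam n)
    (hc : IsConj lam lam') (hlen : lam (lam 0) = 0) (f : ℕ) : ∀ (cur : List ℕ) (rem mx B : ℕ),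
    en q h1 left f cur rem mx B = true → (∀ i < cur.length, ofL cur i = lam i) →
    ∑ i ∈ range cur.length, lam i + rem = n → lam cur.length ≤ mx →
    (h1 = true → B + ∑ i ∈ range cur.length, min (lam i) 2 = 2 * k - 2) →
    Cov q lam ∨ Cov q lam' ∨ ∃ l ∈ left, ofL l = lam := by
  induction f with
  | zero => intro cur rem mx B H; simp [en] at H
  | succ f ih =>
    intro cur rem mx B H hcur hsum hmx hB
    rw [en, Bool.or_eq_true] at H
    have hs1 := hl.sum_le (cur.length + 1)
    rw [sum_range_succ] at hs1
    rcases H with H | H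
    · refine Or.inl ⟨cur, fun i => ?_, (Bool.and_eq_true _ _ ▸ H).2⟩
      rcases lt_or_ge i cur.length with hi | hi
      · exact (hcur i hi).le
      · rw [ofL_ge hi]
        exact Nat.zero_le _
    split_ifs at H with hrem
    · have he : ofL cur = lam := funext fun i => by
        rcases lt_or_ge i cur.length with hi | hi
        · exact hcur i hi
        · have := hl.anti hi
          rw [ofL_ge hi]
          omega
      rw [Bool.or_eq_true] at H
      rcases H with H | H
      · refine Or.inr (Or.inl ⟨conj8 cur, fun j => ?_, H⟩)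
        rw [conj8, ofL_map]
        split_ifs
        · exact le_of_forall_lt fun i hi => (hc i j).1 (he ▸ (count_conj (he ▸ hl.anti) i j).2 hi)
        · exact Nat.zero_le _
      · exact Or.inr (Or.inr ⟨cur, by simpa using H, he⟩)
    · have hx : 0 < lam cur.length := by
        by_contra h0
        have := hl.sum_of_zero (N := cur.length) (by omega)
        omega
      have H' := List.all_eq_true.1 H (lam cur.length - 1) (List.mem_range.2 (by omega))
      rw [show lam cur.length - 1 + 1 = lam cur.length by omega] at H'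
      have hbud : h1 = true → B < min (lam cur.length) 2 ∨ B * max (lam cur.length) 2 < 2 * rem →
          Cov q lam' := fun e1 e2 => by
        have hz : lam (cur.length + (n + 1)) = 0 := hl.eq_zero (by omega)
        have b1 := hc.sum_min hz 2
        have b2 := hl.sum_of_zero hz
        rw [sum_range_add] at b1 b2
        have b3 : B < ∑ i ∈ range (n + 1), min (lam (cur.length + i)) 2 := by
          rcases e2 with e2 | e2
          · rw [sum_range_succ']
            simp only [add_zero]
            omega
          · refine lt_of_mul_lt_mul_right (e2.trans_le ?_) (Nat.zero_le (max (lam cur.length) 2))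
            rw [show rem = ∑ i ∈ range (n + 1), lam (cur.length + i) by omega, mul_sum, sum_mul]
            refine sum_le_sum fun i _ => ?_
            have := hl.anti (Nat.le_add_right cur.length i)
            rcases le_total (lam (cur.length + i)) 2 with h2 | h2
            · rw [min_eq_left h2, mul_comm]
              exact Nat.mul_le_mul_left _ (le_max_right _ _)
            · rw [min_eq_right h2]
              exact Nat.mul_le_mul_left _ (this.trans (le_max_left _ _))
        refine ⟨[lam' 0, lam' 1], fun i => ?_, hq e1 _ ?_⟩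
        · rcases i with _ | _ | i
          exacts [le_rfl, le_rfl, Nat.zero_le _]
        · have := hB e1
          simp only [sum_range_succ, range_zero, sum_empty, zero_add] at b1 b3
          change 2 * k - 1 ≤ lam' 0 + lam' 1
          omega
      simp only [Bool.or_eq_true, Bool.and_eq_true, decide_eq_true_eq] at H'
      rcases H' with (H' | H') | H'
      · exact Or.inr (Or.inl (hbud H'.1 H'.2))
      · exfalso
        have hne : 0 < cur.length := by
          cases cur with
          | nil => simp at H'
          | cons a l => simp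
        have b1 := H'.2
        rw [ofL_head, hcur 0 hne] at b1
        have hz : lam (cur.length + (lam 0 - cur.length)) = 0 := by
          have := hl.anti (show lam 0 ≤ cur.length + (lam 0 - cur.length) by omega)
          omega
        have b2 := hl.sum_of_zero hz
        rw [sum_range_add] at b2
        have b3 : ∑ i ∈ range (lam 0 - cur.length), lam (cur.length + i) ≤
            ∑ _i ∈ range (lam 0 - cur.length), lam cur.length :=
          sum_le_sum fun i _ => hl.anti (Nat.le_add_right _ _)
        rw [sum_const, Finset.card_range, smul_eq_mul, mul_comm] at b3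
        omega
      · by_cases hb : h1 = true ∧ B < min (lam cur.length) 2
        · exact Or.inr (Or.inl (hbud hb.1 (Or.inl hb.2)))
        refine ih _ _ _ _ H' (fun i hi => ?_) ?_ ?_ fun e1 => ?_
        · rw [List.length_append, List.length_singleton] at hi
          rcases lt_or_ge i cur.length with h2 | h2
          · rw [← hcur i h2]
            exact List.getD_append _ _ _ _ h2
          · rw [show i = cur.length by omega]
            simp [ofL]
        · rw [List.length_append, List.length_singleton, sum_range_succ]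
          omega
        · rw [List.length_append, List.length_singleton]
          exact hl.anti (Nat.le_succ _)
        · have := hB e1
          have h2 := not_and.1 hb e1
          rw [List.length_append, List.length_singleton, sum_range_succ]
          omega

end EnumAux
open EnumAux

/-- **Soundness of the enumeration.**

Plan.  WLOG `lam (lam 0) = 0` (otherwise `lam' (lam' 0) = 0`; swap using `IsPar.conj`).
Induction on the fuel with the invariant: `∀ i < cur.length, ofL cur i = lam i ∧ 0 < lam i`,
`∑ i ∈ range cur.length, lam i + rem = n`, `lam cur.length ≤ mx`, and (if `h1`)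
`B + ∑ i ∈ range cur.length, min (lam i) 2 = 2 * k - 2`.
* `q cur`: `Cov q lam` with `L = cur`.
* `rem = 0`: `ofL cur = lam`; `conj8 cur ≤ lam'` pointwise (if `m = countP (j < ·) cur > 0` then
  `j < lam (m - 1)` since `lam` is antitone), or `cur ∈ left`.
* `rem > 0`: `x = lam cur.length` satisfies `1 ≤ x ≤ min rem mx`; take `y = x - 1`.
  Budget prune: `∑_{i<n} min (lam i) 2 = lam' 0 + lam' 1` (`IsConj.sum_min`), and for the rows
  `i ≥ cur.length`: `2 * lam i ≤ min (lam i) 2 * max x 2`; so the budget is exceeded and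
  `Cov q lam'` holds with `L = [lam' 0, lam' 1]` by `hq`.
  Length prune: `rem = ∑ i ∈ Ico cur.length (lam 0), lam i ≤ x * (lam 0 - cur.length)`,
  contradiction. -/
theorem en_sound (q : List ℕ → Bool) (h1 : Bool) (k n : ℕ) (left : List (List ℕ))
    (hq : h1 = true → ∀ L, 2 * k - 1 ≤ ofL L 0 + ofL L 1 → q L = true)
    (H : en q h1 left (n + 1) [] n n (2 * k - 2) = true) {lam lam' : ℕ → ℕ} (hl : IsPar lam n)
    (hc : IsConj lam lam') :
    Cov q lam ∨ Cov q lam' ∨ ∃ l ∈ left, ofL l = lam ∨ ofL l = lam' := by
  by_cases h0 : lam (lam 0) = 0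
  · rcases en_aux q h1 k n left hq hl hc h0 _ _ _ _ _ H (by simp) (by simp) (hl.le _) (by simp) with h | h | ⟨l, h, e⟩
    exacts [Or.inl h, Or.inr (Or.inl h), Or.inr (Or.inr ⟨l, h, Or.inl e⟩)]
  · have h2 : lam' (lam' 0) = 0 := by
      by_contra h3
      have a1 := (hc _ 0).1 (Nat.pos_of_ne_zero h0)
      have a2 := (hc 0 _).2 (Nat.pos_of_ne_zero h3)
      omega
    rcases en_aux q h1 k n left hq (hl.conj hc) hc.symm h2 _ _ _ _ _ H (by simp) (by simp) ((hl.conj hc).le _)
      (by simp) with h | h | ⟨l, h, e⟩
    exacts [Or.inr (Or.inl h), Or.inl h, Or.inr (Or.inr ⟨l, h, Or.inr e⟩)]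

theorem anti_ofL {l : List ℕ} (h : sortedL l = true) : Antitone (ofL l) := by
  refine antitone_nat_of_succ_le fun i => ?_
  induction l generalizing i with
  | nil => exact le_rfl
  | cons a l ih =>
    cases l with
    | nil => exact Nat.zero_le _
    | cons b l =>
      rw [sortedL, Bool.and_eq_true, decide_eq_true_eq] at h
      cases i with
      | zero => exact h.1
      | succ i => exact ih h.2 i

theorem isPar_ofL {l : List ℕ} {n : ℕ} (h : parL l n = true) : IsPar (ofL l) n := by
  rw [parL, Bool.and_eq_true, decide_eq_true_eq] at h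
  refine IsPar.of_sum (N := l.length) (anti_ofL h.1) (ofL_ge le_rfl) ?_
  rw [sum_ofL, List.take_length, h.2]

theorem isConj_ofL {l : List ℕ} (h : Antitone (ofL l)) : IsConj (ofL l) (ofL (conjL l)) := by
  intro i j
  rw [conjL, ofL_map, ofL_head]
  split_ifs with h1
  · exact count_conj h i j
  · have := h (Nat.zero_le i)
    omega

theorem ofL_addL (a b : List ℕ) : ofL (addL a b) = ofL a + ofL b := by
  funext i
  induction a generalizing b i with
  | nil => simp [addL, ofL]
  | cons x a ih =>
    cases b with
    | nil => simp [addL, ofL]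
    | cons y b =>
      cases i with
      | zero => rfl
      | succ i => exact ih b i

theorem ofL_replicate (k : ℕ) : ofL (List.replicate k 1) = col k := by
  funext i
  unfold col
  split_ifs with h
  · simp [ofL, List.getD_eq_getElem?_getD, h]
  · exact ofL_ge (by simpa using h)

theorem ofL_cons (m : ℕ) (a : List ℕ) : ofL (m :: a) = cons m (ofL a) := by
  funext i
  cases i <;> rfl

theorem ofL_nil : ofL [] = fun _ => 0 := by
  rfl

theorem ofL_wrapL (k : ℕ) (a : List ℕ) : ofL (wrapL k a) = wrap k (ofL a) := by
  rw [wrapL, ofL_addL, ofL_cons, ofL_replicate, wrap]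

theorem lcond_ofL {m k : ℕ} {a b : List ℕ} (h : lcondL m k a b = true) :
    Lcond m k (ofL a) (ofL b) := by
  simp only [lcondL, Bool.and_eq_true, decide_eq_true_eq, List.all_eq_true, List.mem_range] at h
  obtain ⟨⟨ha, hb⟩, h⟩ := h
  refine ⟨fun i hi => ofL_ge (ha.trans hi), fun i hi => ofL_ge (hb.trans hi), fun j hj => ?_⟩
  rw [EnumAux.card_range]
  simp only [dd, tail_ofL ha, tail_ofL hb]
  exact h j hj

theorem inter_ofL {cb c : List ℕ} (h : interL cb c = true) (i : ℕ) :
    ofL c (i + 1) ≤ ofL cb i ∧ ofL cb i ≤ ofL c i := by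
  simp only [interL, Bool.and_eq_true, decide_eq_true_eq, List.all_eq_true, List.mem_range] at h
  rcases lt_or_ge i c.length with hi | hi
  · exact h.2 i hi
  · rw [ofL_ge (hi.trans (Nat.le_succ i)), ofL_ge (h.1.trans hi)]
    exact ⟨le_rfl, Nat.zero_le _⟩

end Crest.Agent.R195
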