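import Crest.Agent.R195.KG
import Crest.Agent.R195.Enum

/-!
# Row 195, task Direct: certifying a single Kronecker coefficient by direct evaluation
-/

set_option autoImplicit false

open Finset Equiv

namespace Crest.Agent.R195

/-- `T α β γ = ∑ g, p1 (α ∘ g) * p2 (β ∘ g) * p3 (γ ∘ g)` is invariant and `HW` in each variable
(`Tab.polyt_hw`, `HW.funRep`/`HW.transport`, `HWs` is a submodule). -/
theorem G.of_eval {X : Type} [Fintype X] [DecidableEq X] {a b c : ℕ → ℕ} (ha : Antitone a)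
    (hb : Antitone b) (hc : Antitone c) {α1 κ1 α2 κ2 α3 κ3 : X → ℕ} (h1 : Tab a α1 κ1)
    (h2 : Tab b α2 κ2) (h3 : Tab c α3 κ3) (α β γ : X → ℕ)
    (H : ∑ g : Perm X, polyt α1 κ1 (α ∘ g) * polyt α2 κ2 (β ∘ g) * polyt α3 κ3 (γ ∘ g) ≠ 0) :
    G a b c := by
  have key : ∀ {a : ℕ → ℕ} {p : (X → ℕ) → ℂ}, HW a p → ∀ k : Perm X → ℂ,
      HW a fun w => ∑ g : Perm X, k g * p (w ∘ g) := by
    intro a p hp k
    have h := (HWs X ℂ a).sum_mem (t := Finset.univ) (f := fun g : Perm X => k g • fun w => p (w ∘ g))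
      fun g _ => (HWs X ℂ a).smul_mem _ (mem_HWs.2 (HVs_hw_comp hp g))
    convert mem_HWs.1 h using 1
    funext w
    simp [Finset.sum_apply]
  refine GX.toG (X := X) ⟨fun α β γ => ∑ g : Perm X,
    polyt α1 κ1 (α ∘ g) * polyt α2 κ2 (β ∘ g) * polyt α3 κ3 (γ ∘ g),
    fun h0 => H (congrFun (congrFun (congrFun h0 α) β) γ), fun g α β γ => ?_, fun β γ => ?_,
    fun α γ => ?_, fun α β => key (h3.polyt_hw hc) _⟩
  · rw [← Equiv.sum_comp (Equiv.mulLeft g) fun h : Perm X =>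
      polyt α1 κ1 (α ∘ h) * polyt α2 κ2 (β ∘ h) * polyt α3 κ3 (γ ∘ h)]
    rfl
  · convert key (h1.polyt_hw ha) fun g => polyt α2 κ2 (β ∘ g) * polyt α3 κ3 (γ ∘ g) using 3
    ring
  · convert key (h2.polyt_hw hb) fun g => polyt α1 κ1 (α ∘ g) * polyt α3 κ3 (γ ∘ g) using 3
    ring

/-- the value `v` is excluded at the position `x` if all earlier positions are fixed -/
def DirEx {n : ℕ} (a : ℕ → ℕ) (α κ : Fin n → ℕ) (x v : Fin n) : Prop :=
  a (α v) ≤ κ x ∨ ∃ y, y < x ∧ κ y = κ x ∧ α y = α v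

instance {n : ℕ} (a : ℕ → ℕ) (α κ : Fin n → ℕ) (x v : Fin n) : Decidable (DirEx a α κ x v) := by
  unfold DirEx; infer_instance

theorem Tab.not_dirEx {n : ℕ} {a : ℕ → ℕ} {α κ : Fin n → ℕ} (h : Tab a α κ) {g : Perm (Fin n)}
    (hg : polyt α κ (α ∘ g) ≠ 0) {x : Fin n} (hx : ∀ y, y < x → g y = y) : ¬ DirEx a α κ x (g x) := by
  obtain ⟨σ, hσ, he⟩ := polyt_ne_zero hg
  rw [mem_Stab] at hσ
  have he' : ∀ y, α (g y) = α (σ y) := congrFun he
  rintro (h1 | ⟨y, h1, h2, h3⟩)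
  · have := h.mem (σ x)
    rw [hσ, ← he'] at this
    omega
  · refine h1.ne (σ.injective (h.inj _ _ ?_ (by rw [hσ, hσ, h2])))
    rw [← he', ← he', hx y h1, h3]

/-- three tableaux such that only the identity contributes to the evaluation -/
theorem G.of_rigid {n : ℕ} {a b c : ℕ → ℕ} (ha : Antitone a) (hb : Antitone b) (hc : Antitone c)
    {α1 κ1 α2 κ2 α3 κ3 : Fin n → ℕ} (h1 : Tab a α1 κ1) (h2 : Tab b α2 κ2) (h3 : Tab c α3 κ3)
    (H : ∀ x v, x < v → DirEx a α1 κ1 x v ∨ DirEx b α2 κ2 x v ∨ DirEx c α3 κ3 x v) : G a b c := by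
  refine G.of_eval ha hb hc h1 h2 h3 α1 α2 α3 ?_
  rw [Finset.sum_eq_single 1]
  · simp [h1.polyt_self, h2.polyt_self, h3.polyt_self]
  · intro g _ hg
    by_contra h0
    rw [mul_eq_zero, mul_eq_zero, not_or, not_or] at h0
    refine hg (Equiv.ext fun x => ?_)
    induction x using WellFoundedLT.induction with
    | ind x ih =>
      rcases lt_trichotomy (g x) x with h | h | h
      · exact g.injective (ih _ h)
      · exact h
      · rcases H x (g x) h with h4 | h4 | h4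
        · exact absurd h4 (h1.not_dirEx h0.1.1 ih)
        · exact absurd h4 (h2.not_dirEx h0.1.2 ih)
        · exact absurd h4 (h3.not_dirEx h0.2 ih)
  · simp

theorem dir_tab {n : ℕ} {l : List ℕ} {α κ : Fin n → ℕ} (h1 : ∀ x, κ x < ofL l (α x))
    (h2 : ∀ x y, α x = α y → κ x = κ y → x = y)
    (h3 : ∀ i, i < l.length → ∀ j, j < ofL l i → ∃ x, α x = i ∧ κ x = j) : Tab (ofL l) α κ := by
  refine ⟨h1, h2, fun i j hj => h3 i ?_ j hj⟩
  by_contra hi
  simp [ofL, List.getElem?_eq_none (not_lt.1 hi)] at hj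

theorem special8 : GG [4, 2, 1, 1] [4, 2, 1, 1] [3, 3, 2] :=
  G.of_rigid (n := 8) (anti_ofL (by decide)) (anti_ofL (by decide)) (anti_ofL (by decide))
    (α1 := fun x => ofL [0, 1, 0, 3, 2, 1, 0, 0] x) (κ1 := fun x => ofL [3, 1, 0, 0, 0, 0, 1, 2] x)
    (α2 := fun x => ofL [0, 0, 1, 0, 1, 0, 2, 3] x) (κ2 := fun x => ofL [2, 1, 1, 0, 0, 3, 0, 0] x)
    (α3 := fun x => ofL [0, 1, 0, 1, 2, 0, 2, 1] x) (κ3 := fun x => ofL [1, 1, 2, 2, 0, 0, 1, 0] x)
    (dir_tab (by decide +kernel) (by decide +kernel) (by decide +kernel))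
    (dir_tab (by decide +kernel) (by decide +kernel) (by decide +kernel))
    (dir_tab (by decide +kernel) (by decide +kernel) (by decide +kernel)) (by decide +kernel)

theorem special13 : GG [5, 3, 3, 1, 1] [5, 3, 3, 1, 1] [4, 4, 3, 2] :=
  G.of_rigid (n := 13) (anti_ofL (by decide)) (anti_ofL (by decide)) (anti_ofL (by decide))
    (α1 := fun x => ofL [0, 1, 0, 1, 2, 3, 0, 1, 2, 0, 2, 0, 4] x)
    (κ1 := fun x => ofL [3, 0, 4, 2, 1, 0, 1, 1, 0, 0, 2, 2, 0] x)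
    (α2 := fun x => ofL [0, 0, 1, 0, 2, 2, 0, 2, 1, 4, 1, 3, 0] x)
    (κ2 := fun x => ofL [2, 3, 2, 4, 2, 1, 1, 0, 1, 0, 0, 0, 0] x)
    (α3 := fun x => ofL [1, 0, 2, 1, 0, 3, 2, 1, 0, 0, 2, 3, 1] x)
    (κ3 := fun x => ofL [3, 3, 1, 1, 1, 1, 0, 2, 0, 2, 2, 0, 0] x)
    (dir_tab (by decide +kernel) (by decide +kernel) (by decide +kernel))
    (dir_tab (by decide +kernel) (by decide +kernel) (by decide +kernel))
    (dir_tab (by decide +kernel) (by decide +kernel) (by decide +kernel)) (by decide +kernel)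

end Crest.Agent.R195
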