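import Crest.Agent.R195.Par

/-!
# Row 195: boolean checkers (definitions)
-/

set_option autoImplicit false

open Finset

namespace Crest.Agent.R195

/-- pattern `X`: blocks in rows `(0,1,2,3)` and `(4,5,0,1)` -/
def QX (e s1 s2 : ℕ) (L : ℕ → ℕ) : Prop :=
  e ≤ L 0 ∧ e ≤ L 4 ∧
    s1 ≤ (L 0 - e) / 2 + min (L 1) (L 0 + 1 - e) / 2 + L 2 / 2 + L 3 / 2 ∧
    s2 ≤ (L 4 - e) / 2 + min (L 5) (L 4 + 1 - e) / 2 + (L 0 - e) / 2 + min (L 1) (L 0 + 1 - e) / 2 ∧
    s1 + s2 ≤ (L 0 - e) / 2 + min (L 1) (L 0 + 1 - e) / 2 + L 2 / 2 + L 3 / 2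
      + (L 4 - e) / 2 + min (L 5) (L 4 + 1 - e) / 2

/-- pattern `Y`: blocks in rows `(0,3,4,7)` and `(1,2,5,6)` -/
def QY (e s1 s2 : ℕ) (L : ℕ → ℕ) : Prop :=
  e ≤ L 0 ∧ e ≤ L 1 ∧
    s1 ≤ (L 0 - e) / 2 + min (L 3) (L 0 + 1 - e) / 2 + L 4 / 2 + L 7 / 2 ∧
    s2 ≤ (L 1 - e) / 2 + min (L 2) (L 1 + 1 - e) / 2 + L 5 / 2 + L 6 / 2

/-- pattern `Z`: blocks in rows `(0,3,1,4)` and `(2,5,0,6)` -/
def QZ (e s1 s2 : ℕ) (L : ℕ → ℕ) : Prop :=
  e ≤ L 0 ∧ e ≤ L 2 ∧
    s1 ≤ (L 0 - e) / 2 + min (L 3) (L 0 + 1 - e) / 2 + L 1 / 2 + L 4 / 2 ∧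
    s2 ≤ (L 2 - e) / 2 + min (L 5) (L 2 + 1 - e) / 2 + (L 0 - e) / 2 + L 6 / 2 ∧
    s1 + s2 ≤ (L 0 - e) / 2 + min (L 3) (L 0 + 1 - e) / 2 + L 1 / 2 + L 4 / 2
      + (L 2 - e) / 2 + min (L 5) (L 2 + 1 - e) / 2 + L 6 / 2

instance (e s1 s2 : ℕ) (L : ℕ → ℕ) : Decidable (QX e s1 s2 L) := by unfold QX; infer_instance
instance (e s1 s2 : ℕ) (L : ℕ → ℕ) : Decidable (QY e s1 s2 L) := by unfold QY; infer_instance
instance (e s1 s2 : ℕ) (L : ℕ → ℕ) : Decidable (QZ e s1 s2 L) := by unfold QZ; infer_instance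

/-- the quick test: rule P1 (if `h1`) or rule P2 with one of three patterns (if `h2`) -/
def quick (h1 h2 : Bool) (k e : ℕ) (L : List ℕ) : Bool :=
  (h1 && decide (2 * k - 1 ≤ ofL L 0 + ofL L 1)) ||
    (h2 && (decide (QX e (k - e) (k - e - 2) (ofL L)) || decide (QY e (k - e) (k - e - 2) (ofL L))
      || decide (QZ e (k - e) (k - e - 2) (ofL L))))

/-- first eight column lengths -/
def conj8 (cur : List ℕ) : List ℕ := (List.range 8).map fun j => cur.countP fun x => decide (j < x)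

/-- Depth-first enumeration of the partitions with at most `lam 0` rows.  `cur` = rows chosen so
far, `rem` = cells left, `mx` = bound for the next row, `B` = remaining budget for
`#rows + #(rows ≥ 2) ≤ 2k - 2`. -/
def en (q : List ℕ → Bool) (h1 : Bool) (left : List (List ℕ)) :
    ℕ → List ℕ → ℕ → ℕ → ℕ → Bool
  | 0, _, _, _, _ => false
  | f + 1, cur, rem, mx, B =>
    (decide (cur.length ≤ 8) && q cur) ||
      if rem = 0 then (q (conj8 cur) || left.contains cur)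
      else (List.range (min rem mx)).all fun y =>
        (h1 && (decide (B < min (y + 1) 2) || decide (B * max (y + 1) 2 < 2 * rem))) ||
          (!cur.isEmpty && decide ((y + 1) * (cur.headD 0 - cur.length) < rem)) ||
          en q h1 left f (cur ++ [y + 1]) (rem - (y + 1)) (y + 1) (B - min (y + 1) 2)

/-- some list below `lam` passes the test `q` -/
def Cov (q : List ℕ → Bool) (lam : ℕ → ℕ) : Prop := ∃ L, (∀ i, ofL L i ≤ lam i) ∧ q L = true

/-- weakly decreasing list -/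
def sortedL : List ℕ → Bool
  | a :: b :: l => decide (b ≤ a) && sortedL (b :: l)
  | _ => true

/-- the list is a partition of `n` -/
def parL (l : List ℕ) (n : ℕ) : Bool := sortedL l && decide (l.sum = n)

/-- the conjugate of a list -/
def conjL (l : List ℕ) : List ℕ :=
  (List.range (l.headD 0)).map fun j => l.countP fun x => decide (j < x)

/-- pointwise sum of lists -/
def addL : List ℕ → List ℕ → List ℕ
  | [], l => l
  | l, [] => l
  | a :: l, b :: l' => (a + b) :: addL l l'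

/-- `∑_{r ≤ r'} l r'` -/
def tailL (l : List ℕ) (r : ℕ) : ℕ := (l.drop r).sum

def ddL (a b : List ℕ) (i r : ℕ) : ℕ :=
  min (min (ofL a i) (ofL b r)) (min (tailL b r / (i + 1)) (tailL a i / (r + 1)))

/-- boolean version of `Lcond` -/
def lcondL (m k : ℕ) (a b : List ℕ) : Bool :=
  decide (a.length ≤ k) && decide (b.length ≤ k) &&
    (List.range k).all fun j =>
      decide (j < (List.range k).countP fun i => decide (m * ddL a b i (k - 1 - i) ≤ j))

/-- interlacing `c (i+1) ≤ cb i ≤ c i` -/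
def interL (cb c : List ℕ) : Bool :=
  decide (cb.length ≤ c.length) &&
    (List.range c.length).all fun i => decide (ofL c (i + 1) ≤ ofL cb i ∧ ofL cb i ≤ ofL c i)

/-- list version of `wrap` -/
def wrapL (k : ℕ) (a : List ℕ) : List ℕ := addL ((k - 1) :: a) (List.replicate k 1)

/-- `G` for lists -/
def GG (a b c : List ℕ) : Prop := G (ofL a) (ofL b) (ofL c)

/-- all triples `(mu, mu, l)`, `l ∈ left` -/
def AllG (mu : List ℕ) (left : List (List ℕ)) : Prop := ∀ l ∈ left, GG mu mu l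

theorem AllG.nil (mu : List ℕ) : AllG mu [] := fun _ h => absurd h List.not_mem_nil

theorem AllG.cons {mu l : List ℕ} {left : List (List ℕ)} (h : GG mu mu l) (h' : AllG mu left) :
    AllG mu (l :: left) := by
  intro x hx
  rcases List.mem_cons.1 hx with rfl | hx
  · exact h
  · exact h' x hx

/-- rule P1 or rule P2 applies to `lam` -/
def QK (k e : ℕ) (lam : ℕ → ℕ) : Prop := 2 * k - 1 ≤ lam 0 + lam 1 ∨ Q2 e (k - e) (k - e - 2) lam

end Crest.Agent.R195
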