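import Mathlib

/-!
# Row 195, task Step: two abstract commutative-algebra lemmas

`A` a commutative `ℂ`-algebra acting on `M` through `φ`, `e` an operator with
`[e, φ p] = φ (δ p)`, `I` a `δ`-stable ideal.
-/

set_option autoImplicit false

namespace Crest.Agent.R195

variable {A M : Type} [CommRing A] [Algebra ℂ A] [AddCommGroup M] [Module ℂ M]

/-- induction on `r` (`Submodule.mul_induction_on`, Leibniz) -/
theorem deriv_mem_pow (δ : Derivation ℂ A A) (I : Ideal A) (hI : ∀ p ∈ I, δ p ∈ I) (r : ℕ) :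
    ∀ p ∈ I ^ r, δ p ∈ I ^ r := by
  induction r with
  | zero => intro p _; simp
  | succ r ih =>
    intro p hp
    rw [pow_succ] at hp ⊢
    refine Submodule.mul_induction_on hp (fun m hm n hn => ?_) (fun x y hx hy => ?_)
    · rw [Derivation.leibniz, smul_eq_mul, smul_eq_mul, mul_comm n]
      exact add_mem (Ideal.mul_mem_mul hm (hI n hn)) (Ideal.mul_mem_mul (ih m hm) hn)
    · rw [map_add]; exact add_mem hx hy

theorem step_stable (φ : A →ₐ[ℂ] Module.End ℂ M) (δ : Derivation ℂ A A) (e : Module.End ℂ M)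
    (he : ∀ p m, e (φ p m) = φ p (e m) + φ (δ p) m) (I : Ideal A) (hI : ∀ p ∈ I, δ p ∈ I)
    {a : A} {h : M} {s : ℕ} (h0 : ∀ p ∈ I ^ s, φ (p * a) h = 0) (i : ℕ) :
    ∀ p ∈ I ^ s, φ p ((e ^ i) (φ a h)) = 0 := by
  induction i with
  | zero => intro p hp; simpa using h0 p hp
  | succ i ih =>
    intro p hp
    have h1 := he p ((e ^ i) (φ a h))
    rw [ih p hp, ih _ (deriv_mem_pow δ I hI s p hp), map_zero, add_zero] at h1
    rw [pow_succ', Module.End.mul_apply, ← h1]

/-- Let `N = {m | ∀ p ∈ I^s, φ p m = 0}`; it is `e`-stable by `deriv_mem_pow`.  With `H i = (e^i) h`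
one has `e^(i+2) (φ a h) = φ a (H (i+2)) + (i+2) φ b (H (i+1)) + (i+2)(i+1) φ c (H i) ∈ N`
(induction; `e φ a = φ a e + φ b`, `e φ b = φ b e + 2 φ c`, `e φ c = φ c e`).  Downward induction:
for `n ≤ d + 1`, `∀ p ∈ I^(s+1-n), φ (p * c^n) (H (d+1-n)) = 0` (also `H (d+2) = 0`): multiply the
relation by `p * c^(n-1) ∈ I^s`. -/
theorem stepQ (φ : A →ₐ[ℂ] Module.End ℂ M) (δ : Derivation ℂ A A) (e : Module.End ℂ M)
    (he : ∀ p m, e (φ p m) = φ p (e m) + φ (δ p) m) (I : Ideal A) (hI : ∀ p ∈ I, δ p ∈ I)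
    {a b c : A} (ha : a ∈ I) (hb : b ∈ I) (hc : c ∈ I) (hδa : δ a = b) (hδb : δ b = 2 * c)
    (hδc : δ c = 0) {h : M} {d s : ℕ} (hds : d ≤ s) (hd : (e ^ (d + 1)) h = 0)
    (h0 : ∀ p ∈ I ^ s, φ (p * a) h = 0) :
    ∀ p ∈ I ^ (s - d), φ (p * c ^ (d + 1)) h = 0 := by
  have hN := step_stable φ δ e he I hI h0
  have hb' : ∀ m, e (φ b m) = φ b (e m) + (2 : ℂ) • φ c m := fun m => by
    rw [he, hδb, two_mul, map_add, two_smul]; rfl
  have hc' : ∀ m, e (φ c m) = φ c (e m) := fun m => by rw [he, hδc]; simp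
  have hform : ∀ i : ℕ, (e ^ (i + 1)) (φ a h) = φ a ((e ^ (i + 1)) h) +
      ((i : ℂ) + 1) • φ b ((e ^ i) h) + (((i : ℂ) + 1) * i) • φ c ((e ^ (i - 1)) h) := by
    intro i
    induction i with
    | zero => simp [he, hδa]
    | succ i ih =>
      rw [pow_succ' e (i + 1), Module.End.mul_apply, ih, map_add, map_add, map_smul, map_smul, he,
        hδa, hb', hc', ← Module.End.mul_apply e (e ^ (i + 1)), ← Module.End.mul_apply e (e ^ i),
        ← pow_succ', ← pow_succ', Nat.add_sub_cancel]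
      have h1 : (((i : ℂ) + 1) * i) • φ c (e ((e ^ (i - 1)) h)) =
          (((i : ℂ) + 1) * i) • φ c ((e ^ i) h) := by
        rcases Nat.eq_zero_or_pos i with rfl | hi
        · simp
        · rw [← Module.End.mul_apply e, ← pow_succ', Nat.sub_add_cancel hi]
      rw [h1]
      push_cast
      module
  have hzero : ∀ j, d + 1 ≤ j → (e ^ j) h = 0 := fun j hj => by
    obtain ⟨k, rfl⟩ := Nat.exists_eq_add_of_le' hj
    rw [pow_add, Module.End.mul_apply, hd, map_zero]
  have key : ∀ n, ∀ i, i + n = d + 1 → (∀ p ∈ I ^ (s + 1 - n), φ (p * c ^ n) ((e ^ i) h) = 0) ∧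
      (∀ p ∈ I ^ (s + 2 - n), φ (p * c ^ (n - 1)) ((e ^ (i + 1)) h) = 0) := by
    intro n
    induction n with
    | zero =>
      intro i hi
      exact ⟨fun p _ => by rw [hzero i (by omega), map_zero],
        fun p _ => by rw [hzero (i + 1) (by omega), map_zero]⟩
    | succ n ih =>
      intro i hi
      obtain ⟨h1, h2⟩ := ih (i + 1) (by omega)
      refine ⟨fun p hp => ?_, fun p hp => h1 p (by rwa [show s + 2 - (n + 1) = s + 1 - n by omega] at hp)⟩
      rw [show s + 1 - (n + 1) = s - n by omega] at hp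
      have hq : p * c ^ n ∈ I ^ s := by
        have := Ideal.mul_mem_mul hp (Ideal.pow_mem_pow hc n)
        rwa [← pow_add, Nat.sub_add_cancel (by omega)] at this
      have h3 := hN (i + 1 + 1) _ hq
      rw [hform (i + 1), map_add, map_add, map_smul, map_smul, Nat.add_sub_cancel,
        ← Module.End.mul_apply, ← map_mul, ← Module.End.mul_apply (φ _) (φ b), ← map_mul,
        ← Module.End.mul_apply (φ _) (φ c), ← map_mul] at h3
      have e1 : φ (p * c ^ n * a) ((e ^ (i + 1 + 1)) h) = 0 := by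
        rcases Nat.eq_zero_or_pos n with rfl | hn
        · rw [hzero _ (by omega), map_zero]
        · have hm : p * a * c ∈ I ^ (s + 2 - n) := by
            have := Ideal.mul_mem_mul (Ideal.mul_mem_mul hp ha) hc
            rwa [← pow_succ, ← pow_succ, show s - n + 1 + 1 = s + 2 - n by omega] at this
          have := h2 _ hm
          rwa [mul_assoc _ c, ← pow_succ', Nat.sub_add_cancel hn, mul_right_comm] at this
      have e2 : φ (p * c ^ n * b) ((e ^ (i + 1)) h) = 0 := by
        have hm : p * b ∈ I ^ (s + 1 - n) := by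
          have := Ideal.mul_mem_mul hp hb
          rwa [← pow_succ, show s - n + 1 = s + 1 - n by omega] at this
        have := h1 _ hm
        rwa [mul_right_comm] at this
      rw [e1, e2, smul_zero, zero_add, zero_add, mul_assoc, ← pow_succ] at h3
      refine (smul_eq_zero.1 h3).resolve_left (mul_ne_zero ?_ ?_)
      · exact_mod_cast Nat.succ_ne_zero (i + 1)
      · exact_mod_cast Nat.succ_ne_zero i
  intro p hp
  simpa using (key (d + 1) 0 (by omega)).1 p (by rwa [show s + 1 - (d + 1) = s - d by omega])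

/-- the same with `e^(i+1) (φ a h) = φ a (H (i+1)) + (i+1) φ b (H i)` -/
theorem stepU (φ : A →ₐ[ℂ] Module.End ℂ M) (δ : Derivation ℂ A A) (e : Module.End ℂ M)
    (he : ∀ p m, e (φ p m) = φ p (e m) + φ (δ p) m) (I : Ideal A) (hI : ∀ p ∈ I, δ p ∈ I)
    {a b : A} (ha : a ∈ I) (hb : b ∈ I) (hδa : δ a = b) (hδb : δ b = 0)
    {h : M} {d s : ℕ} (hds : d ≤ s) (hd : (e ^ (d + 1)) h = 0)
    (h0 : ∀ p ∈ I ^ s, φ (p * a) h = 0) :
    ∀ p ∈ I ^ (s - d), φ (p * b ^ (d + 1)) h = 0 := by
  have hN := step_stable φ δ e he I hI h0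
  have hb' : ∀ m, e (φ b m) = φ b (e m) := fun m => by rw [he, hδb]; simp
  have hform : ∀ i : ℕ, (e ^ (i + 1)) (φ a h) = φ a ((e ^ (i + 1)) h) +
      ((i : ℂ) + 1) • φ b ((e ^ i) h) := by
    intro i
    induction i with
    | zero => simp [he, hδa]
    | succ i ih =>
      rw [pow_succ' e (i + 1), Module.End.mul_apply, ih, map_add, map_smul, he,
        hδa, hb', ← Module.End.mul_apply e (e ^ (i + 1)), ← Module.End.mul_apply e (e ^ i),
        ← pow_succ', ← pow_succ']
      push_cast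
      module
  have key : ∀ n, ∀ i, i + n = d + 1 → ∀ p ∈ I ^ (s + 1 - n), φ (p * b ^ n) ((e ^ i) h) = 0 := by
    intro n
    induction n with
    | zero =>
      intro i hi p _
      rw [show i = d + 1 by omega, hd, map_zero]
    | succ n ih =>
      intro i hi p hp
      have h1 := ih (i + 1) (by omega)
      rw [show s + 1 - (n + 1) = s - n by omega] at hp
      have hq : p * b ^ n ∈ I ^ s := by
        have := Ideal.mul_mem_mul hp (Ideal.pow_mem_pow hb n)
        rwa [← pow_add, Nat.sub_add_cancel (by omega)] at this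
      have h3 := hN (i + 1) _ hq
      rw [hform i, map_add, map_smul, ← Module.End.mul_apply, ← map_mul,
        ← Module.End.mul_apply (φ _) (φ b), ← map_mul] at h3
      have e1 : φ (p * b ^ n * a) ((e ^ (i + 1)) h) = 0 := by
        have hm : p * a ∈ I ^ (s + 1 - n) := by
          have := Ideal.mul_mem_mul hp ha
          rwa [← pow_succ, show s - n + 1 = s + 1 - n by omega] at this
        have := h1 _ hm
        rwa [mul_right_comm] at this
      rw [e1, zero_add, mul_assoc, ← pow_succ] at h3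
      refine (smul_eq_zero.1 h3).resolve_left ?_
      exact_mod_cast Nat.succ_ne_zero i
  intro p hp
  simpa using key (d + 1) 0 (by omega) p (by rwa [show s + 1 - (d + 1) = s - d by omega])

/-- pigeonhole in the multinomial expansion (`Finset.sum_pow_eq_sum_piAntidiag`): some exponent is
`≥ d + 1`, the cofactor lies in `I ^ (s - d)` -/
theorem sum_four_pow_mem (I N : Ideal A) (q : Fin 4 → A) (hq : ∀ c, q c ∈ I) {d s : ℕ}
    (hds : 4 * d ≤ s) (h : ∀ c, ∀ p ∈ I ^ (s - d), p * q c ^ (d + 1) ∈ N) :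
    (∑ c, q c) ^ (s + 1) ∈ N := by
  rw [Finset.sum_pow_eq_sum_piAntidiag]
  refine Ideal.sum_mem _ fun k hk => Ideal.mul_mem_left _ _ ?_
  have hs : ∑ c, k c = s + 1 := (Finset.mem_piAntidiag.1 hk).1
  obtain ⟨c, hc⟩ : ∃ c, d + 1 ≤ k c := by
    by_contra hcon
    push Not at hcon
    rw [Fin.sum_univ_four] at hs
    have := hcon 0; have := hcon 1; have := hcon 2; have := hcon 3
    omega
  have h1 : ∏ i, q i ^ k i = (q c ^ (k c - (d + 1)) * ∏ i ∈ Finset.univ.erase c, q i ^ k i) *
      q c ^ (d + 1) := by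
    rw [mul_right_comm, ← pow_add, Nat.sub_add_cancel hc,
      Finset.mul_prod_erase _ (fun i => q i ^ k i) (Finset.mem_univ c)]
  rw [h1]
  refine h c _ ?_
  have h2 : ∏ i ∈ Finset.univ.erase c, q i ^ k i ∈ I ^ ∑ i ∈ Finset.univ.erase c, k i := by
    rw [← Finset.prod_pow_eq_pow_sum]
    exact Ideal.prod_mem_prod fun i _ => Ideal.pow_mem_pow (hq i) _
  have h3 := Ideal.mul_mem_mul (Ideal.pow_mem_pow (hq c) (k c - (d + 1))) h2
  have h4 := Finset.add_sum_erase _ k (Finset.mem_univ c)
  rwa [← pow_add, show k c - (d + 1) + ∑ i ∈ Finset.univ.erase c, k i = s - d by omega] at h3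

/-- Leibniz rule for finite products -/
theorem deriv_prod (δ : Derivation ℂ A A) {ι : Type} [DecidableEq ι] (s : Finset ι) (f : ι → A) :
    δ (∏ i ∈ s, f i) = ∑ i ∈ s, δ (f i) * ∏ j ∈ s.erase i, f j := by
  induction s using Finset.induction_on with
  | empty => simp
  | insert a s ha ih =>
    rw [Finset.prod_insert ha, Finset.sum_insert ha, Derivation.leibniz, ih, Finset.erase_insert ha,
      smul_eq_mul, smul_eq_mul, Finset.mul_sum, add_comm, mul_comm]
    congr 1
    refine Finset.sum_congr rfl fun i hi => ?_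
    have hia : a ≠ i := fun h => ha (h ▸ hi)
    rw [Finset.erase_insert_of_ne hia, Finset.prod_insert (fun h => ha (Finset.mem_of_mem_erase h))]
    ring

/-- derivative of a determinant, row by row (`Matrix.det_apply'`, `deriv_prod`) -/
theorem deriv_det (δ : Derivation ℂ A A) {R : Type} [Fintype R] [DecidableEq R]
    (P : Matrix R R A) : δ P.det = ∑ x, (P.updateRow x fun y => δ (P x y)).det := by
  simp only [Matrix.det_apply', map_sum]
  rw [Finset.sum_comm]
  refine Finset.sum_congr rfl fun σ _ => ?_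
  rw [← zsmul_eq_mul, map_zsmul, deriv_prod, zsmul_eq_mul, Finset.mul_sum]
  symm
  rw [← Equiv.sum_comp σ]
  symm
  refine Finset.sum_congr rfl fun i _ => ?_
  congr 1
  rw [← Finset.mul_prod_erase _ _ (Finset.mem_univ i), Matrix.updateRow_self]
  congr 1
  refine Finset.prod_congr rfl fun j hj => ?_
  rw [Matrix.updateRow_ne (σ.injective.ne (Finset.ne_of_mem_erase hj))]

end Crest.Agent.R195
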