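import Crest.Agent.R195.DefsP
import Crest.Agent.R195.Step

/-!
# Row 195, task Ev: the polynomial action `ev`, commutators, supports, lowest component,
the determinant
-/

set_option autoImplicit false

open Finset Equiv MvPolynomial

namespace Crest.Agent.R195

section Ev
variable {X : Type} [Fintype X] [DecidableEq X] {L : Type} [DecidableEq L]
  {V : Type} [AddCommGroup V] [Module ℂ V]

theorem ev_comm (p q : Pol L) (h : (X → Al L) → V) :
    ev X L V p (ev X L V q h) = ev X L V q (ev X L V p h) := by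
  rw [← Module.End.mul_apply, ← map_mul, mul_comm, map_mul, Module.End.mul_apply]

theorem ev_mul (p q : Pol L) (h : (X → Al L) → V) :
    ev X L V (p * q) h = ev X L V p (ev X L V q h) := by
  rw [map_mul, Module.End.mul_apply]

theorem opP_congr {A : Type} [DecidableEq A] {p p' : A → Bool} {t t' : A → A} (hp : ∀ l, p l = p' l)
    (ht : ∀ l, p l = true → t l = t' l) :
    (opP p t : Module.End ℂ ((X → A) → V)) = opP p' t' := by
  ext f w
  simp only [opP_apply]
  refine Finset.sum_congr rfl fun x _ => ?_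
  rw [← hp]
  split_ifs with h
  · rw [ht _ h]
  · rfl

theorem ev_C (a : ℂ) (h : (X → Al L) → V) : ev X L V (C a) h = a • h := by
  rw [← algebraMap_eq, AlgHom.commutes, Module.algebraMap_end_apply]

theorem opL_ev_X (p : L → Bool) (t : L → L) (p' : L → Bool) (s : L → L)
    (hps : ∀ l m, (p l = true ∧ t l = m) ↔ (p' m = true ∧ s m = l)) (v : L × Fin 4)
    (h : (X → Al L) → V) :
    opL X V p t (ev X L V (MvPolynomial.X v) h) =
      ev X L V (MvPolynomial.X v) (opL X V p t h) + ev X L V (dP p' s (MvPolynomial.X v)) h := by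
  obtain ⟨m, c⟩ := v
  have e := opP_comm (X := X) (V := V) (Sum.elim p fun _ => false) (Sum.map t id)
    (fun l : Al L => decide (l = Sum.inl m)) fun _ => Sum.inr c
  simp only [Sum.elim_inr, Bool.and_false, opP_false, add_zero] at e
  have e2 : (opP (fun l : Al L => Sum.elim p (fun _ => false) l && decide (Sum.map t id l = Sum.inl m))
      (fun _ => Sum.inr c) : Module.End ℂ ((X → Al L) → V)) =
      ev X L V (dP p' s (MvPolynomial.X (m, c))) := by
    rw [dP_X]
    split_ifs with hm
    · rw [ev_X]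
      refine opP_congr (fun l => ?_) fun _ _ => rfl
      rcases l with l | l
      · have := hps l m
        rw [Bool.eq_iff_iff]
        simp only [Sum.elim_inl, Sum.map_inl, Sum.inl.injEq, Bool.and_eq_true, decide_eq_true_eq, this, hm,
          true_and]
        exact eq_comm
      · simp
    · rw [map_zero, ← opP_false fun _ => (Sum.inr c : Al L)]
      refine opP_congr (fun l => ?_) fun _ _ => rfl
      rcases l with l | l
      · have := hps l m
        rw [Bool.eq_iff_iff]
        simp only [Sum.elim_inl, Sum.map_inl, Sum.inl.injEq, Bool.and_eq_true, decide_eq_true_eq, this, hm,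
          Bool.false_eq_true, false_and]
      · simp
  rw [e2] at e
  rw [ev_X]
  exact LinearMap.congr_fun e h

/-- **Commutator formula.**  `MvPolynomial.induction_on` (Leibniz); for a variable `X (m, c)` use
`opP_comm`, `opP_false`, and identify `opP (fun l => P l && decide (T l = inl m)) (fun _ => inr c)`
with `if p' m then opE (inl (s m)) (inr c) else 0` using `hps`. -/
theorem opL_ev (p : L → Bool) (t : L → L) (p' : L → Bool) (s : L → L)
    (hps : ∀ l m, (p l = true ∧ t l = m) ↔ (p' m = true ∧ s m = l)) (q : Pol L)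
    (h : (X → Al L) → V) :
    opL X V p t (ev X L V q h) = ev X L V q (opL X V p t h) + ev X L V (dP p' s q) h := by
  induction q using MvPolynomial.induction_on generalizing h with
  | C a => simp [derivation_C]
  | add p q hp hq =>
    simp only [map_add, LinearMap.add_apply, hp, hq]
    abel
  | mul_X q v ih =>
    rw [ev_mul, ih, opL_ev_X p t p' s hps, Derivation.leibniz, smul_eq_mul, smul_eq_mul, map_add, map_add,
      LinearMap.add_apply, ev_mul, ev_mul, mul_comm (MvPolynomial.X v), ev_mul, add_assoc]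

theorem eL_ev (a b : L) (q : Pol L) (h : (X → Al L) → V) :
    eL X V a b (ev X L V q h) = ev X L V q (eL X V a b h) + ev X L V (dE a b q) h :=
  opL_ev _ _ _ _ (by intro l m; simp only [decide_eq_true_eq]; constructor <;>
    (rintro ⟨rfl, rfl⟩; exact ⟨rfl, rfl⟩)) q h

theorem eL_eq (a b : L) : eL X V a b = opE (Sum.inl a : Al L) (Sum.inl b) := by
  refine opP_congr (fun l => ?_) fun l hl => ?_
  · rcases l with l | l <;> simp
  · rcases l with l | l
    · rfl
    · simp at hl

/-- `ev` commutes with the permutation action (`opP_funRep`, induction on `q`) -/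
theorem ev_funRep (ρ : Representation ℂ (Perm X) V) (g : Perm X) (q : Pol L)
    (h : (X → Al L) → V) :
    ev X L V q (funRep (Al L) ρ g h) = funRep (Al L) ρ g (ev X L V q h) := by
  induction q using MvPolynomial.induction_on generalizing h with
  | C a => simp
  | add p q hp hq => simp only [map_add, LinearMap.add_apply, hp, hq]
  | mul_X q v ih => rw [ev_mul, ev_mul, ev_X, opE, opP_funRep, ih]

theorem Eqv.ev {ρ : Representation ℂ (Perm X) V} {h : (X → Al L) → V} (hh : Eqv ρ h)
    (q : Pol L) : Eqv ρ (ev X L V q h) := by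
  intro g w
  have : funRep (Al L) ρ g h = h := funext (hh g)
  rw [← funRep_apply, ← ev_funRep, this]

/-- `ev` commutes with post-composition by a linear map -/
theorem ev_map {V' : Type} [AddCommGroup V'] [Module ℂ V'] (l : V →ₗ[ℂ] V') (q : Pol L)
    (h : (X → Al L) → V) : ev X L V' q (fun w => l (h w)) = fun w => l (ev X L V q h w) := by
  induction q using MvPolynomial.induction_on generalizing h with
  | C a => funext w; simp
  | add p q hp hq => funext w; simp [hp, hq]
  | mul_X q v ih =>
    rw [ev_mul, ev_mul, ← ih, ev_X, ev_X]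
    congr 1
    funext w
    simp only [opE_apply, map_sum]
    exact Finset.sum_congr rfl fun x _ => by split_ifs <;> simp

theorem sum_update_word {A : Type} (ν : A → ℤ) (w : X → A) (x : X) (b : A) :
    ∑ y, ν (Function.update w x b y) = ∑ y, ν (w y) + (ν b - ν (w x)) := by
  have : ∀ y, ν (Function.update w x b y) = ν (w y) + if y = x then ν b - ν (w x) else 0 := by
    intro y
    by_cases h : y = x
    · subst h; simp
    · simp [h]
  simp [this, Finset.sum_add_distrib]

theorem opE_ne_zero {A : Type} [DecidableEq A] {a b : A} {f : (X → A) → V} {w : X → A}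
    (h : opE a b f w ≠ 0) : ∃ x, w x = a ∧ f (Function.update w x b) ≠ 0 := by
  rw [opE_apply] at h
  obtain ⟨x, -, hx⟩ := Finset.exists_ne_zero_of_sum_ne_zero h
  by_cases h1 : w x = a
  · exact ⟨x, h1, by rwa [if_pos h1] at hx⟩
  · exact absurd (if_neg h1) hx

theorem ev_supp_monomial (d : L × Fin 4 →₀ ℕ) (c : ℂ) : ∀ (h : (X → Al L) → V) (w : X → Al L),
    ev X L V (monomial d c) h w ≠ 0 → ∃ w', h w' ≠ 0 ∧ ∀ ν : Al L → ℤ,
      ∑ x, ν (w x) = ∑ x, ν (w' x) + d.sum fun v k => (k : ℤ) * (ν (Sum.inl v.1) - ν (Sum.inr v.2)) := by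
  have hX : ∀ (v : L × Fin 4) (k : ℕ) (h : (X → Al L) → V) (w : X → Al L),
      ev X L V (MvPolynomial.X v ^ k) h w ≠ 0 → ∃ w', h w' ≠ 0 ∧ ∀ ν : Al L → ℤ,
        ∑ x, ν (w x) = ∑ x, ν (w' x) + (k : ℤ) * (ν (Sum.inl v.1) - ν (Sum.inr v.2)) := by
    intro v k
    induction k with
    | zero => exact fun h w hw => ⟨w, by simpa using hw, by simp⟩
    | succ k ih =>
      intro h w hw
      rw [pow_succ, ev_mul] at hw
      obtain ⟨w₁, h1, h2⟩ := ih _ w hw
      rw [ev_X] at h1
      obtain ⟨x, hx, h3⟩ := opE_ne_zero h1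
      refine ⟨_, h3, fun ν => ?_⟩
      rw [h2, sum_update_word, hx]
      push_cast
      ring
  induction d using Finsupp.induction with
  | zero =>
    intro h w hw
    rw [monomial_zero', ev_C] at hw
    exact ⟨w, fun e => hw (by simp [e]), by simp⟩
  | single_add v k d _ _ ih =>
    intro h w hw
    rw [monomial_single_add, ev_mul] at hw
    obtain ⟨w₁, h1, h2⟩ := hX v k _ w hw
    obtain ⟨w₂, h3, h4⟩ := ih h w₁ h1
    refine ⟨w₂, h3, fun ν => ?_⟩
    rw [h2, h4, Finsupp.sum_add_index' (by simp) (by intros; push_cast; ring),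
      Finsupp.sum_single_index (by simp)]
    ring

/-- **Support lemma.**  Write `q = ∑ d ∈ q.support, monomial d (coeff d q)`
(`MvPolynomial.as_sum`); for monomials use induction on `d` (`Finsupp.induction_linear` or on the
degree; `monomial (d + single v 1) c = X v * monomial d c`), and `opE_apply`,
`Finset.sum_update_of_mem`/`Finset.add_sum_erase`. -/
theorem ev_supp (q : Pol L) (h : (X → Al L) → V) (w : X → Al L) (hw : ev X L V q h w ≠ 0) :
    ∃ d ∈ q.support, ∃ w', h w' ≠ 0 ∧ ∀ ν : Al L → ℤ,
      ∑ x, ν (w x) = ∑ x, ν (w' x) + d.sum fun v k => (k : ℤ) * (ν (Sum.inl v.1) - ν (Sum.inr v.2)) := by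
  rw [q.as_sum, map_sum, LinearMap.sum_apply, Finset.sum_apply] at hw
  obtain ⟨d, hd, h1⟩ := Finset.exists_ne_zero_of_sum_ne_zero hw
  exact ⟨d, hd, ev_supp_monomial d _ h w h1⟩

/-- `ν = indicator of isRight`; `IsHomogeneous` gives `d.degree = m` on the support -/
theorem Hom4.ev {h : (X → Al L) → V} {s m : ℕ} (hh : Hom4 h (s + m)) {q : Pol L}
    (hq : q.IsHomogeneous m) : Hom4 (ev X L V q h) s := by
  intro w hw
  obtain ⟨d, hd, w', h1, h2⟩ := ev_supp q h w hw
  have h3 := h2 fun l => if l.isRight = true then 1 else 0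
  have h4 := hh w' h1
  have h5 : Finsupp.weight 1 d = m := hq (mem_support_iff.1 hd)
  rw [Finsupp.weight_apply] at h5
  simp only [Finset.sum_boole, h4, Sum.isRight_inl, Sum.isRight_inr, Bool.false_eq_true, if_false, if_true,
    zero_sub, mul_neg, mul_one, Finsupp.sum, Finset.sum_neg_distrib] at h3
  simp only [Pi.one_apply, smul_eq_mul, mul_one, Finsupp.sum] at h5
  rw [← Nat.cast_sum, h5] at h3
  push_cast at h3
  omega

/-- `ν = indicator of inl l`; a variable `v` with `d v ≠ 0` lies in `q.vars` -/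
theorem DegLE.ev {h : (X → Al L) → V} {l : L} {d : ℕ} (hh : DegLE h l d) {q : Pol L}
    (hq : ∀ v ∈ q.vars, v.1 ≠ l) : DegLE (ev X L V q h) l d := by
  intro w hw
  obtain ⟨e, he, w', h1, h2⟩ := ev_supp q h w hw
  have h3 := h2 fun l' => if l' = Sum.inl l then 1 else 0
  have h4 := hh w' h1
  rw [Finsupp.sum, Finset.sum_eq_zero (s := e.support) fun v hv => by
    simp [hq v ((mem_vars_iff_mem_support v).2 ⟨e, he, hv⟩)]] at h3
  simp only [Finset.sum_boole, add_zero, Nat.cast_inj] at h3
  exact h3 ▸ h4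

omit [DecidableEq X] [Module ℂ V] in
theorem degLE_zero_iff {h : (X → Al L) → V} {l : L} :
    DegLE h l 0 ↔ ∀ w, h w ≠ 0 → ∀ x, w x ≠ Sum.inl l := by
  simp [DegLE, Finset.filter_eq_empty_iff]

/-- new finite set `S ∪ q.vars.image Prod.fst` (use `DegLE.ev` with `d = 0`) -/
theorem FinL.ev {h : (X → Al L) → V} (hh : FinL h) (q : Pol L) : FinL (ev X L V q h) := by
  obtain ⟨S, hS⟩ := hh
  refine ⟨S ∪ q.vars.image Prod.fst, fun w hw x m hx => ?_⟩
  by_contra hm
  rw [Finset.mem_union, not_or] at hm
  exact degLE_zero_iff.1 (DegLE.ev (degLE_zero_iff.2 fun w hw x hx => hm.1 (hS w hw x m hx))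
    fun v hv e => hm.2 (Finset.mem_image.2 ⟨v, hv, e⟩)) w hw x hx

theorem vars_qq (a b : L) : ∀ v ∈ (qq a b).vars, v.1 = a ∨ v.1 = b := by
  intro v hv
  obtain ⟨c, -, hc⟩ := Finset.mem_biUnion.1 (vars_sum_subset _ _ hv)
  rcases Finset.mem_union.1 (vars_mul _ _ hc) with h | h <;> rw [vars_X, Finset.mem_singleton] at h
  · exact Or.inl (by rw [h])
  · exact Or.inr (by rw [h])

theorem vars_uu (a : L) : ∀ v ∈ (uu a).vars, v.1 = a := by
  intro v hv
  rcases Finset.mem_union.1 (vars_add_subset _ _ hv) with h | h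
  · rw [vars_X, Finset.mem_singleton] at h
    rw [h]
  · rw [vars_C_mul _ Complex.I_ne_zero, vars_X, Finset.mem_singleton] at h
    rw [h]

theorem qq_isHomogeneous (a b : L) : (qq a b).IsHomogeneous 2 := by
  exact IsHomogeneous.sum _ _ _ fun c _ => (isHomogeneous_X ℂ _).mul (isHomogeneous_X ℂ _)

theorem ent_isHomogeneous (ε η : Fin 2) (a : L) : (ent ε η a).IsHomogeneous 1 := by
  unfold ent uu
  split_ifs
  · exact (isHomogeneous_X ℂ _).add ((isHomogeneous_X ℂ _).C_mul _)
  · exact (isHomogeneous_X ℂ _).add ((isHomogeneous_X ℂ _).C_mul _)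
  · exact ((isHomogeneous_X ℂ _).sub ((isHomogeneous_X ℂ _).C_mul _)).neg
  · exact (isHomogeneous_X ℂ _).sub ((isHomogeneous_X ℂ _).C_mul _)

theorem uu_isHomogeneous (a : L) : (uu a).IsHomogeneous 1 := by
  simpa [ent] using ent_isHomogeneous 0 0 a

/-- `eL m l` moves a letter `l` to `m`: `DegLE h l (d+1) → DegLE (eL m l h) l d` and
`DegLE h l 0 → eL m l h = 0` -/
theorem DegLE.eL_pow {h : (X → Al L) → V} {l m : L} {d : ℕ} (hh : DegLE h l d) (hml : m ≠ l) :
    (eL X V m l ^ (d + 1)) h = 0 := by
  have key : ∀ (h : (X → Al L) → V) (d : ℕ), DegLE h l d → ∀ w, eL X V m l h w ≠ 0 →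
      #{x | w x = Sum.inl l} + 1 ≤ d := by
    intro h d hh w hw
    rw [eL_eq] at hw
    obtain ⟨x, hx, h1⟩ := opE_ne_zero hw
    have h2 := hh _ h1
    have h3 : (univ.filter fun y => Function.update w x (Sum.inl l) y = Sum.inl l) =
        insert x (univ.filter fun y => w y = Sum.inl l) := by
      ext y
      by_cases h : y = x
      · subst h; simp
      · simp [h]
    rwa [h3, Finset.card_insert_of_notMem (by simp [hx, hml])] at h2
  induction d generalizing h with
  | zero =>
    funext w
    by_contra hw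
    have := key h 0 hh w (by simpa using hw)
    omega
  | succ d ih =>
    rw [pow_succ, Module.End.mul_apply]
    exact ih fun w hw => Nat.le_of_succ_le_succ (key h _ hh w hw)

theorem coeff_low (ω : L → ℕ) (q : Pol L) (d : L × Fin 4 →₀ ℕ) :
    coeff d (low ω q) = if ∀ v ∈ d.support, ω v.1 = 0 then coeff d q else 0 := by
  classical
  induction q using MvPolynomial.induction_on' with
  | add p q hp hq =>
    rw [map_add, coeff_add, hp, hq, coeff_add]
    split_ifs <;> simp
  | monomial e c =>
    have : low ω (monomial e c) = if ∀ v ∈ e.support, ω v.1 = 0 then monomial e c else 0 := by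
      rw [low, aeval_monomial]
      split_ifs with h
      · rw [monomial_eq, algebraMap_eq]
        congr 1
        exact Finset.prod_congr rfl fun v hv => by simp only [if_pos (h v hv)]
      · push Not at h
        obtain ⟨v, hv, h⟩ := h
        rw [Finsupp.prod, Finset.prod_eq_zero hv, mul_zero]
        rw [if_neg h, zero_pow (Finsupp.mem_support_iff.1 hv)]
    rw [this]
    by_cases hed : e = d
    · subst hed
      split_ifs <;> simp
    · split_ifs <;> simp [coeff_monomial, hed]

/-- **Lowest component.**  `low ω (monomial d c) = if weight d = 0 then monomial d c else 0`, so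
the monomials of `low ω q` have `ω`-weight `0`, those of `q - low ω q` positive weight.  Write
`h = h0 + h1`; by `ev_supp` (`ν = Sum.elim ω 0`) `ev (low q) h0` is supported on weight `m0`, while
`ev (q - low q) h` and `ev (low q) h1` are supported on weight `> m0`. -/
theorem ev_low (ω : L → ℕ) (q : Pol L) (h : (X → Al L) → V) (m0 : ℕ)
    (hh : ∀ w, h w ≠ 0 → m0 ≤ wt ω w) (h0 : ev X L V q h = 0) :
    ev X L V (low ω q) (fun w => if wt ω w = m0 then h w else 0) = 0 := by
  have hs : ∀ (p : Pol L) (g : (X → Al L) → V) (w : X → Al L), ev X L V p g w ≠ 0 →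
      ∃ d ∈ p.support, ∃ w', g w' ≠ 0 ∧ wt ω w = wt ω w' + ∑ v ∈ d.support, d v * ω v.1 := by
    intro p g w hw
    obtain ⟨d, hd, w', h1, h2⟩ := ev_supp p g w hw
    refine ⟨d, hd, w', h1, ?_⟩
    have h3 := h2 fun l => ((Sum.elim ω (fun _ => 0) l : ℕ) : ℤ)
    simp only [Finsupp.sum, Sum.elim_inl, Sum.elim_inr, Nat.cast_zero, sub_zero] at h3
    unfold wt
    exact_mod_cast h3
  have hl : ∀ d ∈ (low ω q).support, ∑ v ∈ d.support, d v * ω v.1 = 0 := fun d hd =>
    Finset.sum_eq_zero fun v hv => by
      rw [mem_support_iff, coeff_low] at hd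
      rw [(ite_ne_right_iff.1 hd).1 v hv, mul_zero]
  funext w
  by_contra hw
  obtain ⟨d, hd, w', h1, h2⟩ := hs _ _ w hw
  rw [hl d hd, add_zero, (ite_ne_right_iff.1 h1).1] at h2
  have e1 : ev X L V (low ω q) (fun w => if wt ω w = m0 then 0 else h w) w = 0 := by
    by_contra hc
    obtain ⟨d, hd, w', h1, h3⟩ := hs _ _ w hc
    rw [hl d hd, add_zero, h2] at h3
    exact (ite_ne_left_iff.1 h1).1 h3.symm
  have e2 : ev X L V (q - low ω q) h w = 0 := by
    by_contra hc
    obtain ⟨d, hd, w', h1, h3⟩ := hs _ _ w hc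
    have h4 := hh w' h1
    have h5 : ∑ v ∈ d.support, d v * ω v.1 = 0 := by omega
    rw [mem_support_iff, coeff_sub, coeff_low, if_pos fun v hv =>
      (mul_eq_zero.1 (Finset.sum_eq_zero_iff.1 h5 v hv)).resolve_left (Finsupp.mem_support_iff.1 hv)] at hd
    exact hd (sub_self _)
  have e3 : h = (fun w => if wt ω w = m0 then h w else 0) + fun w => if wt ω w = m0 then 0 else h w := by
    funext w
    simp only [Pi.add_apply]
    split_ifs <;> simp
  rw [map_sub, LinearMap.sub_apply, h0, zero_sub, Pi.neg_apply, neg_eq_zero, e3, map_add, Pi.add_apply, e1,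
    add_zero] at e2
  exact hw e2

end Ev

end Crest.Agent.R195
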