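import Crest.Agent.R195.Ev

/-!
# Row 195, task Ext: extension by averaging; evaluation of the contraction
-/

set_option autoImplicit false

open Finset Equiv MvPolynomial

namespace Crest.Agent.R195

variable {J S E : Type} [Fintype J] [DecidableEq J] [Fintype S] [DecidableEq S] [Fintype E]
  [DecidableEq E] {V : Type} [AddCommGroup V] [Module ℂ V]

/-- the left/right pattern of the words `mixW y α β` -/
def ExtPat {P : Type} (W : P ⊕ E → Al (ℕ × ℕ)) : Prop :=
  (∀ p, (W (Sum.inl p)).isRight = true) ∧ ∀ e, (W (Sum.inr e)).isLeft = true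

omit [Fintype E] [DecidableEq E] in
theorem extPat_mixW {P : Type} (y : P → Fin 4) (α β : E → ℕ) : ExtPat (mixW y α β) :=
  ⟨fun _ => rfl, fun _ => rfl⟩

omit [Fintype E] [DecidableEq E] in
theorem ExtPat.exists {P : Type} {W : P ⊕ E → Al (ℕ × ℕ)} (h : ExtPat W) :
    ∃ y α β, W = mixW y α β := by
  refine ⟨fun p => (W (Sum.inl p)).elim (fun _ => 0) id,
    fun e => (W (Sum.inr e)).elim Prod.fst fun _ => 0,
    fun e => (W (Sum.inr e)).elim Prod.snd fun _ => 0, funext fun q => ?_⟩
  rcases q with p | e
  · obtain ⟨c, hc⟩ := Sum.isRight_iff.1 (h.1 p)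
    simp [mixW, hc]
  · obtain ⟨c, hc⟩ := Sum.isLeft_iff.1 (h.2 e)
    simp [mixW, hc]

omit [Fintype E] in
theorem ExtPat.of_update {P : Type} [DecidableEq P] {W : P ⊕ E → Al (ℕ × ℕ)}
    (t : ℕ × ℕ → ℕ × ℕ) (q : P ⊕ E) (h : ExtPat (Function.update W q (Sum.map t id (W q)))) :
    ExtPat W := by
  refine ⟨fun p => ?_, fun e => ?_⟩
  · have := h.1 p
    by_cases hq : Sum.inl p = q
    · subst hq; simpa using this
    · rwa [Function.update_of_ne hq] at this
  · have := h.2 e
    by_cases hq : Sum.inr e = q
    · subst hq; simpa using this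
    · rwa [Function.update_of_ne hq] at this

/-- **Extension.**

Plan.  `LinearMap.exists_rightInverse_of_surjective` gives a *linear* section
`s0 : range (Phi ρ) →ₗ ((Pos J S → Fin 4) → V)` of `(Phi ρ).rangeRestrict` (no equivariance needed).
`mixW` is injective in `(y, α, β)`; define `f0 W = s0 (x α β) y` if `W = mixW y α β`, `0` otherwise
(e.g. `f0 W = if (∀ p, (W (inl p)).isRight) ∧ (∀ e, (W (inr e)).isLeft) then … else 0` reading off
`y, α, β` with `Sum.elim`), and `f = ∑ G, funRep _ ρ G f0`.  `opA i j f0 = 0` for `i < j`: on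
`mixW y α β` it is `s0 (opE i j (x · β) α) y = 0` (`Fintype.sum_sum_type`, `opE_apply`), on other
words all terms vanish (the update keeps the left/right pattern).  `opP_funRep` transfers this to
`f`.  Contraction: `f0 (mixW y α β ∘ G) ≠ 0` forces `G` to preserve the positions, so
`G = sumCongr g1 g2` (`Equiv.Perm.mem_sumCongrHom_range_of_perm_mapsTo_inl`,
`Equiv.Perm.sumCongrHom_injective`), `mixW y α β ∘ G = mixW (y ∘ g1) (α ∘ g2) (β ∘ g2)`, and
`∑ y, c0 y • f (mixW y α β) = ∑ g2, ρ (sumCongr 1 g2) (Phi ρ (s0 (x (α ∘ g2) (β ∘ g2))))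
 = ∑ g2, x α β` by `hx.eqv`, `imgRep_apply`. -/
theorem exists_ext (ρ : Representation ℂ (Perm (Pos J S ⊕ E)) V) {a b : ℕ → ℕ}
    {x : (E → ℕ) → (E → ℕ) → LinearMap.range (Phi ρ)} (hx : IsK (imgRep ρ) a b x) :
    ∃ f : (Pos J S ⊕ E → Al (ℕ × ℕ)) → V, Eqv ρ f ∧
      (∀ i j, i < j → opA _ V i j f = 0) ∧ (∀ i j, i < j → opB _ V i j f = 0) ∧
      (∀ W, f W ≠ 0 → ∃ (G : Perm (Pos J S ⊕ E)) (y : Pos J S → Fin 4) (α β : E → ℕ),
        x α β ≠ 0 ∧ W ∘ G = mixW y α β) ∧
      ∀ α β, ∑ y : Pos J S → Fin 4, c0 y • f (mixW y α β)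
        = (Fintype.card (Perm E) : ℂ) • (x α β : V) := by
  classical
  obtain ⟨s0, hs0⟩ := LinearMap.exists_rightInverse_of_surjective (Phi ρ).rangeRestrict
    (LinearMap.range_rangeRestrict _)
  have hs0' : ∀ v, Phi ρ (s0 v) = v.1 := fun v => congrArg Subtype.val (LinearMap.congr_fun hs0 v)
  let f0 : (Pos J S ⊕ E → Al (ℕ × ℕ)) → V := fun W =>
    if ExtPat W then s0 (x (fun e => (W (Sum.inr e)).elim Prod.fst fun _ => 0)
      (fun e => (W (Sum.inr e)).elim Prod.snd fun _ => 0))
      (fun p => (W (Sum.inl p)).elim (fun _ => 0) id) else 0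
  have hf0 : ∀ y α β, f0 (mixW y α β) = s0 (x α β) y := by
    intro y α β
    simp only [f0, if_pos (extPat_mixW y α β)]
    rfl
  have hf0' : ∀ W, ¬ ExtPat W → f0 W = 0 := fun W hW => if_neg hW
  have hA : ∀ i j, i < j → opA _ V i j f0 = 0 := by
    intro i j hij
    funext W
    rw [opA, opL, opP_apply]
    by_cases hW : ExtPat W
    · obtain ⟨y, α, β, rfl⟩ := hW.exists
      have h1 := congrArg (fun v => s0 v y) (congrFun ((hx.left β).kill i j hij) α)
      simp only [opE_apply, map_sum, Finset.sum_apply, Pi.zero_apply, map_zero] at h1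
      rw [Fintype.sum_sum_type, Finset.sum_eq_zero (fun p _ => by simp [mixW]), zero_add]
      refine Eq.trans (Finset.sum_congr rfl fun e _ => ?_) h1
      have h2 : Function.update (mixW y α β) (Sum.inr e) (Sum.inl (j, β e)) =
          mixW y (Function.update α e j) β := by
        funext q
        rcases q with p | e'
        · simp [mixW]
        · by_cases he : e' = e
          · subst he; simp [mixW]
          · simp [mixW, he]
      by_cases hi : α e = i
      · simp only [mixW, Sum.elim_inr, Sum.elim_inl, hi, decide_true, if_true, Sum.map_inl]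
        exact (congrArg f0 h2).trans (hf0 _ _ _)
      · simp [mixW, hi]
    · refine Finset.sum_eq_zero fun q _ => ?_
      rw [hf0' _ fun h => hW (h.of_update _ q), ite_self]
  have hB : ∀ i j, i < j → opB _ V i j f0 = 0 := by
    intro i j hij
    funext W
    rw [opB, opL, opP_apply]
    by_cases hW : ExtPat W
    · obtain ⟨y, α, β, rfl⟩ := hW.exists
      have h1 := congrArg (fun v => s0 v y) (congrFun ((hx.right α).kill i j hij) β)
      simp only [opE_apply, map_sum, Finset.sum_apply, Pi.zero_apply, map_zero] at h1
      rw [Fintype.sum_sum_type, Finset.sum_eq_zero (fun p _ => by simp [mixW]), zero_add]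
      refine Eq.trans (Finset.sum_congr rfl fun e _ => ?_) h1
      have h2 : Function.update (mixW y α β) (Sum.inr e) (Sum.inl (α e, j)) =
          mixW y α (Function.update β e j) := by
        funext q
        rcases q with p | e'
        · simp [mixW]
        · by_cases he : e' = e
          · subst he; simp [mixW]
          · simp [mixW, he]
      by_cases hi : β e = i
      · simp only [mixW, Sum.elim_inr, Sum.elim_inl, hi, decide_true, if_true, Sum.map_inl]
        exact (congrArg f0 h2).trans (hf0 _ _ _)
      · simp [mixW, hi]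
    · refine Finset.sum_eq_zero fun q _ => ?_
      rw [hf0' _ fun h => hW (h.of_update _ q), ite_self]
  refine ⟨∑ G, funRep _ ρ G f0, fun g W => ?_, fun i j hij => ?_, fun i j hij => ?_,
    fun W hW => ?_, fun α β => ?_⟩
  · rw [← funRep_apply, map_sum, ← Equiv.sum_comp (Equiv.mulLeft g) (fun G => funRep _ ρ G f0)]
    refine congrFun (Finset.sum_congr rfl fun G _ => ?_) W
    rw [← Module.End.mul_apply, ← map_mul]; rfl
  · rw [map_sum]
    refine Finset.sum_eq_zero fun G _ => ?_
    have := hA i j hij
    rw [opA, opL] at this ⊢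
    rw [opP_funRep, this, map_zero]
  · rw [map_sum]
    refine Finset.sum_eq_zero fun G _ => ?_
    have := hB i j hij
    rw [opB, opL] at this ⊢
    rw [opP_funRep, this, map_zero]
  · rw [Finset.sum_apply] at hW
    obtain ⟨G, -, hG⟩ := Finset.exists_ne_zero_of_sum_ne_zero hW
    have h1 : f0 (W ∘ G) ≠ 0 := fun h => hG (by rw [funRep_apply, h, map_zero])
    obtain ⟨y, α, β, h2⟩ := (by_contra fun h => h1 (hf0' _ h) : ExtPat (W ∘ G)).exists
    refine ⟨G, y, α, β, fun h => h1 ?_, h2⟩
    rw [h2, hf0, h, map_zero]; rfl
  · have h1 : ∀ y : Pos J S → Fin 4, (∑ G, funRep _ ρ G f0) (mixW y α β) =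
        ∑ g2 : Perm E, ∑ g1 : Perm (Pos J S), ρ (Perm.sumCongr 1 g2) (ρ (Perm.sumCongr g1 1)
          (s0 (x (α ∘ g2) (β ∘ g2)) (y ∘ g1))) := by
      intro y
      rw [Finset.sum_apply, Finset.sum_comm, ← Fintype.sum_prod_type']
      symm
      refine Fintype.sum_of_injective (Perm.sumCongrHom (Pos J S) E) Perm.sumCongrHom_injective _ _
        (fun G hG => ?_) fun g => ?_
      · rw [funRep_apply, hf0', map_zero]
        intro hp
        refine hG (Perm.mem_sumCongrHom_range_of_perm_mapsTo_inl ?_)
        rintro _ ⟨p, rfl⟩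
        have h2 := hp.1 p
        rcases hq : G (Sum.inl p) with p' | e
        · exact ⟨p', rfl⟩
        · simp [hq, mixW] at h2
      · have h2 : mixW y α β ∘ Perm.sumCongrHom (Pos J S) E g =
            mixW (y ∘ g.1) (α ∘ g.2) (β ∘ g.2) := by
          funext q; rcases q with p | e <;> rfl
        rw [funRep_apply, h2, hf0, ← Module.End.mul_apply, ← map_mul, Perm.sumCongr_mul, one_mul,
          mul_one]
        rfl
    simp only [h1, Finset.smul_sum]
    rw [Finset.sum_comm]
    have h2 : ∀ g2 : Perm E, ∑ y : Pos J S → Fin 4, ∑ g1 : Perm (Pos J S), c0 y •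
        ρ (Perm.sumCongr 1 g2) (ρ (Perm.sumCongr g1 1) (s0 (x (α ∘ g2) (β ∘ g2)) (y ∘ g1))) =
        (x α β : V) := by
      intro g2
      rw [← hx.eqv g2 α β, imgRep_apply, ← hs0', Phi_apply, Finset.sum_comm]
      simp only [map_sum, map_smul]
    simp only [h2, Finset.sum_const, Finset.card_univ, Nat.cast_smul_eq_nsmul]

/-- averaging identity used in the inductive step below: the map
`(c, t) ↦ (update c j t, c j)` is an involution -/
theorem sum_sum_update {ι B M : Type} [Fintype ι] [DecidableEq ι] [Fintype B] [AddCommMonoid M]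
    (F : (ι → B) → M) (j : ι) :
    ∑ c : ι → B, ∑ t : B, F (Function.update c j t) = Fintype.card B • ∑ c : ι → B, F c := by
  have hinv : Function.Involutive fun q : (ι → B) × B => (Function.update q.1 j q.2, q.1 j) := by
    intro q; simp
  rw [← Fintype.sum_prod_type']
  refine (Equiv.sum_comp hinv.toPerm (fun q => F q.1)).trans ?_
  rw [Fintype.sum_prod_type, Finset.smul_sum]
  simp

section Local
variable {X L : Type} [Fintype X] [DecidableEq X] [DecidableEq L]

theorem opE_local {a b : Al L} {w : X → Al L} {x : X} (hx : w x = a) (h : ∀ q, w q = a → q = x)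
    (g : (X → Al L) → V) : opE a b g w = g (Function.update w x b) := by
  rw [opE_apply, Finset.sum_eq_single x, if_pos hx]
  · intro q _ hq; exact if_neg fun h' => hq (h q h')
  · simp

theorem ev_uu_local {l : L} {w : X → Al L} {x : X} (hx : w x = Sum.inl l)
    (h : ∀ q, w q = Sum.inl l → q = x) (g : (X → Al L) → V) :
    ev X L V (uu l) g w = ∑ c, uvec c • g (Function.update w x (Sum.inr c)) := by
  rw [uu, map_add, map_mul, ev_X, ev_X, MvPolynomial.algHom_C, LinearMap.add_apply,
    Module.End.mul_apply, Module.algebraMap_end_apply, Pi.add_apply, Pi.smul_apply,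
    opE_local hx h, opE_local hx h, Fin.sum_univ_four]
  simp [uvec]

theorem ev_qq_local {l : L} {w : X → Al L} {x x' : X} (hne : x ≠ x') (hx : w x = Sum.inl l)
    (hx' : w x' = Sum.inl l) (h : ∀ q, w q = Sum.inl l → q = x ∨ q = x') (g : (X → Al L) → V) :
    ev X L V (qq l l) g w =
      ∑ c, (2 : ℂ) • g (Function.update (Function.update w x (Sum.inr c)) x' (Sum.inr c)) := by
  rw [qq, map_sum, LinearMap.sum_apply, Finset.sum_apply]
  refine Finset.sum_congr rfl fun c _ => ?_
  rw [map_mul, ev_X, Module.End.mul_apply, opE_apply,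
    Finset.sum_eq_add_of_mem x x' (Finset.mem_univ _) (Finset.mem_univ _) hne, if_pos hx, if_pos hx',
    opE_local (x := x'), opE_local (x := x), Function.update_comm hne.symm, two_smul]
  · rw [Function.update_of_ne hne, hx]
  · intro q hq
    by_cases h1 : q = x'
    · subst h1; simp at hq
    · rw [Function.update_of_ne h1] at hq
      exact (h q hq).resolve_right h1
  · rw [Function.update_of_ne hne.symm, hx']
  · intro q hq
    by_cases h1 : q = x
    · subst h1; simp at hq
    · rw [Function.update_of_ne h1] at hq
      exact (h q hq).resolve_left h1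
  · intro q _ hq
    exact if_neg fun h' => (h q h').elim hq.1 hq.2

theorem ev_prod_local {ι : Type} [Fintype ι] [DecidableEq ι] (P : ι → Pol L)
    (coef : ι → Fin 4 → ℂ) (φ : (ι → Option (Fin 4)) → (X → Al L))
    (h : ∀ c i, c i = none → ∀ g : (X → Al L) → V, ev X L V (P i) g (φ c) =
      ∑ b, coef i b • g (φ (Function.update c i (some b)))) (g : (X → Al L) → V) :
    ev X L V (∏ i, P i) g (φ fun _ => none) =
      ∑ d : ι → Fin 4, (∏ i, coef i (d i)) • g (φ fun i => some (d i)) := by
  have key : ∀ A : Finset ι, ∀ c : ι → Option (Fin 4), (∀ i ∈ A, c i = none) →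
      4 ^ Fintype.card ι • ev X L V (∏ i ∈ A, P i) g (φ c) = 4 ^ #A •
        ∑ d : ι → Fin 4, (∏ i ∈ A, coef i (d i)) • g (φ fun i => if i ∈ A then some (d i) else c i) := by
    intro A
    induction A using Finset.induction_on with
    | empty => intro c _; simp
    | insert j A hj ih =>
      intro c hc
      have h4 := sum_sum_update (fun d : ι → Fin 4 => (∏ i ∈ insert j A, coef i (d i)) •
        g (φ fun i => if i ∈ insert j A then some (d i) else c i)) j
      rw [Fintype.card_fin] at h4
      rw [Finset.prod_insert hj, ev_mul, h c j (hc j (Finset.mem_insert_self _ _)),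
        Finset.card_insert_of_notMem hj, pow_succ, mul_smul, ← h4, Finset.sum_comm, Finset.smul_sum,
        Finset.smul_sum]
      refine Finset.sum_congr rfl fun b _ => ?_
      rw [smul_comm, ih, smul_comm, Finset.smul_sum]
      · congr 1
        refine Finset.sum_congr rfl fun d _ => ?_
        rw [smul_smul, Finset.prod_insert hj, Function.update_self]
        congr 2
        · refine Finset.prod_congr rfl fun i hi => ?_
          rw [Function.update_of_ne (ne_of_mem_of_not_mem hi hj)]
        · congr 1
          funext i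
          by_cases hi : i = j
          · subst hi; simp [hj]
          · simp [hi]
      · intro i hi
        rw [Function.update_of_ne (ne_of_mem_of_not_mem hi hj)]
        exact hc i (Finset.mem_insert_of_mem hi)
  have h1 := key Finset.univ (fun _ => none) fun _ _ => rfl
  simp only [Finset.mem_univ, if_true, Finset.card_univ, ← Nat.cast_smul_eq_nsmul ℂ] at h1
  exact smul_right_injective V (by simp) h1

end Local

/-- **Evaluation of the contraction** at a word in which each `m j` occurs exactly on the domino `j`
and each `z t` exactly at the single `t`.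

Plan.  If the letter `inl l` occurs in `w` exactly at `x`, then
`ev (uu l) g w = ∑ c, uvec c • g (update w x (inr c))`; if exactly at `x ≠ x'` then
`ev (qq l l) g w = 2 • ∑ c, g (update (update w x (inr c)) x' (inr c))` (`ev_X`, `opE_apply`).
Do the singles and the dominoes separately by `Finset.induction` on subsets `A ⊆ J`, `B ⊆ S`,
for all words `w` with the occurrence property, e.g.
`4 ^ #A • … : (4 ^ card J) • ev (∏ j ∈ A, qq (m j) (m j)) g w
   = (8 ^ #A) • … ∑ c : J → Fin 4, g (w with the dominoes j ∈ A set to inr (c j))` up to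
normalisation (`sum_sum_update`), or sum over `Fintype.piFinset fun j => if j ∈ A then univ else {0}`.
Finally `∑ y, c0 y • F y = ∑ c : J → Fin 4, ∑ c' : S → Fin 4, (∏ t, uvec (c' t)) • F (elim (c ∘ fst) c')`. -/
theorem ev_eval {L : Type} [DecidableEq L] (m : J → L) (z : S → L) (hm : Function.Injective m)
    (hz : Function.Injective z) (hmz : ∀ j t, m j ≠ z t) (w0 : E → Al L)
    (hm0 : ∀ e j, w0 e ≠ Sum.inl (m j)) (hz0 : ∀ e t, w0 e ≠ Sum.inl (z t))
    (f : (Pos J S ⊕ E → Al L) → V) :
    ev _ L V ((∏ j, qq (m j) (m j)) * ∏ t, uu (z t)) f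
        (Sum.elim (Sum.elim (fun p => Sum.inl (m p.1)) fun t => Sum.inl (z t)) w0)
      = (2 : ℂ) ^ Fintype.card J •
        ∑ y : Pos J S → Fin 4, c0 y • f (Sum.elim (fun p => Sum.inr (y p)) w0) := by
  let φ : (J ⊕ S → Option (Fin 4)) → (Pos J S ⊕ E → Al L) := fun c =>
    Sum.elim (Sum.elim (fun p => (c (Sum.inl p.1)).elim (Sum.inl (m p.1)) Sum.inr)
      fun t => (c (Sum.inr t)).elim (Sum.inl (z t)) Sum.inr) w0
  have key := ev_prod_local (V := V) (Sum.elim (fun j => qq (m j) (m j)) fun t => uu (z t))
    (Sum.elim (fun _ _ => 2) fun _ => uvec) φ ?_ f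
  · rw [Fintype.prod_sum_type] at key
    refine key.trans ?_
    rw [Finset.smul_sum]
    refine Fintype.sum_of_injective (fun (d : J ⊕ S → Fin 4) =>
      (Sum.elim (fun p => d (Sum.inl p.1)) fun t => d (Sum.inr t) : Pos J S → Fin 4)) ?_ _ _ ?_ ?_
    · intro d d' h
      funext i
      rcases i with j | t
      · exact congrFun h (Sum.inl (j, 0))
      · exact congrFun h (Sum.inr t)
    · intro y hy
      have : ∃ j, y (Sum.inl (j, 0)) ≠ y (Sum.inl (j, 1)) := by
        by_contra hcon
        push Not at hcon
        refine hy ⟨Sum.elim (fun j => y (Sum.inl (j, 0))) fun t => y (Sum.inr t), ?_⟩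
        funext p
        rcases p with ⟨j, i⟩ | t
        · fin_cases i
          · rfl
          · exact hcon j
        · rfl
      obtain ⟨j, hj⟩ := this
      rw [c0, Finset.prod_eq_zero (Finset.mem_univ j) (if_neg hj)]
      simp
    · intro d
      rw [smul_smul, Fintype.prod_sum_type]
      congr 1
      · simp [c0]
      · congr 1
        funext q
        rcases q with (p | t) | e <;> rfl
  · intro c i hi g
    rcases i with j | t
    · rw [Sum.elim_inl, ev_qq_local (x := Sum.inl (Sum.inl (j, 0))) (x' := Sum.inl (Sum.inl (j, 1)))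
        (by simp) (by simp [φ, hi]) (by simp [φ, hi])]
      · refine Finset.sum_congr rfl fun b _ => congrArg₂ (· • ·) rfl (congrArg g ?_)
        funext q
        rcases q with (⟨j', i⟩ | t) | e
        · by_cases hj : j' = j
          · subst hj
            have h2 : φ (Function.update c (Sum.inl j') (some b)) (Sum.inl (Sum.inl (j', i))) =
                Sum.inr b := by
              simp only [φ, Sum.elim_inl, Function.update_self, Option.elim_some]
            rw [h2]
            by_cases h1 : i = 1
            · subst h1; rw [Function.update_self]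
            · have h0 : i = 0 := by omega
              subst h0
              rw [Function.update_of_ne (by simp), Function.update_self]
          · rw [Function.update_of_ne (by simp [hj]), Function.update_of_ne (by simp [hj])]
            simp only [φ, Sum.elim_inl]
            rw [Function.update_of_ne (by simp [hj])]
        · rw [Function.update_of_ne (by simp), Function.update_of_ne (by simp)]
          simp only [φ, Sum.elim_inl, Sum.elim_inr]
          rw [Function.update_of_ne (by simp)]
        · rw [Function.update_of_ne (by simp), Function.update_of_ne (by simp)]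
          rfl
      · rintro ((⟨j', i⟩ | t) | e) hq
        · have hj : j' = j := by
            rcases hc : c (Sum.inl j') with _ | b
            · simpa [φ, hc, hm.eq_iff] using hq
            · simp [φ, hc] at hq
          subst hj; fin_cases i <;> simp
        · rcases hc : c (Sum.inr t) with _ | b
          · exact absurd (by simpa [φ, hc] using hq) (hmz j t).symm
          · simp [φ, hc] at hq
        · exact absurd hq (hm0 e j)
    · rw [Sum.elim_inr, ev_uu_local (x := Sum.inl (Sum.inr t)) (by simp [φ, hi])]
      · refine Finset.sum_congr rfl fun b _ => ?_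
        congr 2
        funext q
        rcases q with (p | t') | e
        · simp [φ]
        · by_cases ht : t' = t
          · subst ht; simp [φ]
          · simp [φ, ht]
        · simp [φ]
      · rintro ((p | t') | e) hq
        · rcases hc : c (Sum.inl p.1) with _ | b
          · exact absurd (by simpa [φ, hc] using hq) (hmz p.1 t)
          · simp [φ, hc] at hq
        · rcases hc : c (Sum.inr t') with _ | b
          · simpa [φ, hc, hz.eq_iff] using hq
          · simp [φ, hc] at hq
        · exact absurd hq (hz0 e t)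

end Crest.Agent.R195
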