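import Crest.Agent.R195.Straight

/-!
# Row 195, task HVs: constructing highest weight functions, twist, existence, irreducibility
-/

set_option autoImplicit false

open Finset Equiv

namespace Crest.Agent.R195

variable {X : Type} [Fintype X] [DecidableEq X] {V : Type} [AddCommGroup V] [Module ℂ V]

omit [Fintype X] [DecidableEq X] in
theorem HVs_comp_mul {A : Type} (β : X → A) (g h : Perm X) : β ∘ (g * h : Perm X) = (β ∘ g) ∘ h := by
  funext x; simp

theorem HVs_hw_comp {a : ℕ → ℕ} {u : (X → ℕ) → ℂ} (hu : HW a u) (g : Perm X) :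
    HW a fun β => u (β ∘ g) :=
  hu.funRep (Representation.trivial ℂ (Perm X) ℂ) g

theorem HVs_sum_update (φ : ℕ → ℕ) (β : X → ℕ) (x : X) (j : ℕ) :
    ∑ y, φ (Function.update β x j y) + φ (β x) = ∑ y, φ (β y) + φ j := by
  rw [← Finset.add_sum_erase _ _ (Finset.mem_univ x),
    ← Finset.add_sum_erase _ (fun y => φ (β y)) (Finset.mem_univ x)]
  have : ∑ y ∈ univ.erase x, φ (Function.update β x j y) = ∑ y ∈ univ.erase x, φ (β y) :=
    Finset.sum_congr rfl fun y hy => by rw [Function.update_of_ne (Finset.mem_erase.1 hy).1]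
  rw [this, Function.update_self]
  ring

theorem HVs_sgn_ne (σ : Perm X) : sgn σ ≠ 0 := fun h => by
  have := sgn_mul_self σ
  rw [h, mul_zero] at this
  exact zero_ne_one this

/-- averaging a family: `β ↦ ∑ g, p (β ∘ g) • ρ g w` is equivariant and `HW` when `p` is
(`HW.funRep` for the trivial representation, `HW.map` with `LinearMap.toSpanSingleton`,
`HWs` is a submodule) -/
theorem avg_eqv_hw (ρ : Representation ℂ (Perm X) V) {a : ℕ → ℕ} {p : (X → ℕ) → ℂ} (hp : HW a p)
    (w : V) :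
    Eqv ρ (fun β : X → ℕ => ∑ g : Perm X, p (β ∘ g) • ρ g w) ∧
      HW a (fun β : X → ℕ => ∑ g : Perm X, p (β ∘ g) • ρ g w) := by
  constructor
  · intro h β
    beta_reduce
    rw [map_sum, ← Equiv.sum_comp (Equiv.mulLeft h) (fun g => p (β ∘ g) • ρ g w)]
    refine Finset.sum_congr rfl fun g _ => ?_
    simp only [Equiv.coe_mulLeft, map_smul, map_mul, Module.End.mul_apply, HVs_comp_mul]
  · have h1 : HW a fun β => p β • w := hp.map (LinearMap.toSpanSingleton ℂ V w)
    have h2 : (fun β : X → ℕ => ∑ g : Perm X, p (β ∘ g) • ρ g w) =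
        ∑ g : Perm X, funRep ℕ ρ g (fun β => p β • w) := by
      funext β
      simp [Finset.sum_apply, funRep_apply]
    rw [h2, ← mem_HWs]
    exact Submodule.sum_mem _ fun g _ => h1.funRep ρ g

/-- With `p = polyt α κ` the value at `α` is `symz α (alt κ w)`:
`∑ g, polyt (α ∘ g) • ρ g w = ∑_{σ ∈ Stab κ} sgn σ • ∑_{g : α ∘ g = α ∘ σ} ρ g w`, `g = r * σ`,
`r ∈ Stab α`. -/
theorem HV.of_symz_alt {ρ : Representation ℂ (Perm X) V} {a : ℕ → ℕ} {α κ : X → ℕ}
    (h : Tab a α κ) (ha : Antitone a) {w : V} (hw : symz ρ α (alt ρ κ w) ≠ 0) : HV ρ a := by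
  obtain ⟨h1, h2⟩ := avg_eqv_hw ρ (h.polyt_hw ha) w
  refine ⟨_, fun h0 => hw ?_, h1, h2⟩
  have h3 := congrFun h0 α
  simp only [Pi.zero_apply] at h3
  rw [← h3]
  simp only [symz, alt, polyt, LinearMap.sum_apply, LinearMap.smul_apply, map_sum, map_smul,
    Finset.sum_smul]
  rw [Finset.sum_comm]
  refine Finset.sum_congr rfl fun σ _ => ?_
  rw [← Equiv.sum_comp (Equiv.mulRight σ), Stab, Finset.sum_filter, Finset.smul_sum]
  refine Finset.sum_congr rfl fun r _ => ?_
  have h4 : (α ∘ ((Equiv.mulRight σ) r) = α ∘ σ) ↔ ∀ x, α (r x) = α x := by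
    constructor
    · intro h5 x
      have := congrFun h5 (σ.symm x)
      simpa using this
    · intro h5
      funext x
      simp [h5]
  by_cases h5 : ∀ x, α (r x) = α x
  · rw [if_pos h5, if_pos (h4.2 h5)]
    simp
  · rw [if_neg h5, if_neg (fun h6 => h5 (h4.1 h6)), zero_smul, smul_zero]

theorem HV.isPar {ρ : Representation ℂ (Perm X) V} {a : ℕ → ℕ} (h : HV ρ a) :
    IsPar a (Fintype.card X) := by
  obtain ⟨f, hne, -, hf⟩ := h
  exact hf.isPar hne

/-- `HV.of_symz_alt` for `tw ρ`, the tableau `(κ, α)` and `w = f α`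
(`symz_tw`, `alt_tw`, `symz_eqv`, `HW.alt_ne`) -/
theorem HV.tw {ρ : Representation ℂ (Perm X) V} {a a' : ℕ → ℕ} (h : HV ρ a) (hc : IsConj a a') :
    HV (tw ρ) a' := by
  obtain ⟨α, κ, hT⟩ := h.isPar.exists_tab
  obtain ⟨f, hne, he, hf⟩ := h
  refine HV.of_symz_alt (hT.swap hc) hc.symm.anti (w := f α) ?_
  rw [symz_tw, alt_tw, symz_eqv he, map_smul]
  refine smul_ne_zero ?_ (hf.alt_ne he hne hT)
  exact Nat.cast_ne_zero.2 (Finset.card_ne_zero.2 ⟨1, one_mem_Stab α⟩)

/-- `HV (tw ρ) a'` by `HV.of_symz_alt`, then `HV.tw` and `tw_tw` -/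
theorem HV.of_alt_symz {ρ : Representation ℂ (Perm X) V} {a : ℕ → ℕ} {α κ : X → ℕ}
    (h : Tab a α κ) (ha : Antitone a) {w : V} (hw : alt ρ κ (symz ρ α w) ≠ 0) : HV ρ a := by
  obtain ⟨a', hc⟩ := (h.cont.isPar ha).exists_conj
  have h1 : HV (R195.tw ρ) a' := by
    refine HV.of_symz_alt (h.swap hc) hc.symm.anti (w := w) ?_
    rwa [symz_tw, alt_tw]
  have h2 := h1.tw hc.symm
  rwa [tw_tw] at h2

/-- **Existence of a type.**  Let `P m := ∃ a f, f ≠ 0 ∧ Eqv ρ f ∧ ∀ α, f α ≠ 0 → Cont a α ∧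
∑ x, α x = m`.  `P` is satisfiable: `f β = ∑ g, if β ∘ g = α0 then ρ g v else 0` with `α0`
injective.  Take `m` minimal (`Nat.find`).  For `i < j` the function `opE i j f` is equivariant
(`opP_funRep`; `Eqv ρ f ↔ ∀ g, funRep ℕ ρ g f = f`), has content
`a' l = if l = i then a i + 1 else if l = j then a j - 1 else a l` and sum `m - (j - i) < m`,
so it vanishes. -/
theorem exists_HV (ρ : Representation ℂ (Perm X) V) [Nontrivial V] : ∃ a, HV ρ a := by
  classical
  have hP : ∃ m : ℕ, ∃ (a : ℕ → ℕ) (f : (X → ℕ) → V), f ≠ 0 ∧ Eqv ρ f ∧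
      ∀ α, f α ≠ 0 → Cont a α ∧ ∑ x, α x = m := by
    obtain ⟨v, hv⟩ := exists_ne (0 : V)
    let α0 : X → ℕ := fun x => (Fintype.equivFin X x : ℕ)
    have hα0 : Function.Injective α0 := fun x y hxy =>
      (Fintype.equivFin X).injective (Fin.ext hxy)
    refine ⟨∑ x, α0 x, fun i => #{x | α0 x = i},
      fun β => ∑ g : Perm X, if β ∘ g = α0 then ρ g v else 0, ?_, ?_, ?_⟩
    · intro h0
      have h1 := congrFun h0 α0
      simp only [Pi.zero_apply] at h1
      rw [Finset.sum_eq_single (1 : Perm X)] at h1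
      · simp [hv] at h1
      · intro g _ hg
        refine if_neg fun h2 => hg ?_
        ext x
        exact hα0 (congrFun h2 x)
      · simp
    · intro h β
      beta_reduce
      rw [map_sum, ← Equiv.sum_comp (Equiv.mulLeft h)
        (fun g => if β ∘ g = α0 then ρ g v else 0)]
      refine Finset.sum_congr rfl fun g _ => ?_
      simp only [Equiv.coe_mulLeft, map_mul, Module.End.mul_apply, HVs_comp_mul]
      split_ifs <;> simp
    · intro β hβ
      obtain ⟨g, -, hg⟩ := Finset.exists_ne_zero_of_sum_ne_zero hβ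
      have h1 : β ∘ g = α0 := by
        by_contra h2
        exact hg (if_neg h2)
      have h2 : β = α0 ∘ g.symm := by
        rw [← h1]; funext x; simp
      have h3 : Cont (fun i => #{x | α0 x = i}) α0 := fun i => rfl
      rw [h2]
      exact ⟨h3.comp g.symm, Equiv.sum_comp g.symm α0⟩
  obtain ⟨a, f, hne, he, hs⟩ := Nat.find_spec hP
  refine ⟨a, f, hne, he, fun α hα => (hs α hα).1, fun i j hij => ?_⟩
  by_contra hE
  have key : ∀ β, opE i j f β ≠ 0 →
      Cont (fun l => if l = i then a i + 1 else if l = j then a j - 1 else a l) β ∧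
        ∑ x, β x + (j - i) = Nat.find hP := by
    intro β hβ
    rw [opE_apply] at hβ
    obtain ⟨x, -, hx⟩ := Finset.exists_ne_zero_of_sum_ne_zero hβ
    have hx1 : β x = i := by
      by_contra h2
      exact hx (if_neg h2)
    rw [if_pos hx1] at hx
    obtain ⟨h1, h2⟩ := hs _ hx
    constructor
    · intro l
      have h3 := HVs_sum_update (fun t => if t = l then 1 else 0) β x j
      have h4 := h1 l
      rw [Finset.card_filter] at h4 ⊢
      rw [h4, hx1] at h3
      have hne' : i ≠ j := hij.ne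
      by_cases hl : l = i
      · subst hl
        simp only [if_true, if_neg hne'.symm] at h3 ⊢
        omega
      · by_cases hl' : l = j
        · subst hl'
          simp only [if_true, if_neg hl, if_neg hne'] at h3 ⊢
          omega
        · simp only [if_neg hl, if_neg hl', if_neg (Ne.symm hl), if_neg (Ne.symm hl')] at h3 ⊢
          omega
    · have h3 := HVs_sum_update id β x j
      simp only [id] at h3
      omega
  obtain ⟨β0, hβ0⟩ := Function.ne_iff.1 hE
  have h1 := (key β0 hβ0).2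
  have h2 : Nat.find hP - (j - i) < Nat.find hP := by omega
  refine Nat.find_min hP h2 ⟨_, opE i j f, hE, ?_, fun β hβ => ⟨(key β hβ).1, ?_⟩⟩
  · intro g w
    have h3 : funRep ℕ ρ g f = f := funext fun w => he g w
    have h4 := opP_funRep ρ g (fun l => decide (l = i)) (fun _ => j) f
    rw [h3] at h4
    exact (congrFun h4 w).symm
  · have := (key β hβ).2
    omega

/-- James' submodule argument: an invariant subspace `U ≠ 0` of `HWs X ℂ a` is everything.
Take `0 ≠ u ∈ U`; `HW.exists_tab_hat_ne` (with `V = ℂ`, `f = u`) gives a tableau with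
`c = ∑ σ ∈ Stab κ, sgn σ • u (α ∘ σ) ≠ 0`; by `james` (`φ = u`),
`∑ σ ∈ Stab κ, sgn σ • σ·u = c • polyt α κ` (for words not of content `a` both sides vanish), so
`polyt α κ ∈ U`; all polytabloids are translates (`Tab.exists_perm`, `polyt_comp`); `straighten`. -/
theorem hw_inv_eq {a : ℕ → ℕ} (U : Submodule ℂ ((X → ℕ) → ℂ)) (hU : U ≤ HWs X ℂ a)
    (hinv : ∀ (g : Perm X), ∀ u ∈ U, (fun β => u (β ∘ g)) ∈ U) (hne : U ≠ ⊥) : U = HWs X ℂ a := by
  obtain ⟨u, huU, hu0⟩ := (Submodule.ne_bot_iff U).1 hne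
  have hu : HW a u := hU huU
  have ha : Antitone a := hu.anti hu0
  obtain ⟨α, κ, hT, hc⟩ := hu.exists_tab_hat_ne hu0
  have hc1 : hat a u (polyt α κ) = ∑ σ ∈ Stab κ, sgn σ • u (α ∘ σ) := by
    simp only [hat_apply, polyt, Finset.sum_smul]
    rw [Finset.sum_comm]
    refine Finset.sum_congr rfl fun σ _ => ?_
    rw [Finset.sum_eq_single (α ∘ σ)]
    · rw [if_pos rfl]
    · intro β _ hβ
      rw [if_neg hβ, zero_smul]
    · intro h
      exact absurd (mem_words.2 (hT.cont.comp σ)) h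
  rw [hc1] at hc
  have h1 : (∑ σ ∈ Stab κ, sgn σ • fun β => u (β ∘ σ)) ∈ U :=
    Submodule.sum_mem _ fun σ _ => U.smul_mem _ (hinv σ u huU)
  have h2 : (∑ σ ∈ Stab κ, sgn σ • fun β => u (β ∘ σ)) =
      (∑ σ ∈ Stab κ, sgn σ • u (α ∘ σ)) • polyt α κ := by
    funext β
    simp only [Finset.sum_apply, Pi.smul_apply]
    by_cases hβ : Cont a β
    · rw [james hT ha hβ u, smul_eq_mul, smul_eq_mul, mul_comm]
    · have h3 : polyt α κ β = 0 := by
        by_contra h4
        exact hβ ((hT.polyt_hw ha).cont β h4)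
      rw [h3, smul_zero]
      refine Finset.sum_eq_zero fun σ _ => ?_
      have h4 : u (β ∘ σ) = 0 := by
        by_contra h5
        have := (hu.cont _ h5).comp σ.symm
        exact hβ (by simpa [Function.comp_assoc] using this)
      rw [h4, smul_zero]
  rw [h2] at h1
  have h3 : polyt α κ ∈ U := (U.smul_mem_iff hc).1 h1
  refine le_antisymm hU fun p hp => ?_
  refine (Submodule.span_le.2 ?_) (straighten hp)
  rintro _ ⟨α', κ', hT', rfl⟩
  obtain ⟨g, rfl, rfl⟩ := hT.exists_perm hT'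
  have h4 := hinv g⁻¹ _ h3
  have h5 : (fun β : X → ℕ => polyt α κ (β ∘ (g⁻¹ : Perm X))) = polyt (α ∘ g) (κ ∘ g) := by
    funext β
    rw [← polyt_comp α κ _ g, ← HVs_comp_mul, inv_mul_cancel]
    simp
  rw [h5] at h4
  exact h4

/-- `hat a f` is injective on `HWs X ℂ a` (`hw_inv_eq` for `U = ker ⊓ HWs`, `hat_comp`,
`HW.exists_hat_ne`) -/
theorem hat_inj {ρ : Representation ℂ (Perm X) V} {a : ℕ → ℕ} {f : (X → ℕ) → V}
    (hf : HW a f) (he : Eqv ρ f) (hne : f ≠ 0) {u : (X → ℕ) → ℂ} (hu : HW a u)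
    (h0 : hat a f u = 0) : u = 0 := by
  by_contra hu0
  have h1 := hw_inv_eq (LinearMap.ker (hat a f) ⊓ HWs X ℂ a) inf_le_right ?_ ?_
  · obtain ⟨v, hv, hv0⟩ := hf.exists_hat_ne hne
    have h2 : v ∈ LinearMap.ker (hat a f) ⊓ HWs X ℂ a := by rw [h1]; exact hv
    exact hv0 h2.1
  · intro g v hv
    refine ⟨?_, HVs_hw_comp hv.2 g⟩
    have h2 : hat a f v = 0 := hv.1
    change hat a f _ = 0
    rw [hat_comp he, h2, map_zero]
  · exact (Submodule.ne_bot_iff _).2 ⟨u, ⟨h0, hu⟩, hu0⟩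

/-- `avg_eqv_hw` for `ρ = Sp X a`, `p = polyt α κ`, `w = ⟨polyt α κ, _⟩`: the value at `α`,
evaluated at the word `α`, is `∑ g, polyt (α ∘ g) ^ 2`, a sum of `0`'s and `1`'s containing a `1`.
(Or `HV.of_symz_alt`.) -/
theorem HV_Sp {a : ℕ → ℕ} (ha : IsPar a (Fintype.card X)) : HV (Sp X a) a := by
  obtain ⟨α, κ, hT⟩ := ha.exists_tab
  have hp := hT.polyt_hw ha.anti
  obtain ⟨h1, h2⟩ := avg_eqv_hw (Sp X a) hp ⟨polyt α κ, hp⟩
  refine ⟨_, fun h0 => ?_, h1, h2⟩
  have h3 := congrFun (congrArg Subtype.val (congrFun h0 α)) α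
  simp only [Pi.zero_apply, Submodule.coe_sum, Submodule.coe_smul, Finset.sum_apply,
    Pi.smul_apply, Sp_apply, smul_eq_mul, Submodule.coe_zero] at h3
  have h4 := congrArg Complex.re h3
  rw [Complex.re_sum, Complex.zero_re] at h4
  have h5 : ∀ g ∈ (univ : Finset (Perm X)),
      0 ≤ (polyt α κ (α ∘ g) * polyt α κ (α ∘ g)).re := by
    intro g _
    by_cases h6 : polyt α κ (α ∘ g) = 0
    · simp [h6]
    · obtain ⟨σ, hσ, h7⟩ := polyt_ne_zero h6
      rw [h7, hT.polyt_of_eq hσ, sgn_mul_self]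
      simp
  have h6 := Finset.single_le_sum h5 (Finset.mem_univ (1 : Perm X))
  rw [h4] at h6
  simp [hT.polyt_self] at h6
  exact absurd h6 (by norm_num)

/-- restriction to the finite set `words X a` is injective -/
theorem finiteDimensional_HWs (a : ℕ → ℕ) : FiniteDimensional ℂ (HWs X ℂ a) := by
  let L : HWs X ℂ a →ₗ[ℂ] (words X a → ℂ) :=
    { toFun := fun u β => u.1 β.1
      map_add' := fun _ _ => rfl
      map_smul' := fun _ _ => rfl }
  refine FiniteDimensional.of_injective L ?_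
  rw [injective_iff_map_eq_zero]
  intro u hu
  ext β
  by_contra h
  exact h (congrFun hu ⟨β, mem_words.2 (u.2.cont β h)⟩)

/-- `IsSimpleOrder (Subrepresentation _)`: use `hw_inv_eq` for the image of the subrepresentation
under `(HWs X ℂ a).subtype`; non-triviality from `Tab.polyt_self`, `Tab.polyt_hw`. -/
theorem Sp_irreducible {a : ℕ → ℕ} (ha : IsPar a (Fintype.card X)) :
    Representation.IsIrreducible (Sp X a) := by
  obtain ⟨α, κ, hT⟩ := ha.exists_tab
  have hp := hT.polyt_hw ha.anti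
  have hnt : Nontrivial (Subrepresentation (Sp X a)) := by
    refine ⟨⊥, ⊤, fun h => ?_⟩
    have h1 : (⊥ : Submodule ℂ (HWs X ℂ a)) = ⊤ := congrArg Subrepresentation.toSubmodule h
    have h2 : (⟨polyt α κ, hp⟩ : HWs X ℂ a) ∈ (⊥ : Submodule ℂ (HWs X ℂ a)) := by
      rw [h1]; trivial
    have h3 := congrFun (congrArg Subtype.val ((Submodule.mem_bot ℂ).1 h2)) α
    simp [hT.polyt_self] at h3
  refine ⟨fun W => ?_⟩
  by_cases hW : W.toSubmodule = ⊥
  · exact Or.inl (Subrepresentation.toSubmodule_injective hW)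
  · refine Or.inr (Subrepresentation.toSubmodule_injective ?_)
    have h1 := hw_inv_eq (a := a) (W.toSubmodule.map (HWs X ℂ a).subtype)
      (Submodule.map_subtype_le _ _) ?_ ?_
    · change W.toSubmodule = ⊤
      refine Submodule.map_injective_of_injective (HWs X ℂ a).injective_subtype ?_
      rw [h1, Submodule.map_top, Submodule.range_subtype]
    · rintro g _ ⟨u, hu, rfl⟩
      exact ⟨Sp X a g u, W.apply_mem_toSubmodule g hu, rfl⟩
    · intro h
      apply hW
      refine Submodule.map_injective_of_injective (HWs X ℂ a).injective_subtype ?_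
      rw [h, Submodule.map_bot]

end Crest.Agent.R195
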