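import Crest.Agent.R195.HVs

/-!
# Row 195, task KG: the API of `K`, `G`, `Full` and the bridge to intertwining maps
-/

set_option autoImplicit false

open Finset Equiv

namespace Crest.Agent.R195

variable {X : Type} [Fintype X] [DecidableEq X] {V : Type} [AddCommGroup V] [Module ℂ V]

theorem KG_opE_map {V' : Type} [AddCommGroup V'] [Module ℂ V'] (L : V →ₗ[ℂ] V') (i j : ℕ)
    (f : (X → ℕ) → V) (w : X → ℕ) : L (opE i j f w) = opE i j (fun α => L (f α)) w := by
  simp [opE_apply, map_sum, apply_ite L]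

/-- `HW` can be checked after applying a jointly injective family of linear maps -/
theorem HW.of_jointly {I V' : Type} [AddCommGroup V'] [Module ℂ V'] {a : ℕ → ℕ}
    {f : (X → ℕ) → V} (L : I → V →ₗ[ℂ] V') (hL : ∀ v, (∀ i, L i v = 0) → v = 0)
    (h : ∀ i, HW a fun α => L i (f α)) : HW a f := by
  refine ⟨fun α hα => ?_, fun i j hij => funext fun w => hL _ fun k => ?_⟩
  · by_contra hc
    exact hα (hL _ fun i => by_contra fun hi => hc ((h i).cont α hi))
  · rw [KG_opE_map, (h k).kill i j hij]; rfl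

theorem KG_sum_words_comp {M : Type} [AddCommMonoid M] {a : ℕ → ℕ} (g : Perm X) (φ : (X → ℕ) → M) :
    ∑ α ∈ words X a, φ (α ∘ g) = ∑ α ∈ words X a, φ α := by
  refine Finset.sum_nbij' (fun α => α ∘ g) (fun α => α ∘ g.symm) ?_ ?_ ?_ ?_ fun _ _ => rfl
  · intro α h; exact mem_words.2 ((mem_words.1 h).comp g)
  · intro α h; exact mem_words.2 ((mem_words.1 h).comp g.symm)
  · intro α _; simp [Function.comp_assoc]
  · intro α _; simp [Function.comp_assoc]

theorem K.symm {ρ : Representation ℂ (Perm X) V} {a b : ℕ → ℕ} (h : K ρ a b) : K ρ b a := by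
  obtain ⟨F, hne, hF⟩ := h
  refine ⟨fun α β => F β α, fun h0 => hne ?_, fun g α β => hF.eqv g β α, hF.right, hF.left⟩
  funext α β
  exact congrFun (congrFun h0 β) α

/-- `F α` as an element of `HWs X V b`; `HW` of a function with values in the submodule is checked
pointwise (`HW.map` with evaluation maps; `opE_apply`, `Subtype.ext`, `funext`). -/
theorem K_iff_HV {ρ : Representation ℂ (Perm X) V} {a b : ℕ → ℕ} :
    K ρ a b ↔ HV (hwRep b ρ) a := by
  constructor
  · rintro ⟨F, hne, hF⟩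
    refine ⟨fun α => ⟨F α, hF.right α⟩, fun h0 => hne ?_, fun g α => ?_, ?_⟩
    · funext α
      exact congrArg Subtype.val (congrFun h0 α)
    · exact Subtype.ext (funext fun β => hF.eqv g α β)
    · exact HW.of_jointly (fun β => (LinearMap.proj β).comp (HWs X V b).subtype)
        (fun v hv => Subtype.ext (funext hv)) hF.left
  · rintro ⟨f, hne, he, hf⟩
    refine ⟨fun α => (f α).1, fun h0 => hne ?_, fun g α β => ?_, fun β => ?_, fun α => (f α).2⟩
    · funext α
      exact Subtype.ext (congrFun h0 α)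
    · exact congrFun (congrArg Subtype.val (he g α)) β
    · exact hf.map ((LinearMap.proj β).comp (HWs X V b).subtype)

theorem tw_hwRep (ρ : Representation ℂ (Perm X) V) (b : ℕ → ℕ) :
    tw (hwRep b ρ) = hwRep b (tw ρ) := by
  ext g f w
  rfl

/-- `K_iff_HV`, `HV.tw`, `tw_hwRep`, `K.symm` twice, `tw_tw` -/
theorem K.tw {ρ : Representation ℂ (Perm X) V} {a b a' b' : ℕ → ℕ} (h : K ρ a b)
    (ha : IsConj a a') (hb : IsConj b b') : K ρ a' b' := by
  have key : ∀ {ρ : Representation ℂ (Perm X) V} {a b a' : ℕ → ℕ}, K ρ a b → IsConj a a' →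
      K (Crest.Agent.R195.tw ρ) a' b := fun h hc => by
    have := (K_iff_HV.1 h).tw hc
    rw [tw_hwRep] at this
    exact K_iff_HV.2 this
  have := (key (key h ha).symm hb).symm
  rwa [tw_tw] at this

theorem GX_iff_K {a b c : ℕ → ℕ} : GX X a b c ↔ K (Sp X c) a b := by
  constructor
  · rintro ⟨T, hne, hT⟩
    refine ⟨fun α β => ⟨T α β, hT.h3 α β⟩, fun h0 => hne ?_, fun g α β => ?_, fun β => ?_, fun α => ?_⟩
    · funext α β
      exact congrArg Subtype.val (congrFun (congrFun h0 α) β)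
    · exact Subtype.ext (funext fun γ => hT.inv g α β γ)
    · exact HW.of_jointly (fun γ => (LinearMap.proj γ).comp (HWs X ℂ c).subtype)
        (fun v hv => Subtype.ext (funext hv)) (hT.h1 β)
    · exact HW.of_jointly (fun γ => (LinearMap.proj γ).comp (HWs X ℂ c).subtype)
        (fun v hv => Subtype.ext (funext hv)) (hT.h2 α)
  · rintro ⟨F, hne, hF⟩
    refine ⟨fun α β => (F α β).1, fun h0 => hne ?_, fun g α β γ => ?_, fun β γ => ?_, fun α γ => ?_,
      fun α β => (F α β).2⟩
    · funext α β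
      exact Subtype.ext (congrFun (congrFun h0 α) β)
    · exact congrFun (congrArg Subtype.val (hF.eqv g α β)) γ
    · exact (hF.left β).map ((LinearMap.proj γ).comp (HWs X ℂ c).subtype)
    · exact (hF.right α).map ((LinearMap.proj γ).comp (HWs X ℂ c).subtype)

/-- `HW` is preserved under renaming positions -/
theorem HW.transport {Y : Type} [Fintype Y] [DecidableEq Y] (e : X ≃ Y) {a : ℕ → ℕ}
    {f : (X → ℕ) → V} (hf : HW a f) : HW a fun w : Y → ℕ => f (w ∘ e) := by
  refine ⟨fun α h => ?_, fun i j hij => ?_⟩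
  · have := (hf.cont _ h).comp e.symm
    simpa [Function.comp_assoc] using this
  · funext w
    have := congrFun (hf.kill i j hij) (w ∘ e)
    rw [opE_apply] at this ⊢
    rw [← Equiv.sum_comp e]
    refine Eq.trans (Finset.sum_congr rfl fun x _ => ?_) this
    simp [Function.update_comp_equiv]

/-- `T' α β γ = T (α ∘ e) (β ∘ e) (γ ∘ e)`; invariance via `e.symm.permCongr g` -/
theorem GX.transport {Y : Type} [Fintype Y] [DecidableEq Y] (e : X ≃ Y) {a b c : ℕ → ℕ}
    (h : GX X a b c) : GX Y a b c := by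
  obtain ⟨T, hne, hT⟩ := h
  refine ⟨fun α β γ => T (α ∘ e) (β ∘ e) (γ ∘ e), fun h0 => hne ?_, fun g α β γ => ?_,
    fun β γ => (hT.h1 _ _).transport e, fun α γ => (hT.h2 _ _).transport e,
    fun α β => (hT.h3 _ _).transport e⟩
  · funext α β γ
    have := congrFun (congrFun (congrFun h0 (α ∘ e.symm)) (β ∘ e.symm)) (γ ∘ e.symm)
    simpa [Function.comp_assoc] using this
  · have h1 : ∀ w : Y → ℕ, (w ∘ g) ∘ e = (w ∘ e) ∘ ((e.trans g).trans e.symm : Perm X) := by
      intro w; funext x; simp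
    rw [h1, h1, h1, hT.inv]

theorem GX.toG {a b c : ℕ → ℕ} (h : GX X a b c) : G a b c :=
  ⟨Fintype.card X, h.transport (Fintype.equivFin X)⟩

theorem GX.isPar {a b c : ℕ → ℕ} (h : GX X a b c) :
    IsPar a (Fintype.card X) ∧ IsPar b (Fintype.card X) ∧ IsPar c (Fintype.card X) := by
  obtain ⟨T, hne, hT⟩ := h
  obtain ⟨α, hα⟩ := Function.ne_iff.1 hne
  obtain ⟨β, hβ⟩ := Function.ne_iff.1 hα
  obtain ⟨γ, hγ⟩ := Function.ne_iff.1 hβ
  exact ⟨(hT.h1 β γ).isPar fun h => hγ (congrFun h α), (hT.h2 α γ).isPar fun h => hγ (congrFun h β),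
    (hT.h3 α β).isPar hβ⟩

theorem G.isPar {a b c : ℕ → ℕ} (h : G a b c) : ∃ n, IsPar a n ∧ IsPar b n ∧ IsPar c n := by
  obtain ⟨n, h⟩ := h
  exact ⟨_, h.isPar⟩

theorem G.toGX {a b c : ℕ → ℕ} (h : G a b c) (hc : IsPar c (Fintype.card X)) : GX X a b c := by
  obtain ⟨n, h⟩ := h
  exact h.transport (Fintype.equivOfCardEq (h.isPar.2.2.unique hc))

theorem G.swap12 {a b c : ℕ → ℕ} (h : G a b c) : G b a c := by
  obtain ⟨n, T, hne, hT⟩ := h
  refine ⟨n, fun α β γ => T β α γ, fun h0 => hne ?_, fun g α β γ => hT.inv g β α γ,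
    fun β γ => hT.h2 β γ, fun α γ => hT.h1 α γ, fun α β => hT.h3 β α⟩
  funext α β
  exact congrFun (congrFun h0 β) α

theorem G.swap23 {a b c : ℕ → ℕ} (h : G a b c) : G a c b := by
  obtain ⟨n, T, hne, hT⟩ := h
  refine ⟨n, fun α β γ => T α γ β, fun h0 => hne ?_, fun g α β γ => hT.inv g α γ β,
    fun β γ => hT.h1 γ β, fun α γ => hT.h3 α γ, fun α β => hT.h2 α β⟩
  funext α β γ
  exact congrFun (congrFun (congrFun h0 α) γ) β

theorem G.ofK {a b c : ℕ → ℕ} (h : K (Sp X c) a b) : G a b c := (GX_iff_K.2 h).toG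

theorem G.tw {a b c a' b' : ℕ → ℕ} (h : G a b c) (ha : IsConj a a') (hb : IsConj b b') :
    G a' b' c := by
  obtain ⟨n, h⟩ := h
  exact G.ofK ((GX_iff_K.1 h).tw ha hb)

/-- `F α β = hat c f (T α β)`; non-zero by `hat_inj`, equivariant by `hat_comp`, `HW` by
`HW.map`-like arguments (the function `α ↦ T α β` with values in `(X → ℕ) → ℂ` is `HW a`). -/
theorem G.toK {ρ : Representation ℂ (Perm X) V} {a b c : ℕ → ℕ} (h : G a b c) (hc : HV ρ c) :
    K ρ a b := by
  obtain ⟨T, hne, hT⟩ := h.toGX hc.isPar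
  obtain ⟨f, hf0, he, hf⟩ := hc
  refine ⟨fun α β => hat c f (T α β), fun h0 => hne ?_, fun g α β => ?_, fun β => ?_, fun α => ?_⟩
  · funext α β
    exact hat_inj hf he hf0 (hT.h3 α β) (congrFun (congrFun h0 α) β)
  · rw [← hat_comp he]
    exact congrArg _ (funext fun γ => hT.inv g α β γ)
  · exact (HW.of_jointly (f := fun α => T α β) (fun γ => LinearMap.proj γ)
      (fun v hv => funext hv) (hT.h1 β)).map (hat c f)
  · exact (HW.of_jointly (f := fun β => T α β) (fun γ => LinearMap.proj γ)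
      (fun v hv => funext hv) (hT.h2 α)).map (hat c f)

theorem Full.toK {ρ : Representation ℂ (Perm X) V} [Nontrivial V] {a : ℕ → ℕ}
    (h : Full a (Fintype.card X)) : K ρ a a := by
  obtain ⟨c, hc⟩ := exists_HV ρ
  exact (h c hc.isPar).toK hc

/-- `X = Fin 0`, `T = 1` -/
theorem G_zero : G (fun _ => 0) (fun _ => 0) (fun _ => 0) := by
  have h : HW (fun _ => 0) (fun _ : Fin 0 → ℕ => (1 : ℂ)) :=
    ⟨fun α _ i => by simp, fun i j _ => by funext w; simp [opE_apply]⟩
  refine ⟨0, fun _ _ _ => 1, fun h0 => ?_, fun _ _ _ _ => rfl, fun _ _ => h, fun _ _ => h,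
    fun _ _ => h⟩
  exact one_ne_zero (congrFun (congrFun (congrFun h0 0) 0) 0)

theorem full_zero : Full (fun _ => 0) 0 := by
  intro c hc
  have : c = fun _ => 0 := funext fun i => hc.eq_zero (Nat.zero_le i)
  rw [this]; exact G_zero

/-- **Bridge.**  With `h` from `HV τ a` and `F` from `K σ.dual a a` put
`Φ w = ∑ α ∈ words, ∑ β ∈ words, F α β w • (h α ⊗ₜ h β)`.  Intertwining:
`F α β (σ g w) = F (α ∘ g) (β ∘ g) w` (from `IsK.eqv`, `Representation.dual_apply`) and
`τ g (h (α ∘ g)) = h α`, reindex both sums.  Non-zero: choose `α0 β0 w` with `F α0 β0 w ≠ 0`;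
`u α = fun β => F α β w` is `HW a`, so `hat a h (u α0) ≠ 0` (`hat_inj`); take a functional `l` with
`l (hat a h (u α0)) ≠ 0`; applying `id ⊗ l` to `Φ w` gives `hat a h (fun α => l (hat a h (u α)))`,
which is non-zero by `hat_inj` again.
(`LinearMap.intertwiningMap_of_isIntertwiningMap`, `nontrivial_of_ne _ 0`.) -/
theorem bridge {W : Type} [AddCommGroup W] [Module ℂ W] (τ : Representation ℂ (Perm X) V)
    (σ : Representation ℂ (Perm X) W) {a : ℕ → ℕ} (hτ : HV τ a) (hK : K σ.dual a a) :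
    Nontrivial (Representation.IntertwiningMap σ (Representation.tprod τ τ)) := by
  obtain ⟨h, hne, he, hh⟩ := hτ
  obtain ⟨F, hF0, hF⟩ := hK
  let Φ : W →ₗ[ℂ] TensorProduct ℂ V V :=
    ∑ α ∈ words X a, ∑ β ∈ words X a, (F α β).smulRight (h α ⊗ₜ[ℂ] h β)
  have hΦ : ∀ w, Φ w = ∑ α ∈ words X a, ∑ β ∈ words X a, F α β w • (h α ⊗ₜ[ℂ] h β) := by
    intro w; simp [Φ]
  have hint : ∀ (g : Perm X) (w : W), Φ (σ g w) = Representation.tprod τ τ g (Φ w) := by
    intro g w
    rw [hΦ, hΦ, ← KG_sum_words_comp g (fun α => ∑ β ∈ words X a, F α β w • (h α ⊗ₜ[ℂ] h β)), map_sum]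
    refine Finset.sum_congr rfl fun α _ => ?_
    rw [← KG_sum_words_comp g (fun β => F (α ∘ g) β w • (h (α ∘ g) ⊗ₜ[ℂ] h β)), map_sum]
    refine Finset.sum_congr rfl fun β _ => ?_
    rw [map_smul, Representation.tprod_apply, TensorProduct.map_tmul, he g α, he g β, ← hF.eqv g α β,
      Representation.dual_apply, Module.Dual.transpose_apply, LinearMap.comp_apply,
      ← Module.End.mul_apply, ← map_mul, inv_mul_cancel, map_one, Module.End.one_apply]
  refine nontrivial_of_ne (Φ.intertwiningMap_of_isIntertwiningMap σ _ hint) 0 fun h0 => hF0 ?_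
  funext α0 β0
  ext w
  have hw : Φ w = 0 := congrFun (congrArg DFunLike.coe h0) w
  let u : (X → ℕ) → (X → ℕ) → ℂ := fun α β => F α β w
  have hu : HW a u := HW.of_jointly (fun β => LinearMap.proj β) (fun v hv => funext hv)
    fun β => (hF.left β).map (LinearMap.applyₗ w)
  have hu0 : u α0 = 0 := by
    refine hat_inj hh he hne ((hF.right α0).map (LinearMap.applyₗ w)) ?_
    refine (Module.forall_dual_apply_eq_zero_iff ℂ _).1 fun l => ?_
    have h1 : hat a h (fun α => (l.comp (hat a h)) (u α)) = 0 := by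
      have h2 := congrArg (fun t => TensorProduct.rid ℂ V (LinearMap.lTensor V l t)) hw
      simp only [map_zero, hΦ, map_sum, map_smul, LinearMap.lTensor_tmul,
        TensorProduct.rid_tmul] at h2
      rw [← h2, hat_apply]
      refine Finset.sum_congr rfl fun α _ => ?_
      simp only [LinearMap.comp_apply, hat_apply, map_sum, map_smul, Finset.sum_smul, smul_assoc, u]
    exact congrFun (hat_inj hh he hne (hu.map (l.comp (hat a h))) h1) α0
  exact congrFun hu0 β0

/-- an irreducible `σ` has `Nontrivial W`, hence `Nontrivial (Module.Dual ℂ W)`; `Full.toK` -/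
theorem Full.final {W : Type} [AddCommGroup W] [Module ℂ W] (τ : Representation ℂ (Perm X) V)
    (σ : Representation ℂ (Perm X) W) (hσ : Representation.IsIrreducible σ) {a : ℕ → ℕ}
    (hτ : HV τ a) (hF : Full a (Fintype.card X)) :
    Nontrivial (Representation.IntertwiningMap σ (Representation.tprod τ τ)) := by
  have h1 := (Representation.irreducible_iff_isSimpleModule_asModule σ).1 hσ
  have h2 : Nontrivial W := IsSimpleModule.nontrivial (MonoidAlgebra ℂ (Perm X)) σ.asModule
  have h3 : Nontrivial (Module.Dual ℂ W) := (Module.nontrivial_dual_iff ℂ).2 h2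
  exact bridge τ σ hτ hF.toK

end Crest.Agent.R195
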