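import Crest.Agent.R195.Par

/-!
# Row 195, task Lattice: Garnir relation, lattice property of minimal words, multiplicity bound
-/

set_option autoImplicit false
set_option linter.unusedSectionVars false

open Finset Equiv

namespace Crest.Agent.R195

variable {X : Type} [Fintype X] [DecidableEq X] {V : Type} [AddCommGroup V] [Module ℂ V]

/-- partial raising operator -/
def eQ (i j : ℕ) (Q : Finset X) (g : (X → ℕ) → V) (w : X → ℕ) : V :=
  ∑ x ∈ Q, if w x = i then g (Function.update w x j) else 0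

theorem eQ_comm (i j : ℕ) (P : Finset X) (g : (X → ℕ) → V) (w : X → ℕ) :
    eQ i j P (eQ i j Pᶜ g) w = eQ i j Pᶜ (eQ i j P g) w := by
  unfold eQ
  have h1 : ∀ x ∈ P, (if w x = i then ∑ y ∈ Pᶜ, (if Function.update w x j y = i then
      g (Function.update (Function.update w x j) y j) else 0) else 0)
      = ∑ y ∈ Pᶜ, if w x = i ∧ w y = i then g (Function.update (Function.update w x j) y j)
        else 0 := by
    intro x hx
    by_cases h : w x = i
    · rw [if_pos h]
      refine Finset.sum_congr rfl fun y hy => ?_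
      have hxy : y ≠ x := fun e => (Finset.mem_compl.1 hy) (e ▸ hx)
      simp [Function.update_of_ne hxy, h]
    · simp [h]
  have h2 : ∀ y ∈ Pᶜ, (if w y = i then ∑ x ∈ P, (if Function.update w y j x = i then
      g (Function.update (Function.update w y j) x j) else 0) else 0)
      = ∑ x ∈ P, if w x = i ∧ w y = i then g (Function.update (Function.update w x j) y j)
        else 0 := by
    intro y hy
    by_cases h : w y = i
    · rw [if_pos h]
      refine Finset.sum_congr rfl fun x hx => ?_
      have hxy : x ≠ y := fun e => (Finset.mem_compl.1 hy) (e ▸ hx)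
      simp [Function.update_of_ne hxy, h, Function.update_comm hxy]
    · simp [h]
  rw [Finset.sum_congr rfl h1, Finset.sum_congr rfl h2, Finset.sum_comm]

theorem sum_powersetCard_succ (P : Finset X) (y : ℕ) (G : Finset X → V) :
    ∑ Y ∈ powersetCard y P, ∑ x ∈ P \ Y, G (insert x Y)
      = (y + 1) • ∑ Y ∈ powersetCard (y + 1) P, G Y := by
  have h1 : (y + 1) • ∑ Y ∈ powersetCard (y + 1) P, G Y
      = ∑ Y ∈ powersetCard (y + 1) P, ∑ _x ∈ Y, G Y := by
    rw [Finset.smul_sum]
    refine Finset.sum_congr rfl fun Y hY => ?_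
    rw [Finset.sum_const, (Finset.mem_powersetCard.1 hY).2]
  rw [h1, Finset.sum_sigma', Finset.sum_sigma']
  refine Finset.sum_bij' (fun p _ => ⟨insert p.2 p.1, p.2⟩) (fun p _ => ⟨p.1.erase p.2, p.2⟩)
    ?_ ?_ ?_ ?_ ?_
  · rintro ⟨Y, x⟩ h
    simp only [Finset.mem_sigma, Finset.mem_powersetCard, Finset.mem_sdiff] at h ⊢
    refine ⟨⟨Finset.insert_subset h.2.1 h.1.1, ?_⟩, Finset.mem_insert_self _ _⟩
    rw [Finset.card_insert_of_notMem h.2.2, h.1.2]
  · rintro ⟨Y, x⟩ h
    simp only [Finset.mem_sigma, Finset.mem_powersetCard, Finset.mem_sdiff] at h ⊢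
    refine ⟨⟨(Finset.erase_subset _ _).trans h.1.1, ?_⟩, h.1.1 h.2, Finset.notMem_erase _ _⟩
    rw [Finset.card_erase_of_mem h.2, h.1.2]; rfl
  · rintro ⟨Y, x⟩ h
    simp only [Finset.mem_sigma, Finset.mem_powersetCard, Finset.mem_sdiff] at h
    simp [Finset.erase_insert h.2.2]
  · rintro ⟨Y, x⟩ h
    simp only [Finset.mem_sigma, Finset.mem_powersetCard] at h
    simp [Finset.insert_erase h.2]
  · rintro ⟨Y, x⟩ _
    rfl

theorem garnir_aux {i j : ℕ} (hij : i ≠ j) (P : Finset X) (y : ℕ) :
    ∀ g : (X → ℕ) → V, (∀ w, eQ i j P g w + eQ i j Pᶜ g w = 0) →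
      (∀ w, (∀ x ∈ P, w x = i) → g w = 0) → ∀ w : X → ℕ, (∀ x ∈ P, w x = i) →
      ∑ Y ∈ powersetCard y P, g (fun x => if x ∈ Y then j else w x) = 0 := by
  induction y with
  | zero =>
    intro g _ h2 w hw
    simp [h2 w hw]
  | succ y ih =>
    intro g h1 h2 w hw
    have k1 : ∀ w, eQ i j P (eQ i j Pᶜ g) w + eQ i j Pᶜ (eQ i j Pᶜ g) w = 0 := by
      intro w
      rw [eQ_comm]
      conv_lhs => unfold eQ
      rw [← Finset.sum_add_distrib]
      refine Finset.sum_eq_zero fun x _ => ?_
      split_ifs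
      · exact h1 _
      · simp
    have k2 : ∀ w, (∀ x ∈ P, w x = i) → eQ i j Pᶜ g w = 0 := by
      intro w hw
      refine Finset.sum_eq_zero fun x hx => ?_
      split_ifs
      · refine h2 _ fun z hz => ?_
        have hzx : z ≠ x := fun e => (Finset.mem_compl.1 hx) (e ▸ hz)
        rw [Function.update_of_ne hzx, hw z hz]
      · rfl
    have k3 := ih _ k1 k2 w hw
    have k4 : ∑ Y ∈ powersetCard y P, eQ i j P g (fun x => if x ∈ Y then j else w x) = 0 := by
      have : ∀ Y ∈ powersetCard y P, eQ i j P g (fun x => if x ∈ Y then j else w x)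
          = - eQ i j Pᶜ g (fun x => if x ∈ Y then j else w x) :=
        fun Y _ => eq_neg_of_add_eq_zero_left (h1 _)
      rw [Finset.sum_congr rfl this, Finset.sum_neg_distrib, k3, neg_zero]
    have k5 : ∀ Y ∈ powersetCard y P, eQ i j P g (fun x => if x ∈ Y then j else w x)
        = ∑ x ∈ P \ Y, g (fun z => if z ∈ insert x Y then j else w z) := by
      intro Y _
      unfold eQ
      rw [Finset.sdiff_eq_filter, Finset.sum_filter]
      refine Finset.sum_congr rfl fun x hx => ?_
      by_cases hxY : x ∈ Y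
      · simp [hxY, hij.symm]
      · rw [if_pos (by simp [hxY, hw x hx]), if_pos hxY]
        congr 1
        funext z
        by_cases hz : z = x
        · subst hz; simp
        · simp [Function.update_of_ne hz, hz]
    rw [Finset.sum_congr rfl k5,
      sum_powersetCard_succ P y fun Y => g (fun z => if z ∈ Y then j else w z)] at k4
    rw [← Nat.cast_smul_eq_nsmul ℂ] at k4
    exact (smul_eq_zero.1 k4).resolve_left (Nat.cast_ne_zero.2 (Nat.succ_ne_zero y))

/-- **Garnir relation.**  Let `P` be a set of positions on which `α` takes values in `{i, j}`,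
`i < j`, `#P > a i`.  Then the sum of `f` over all reassignments of these letters inside `P`
(same number `y` of `j`'s) vanishes.

Plan.  For `Q : Finset X` let `e_Q f w = ∑ x ∈ Q, if w x = i then f (update w x j) else 0`
(a linear operator).  `opE i j = e_P + e_{Pᶜ}` and the two commute (`Function.update_comm`), so
`opE i j f = 0` gives `e_P ^ y f = (-1)^y • e_{Pᶜ} ^ y f` (induction on `y`).  Induction on `y`:
`(e_Q ^ y f) w = y! • ∑ Y ∈ powersetCard y {x ∈ Q | w x = i}, f (fun x => if x ∈ Y then j else w x)`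
(uses `i ≠ j`; double counting of pairs `(x, Y)`, `x ∈ Y`).  Evaluate at
`α' x = if x ∈ P then i else α x`.  On the right-hand side every word has at least `#P > a i`
letters `i`, so `f` vanishes there by `hf.cont`. -/
theorem garnir {a : ℕ → ℕ} {f : (X → ℕ) → V} (hf : HW a f) {i j : ℕ} (hij : i < j)
    (α : X → ℕ) (P : Finset X) (hcard : a i < #P) (y : ℕ) :
    ∑ Y ∈ powersetCard y P, f (fun x => if x ∈ P then (if x ∈ Y then j else i) else α x) = 0 := by
  have h := garnir_aux hij.ne P y f ?_ ?_ (fun x => if x ∈ P then i else α x)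
    (fun x hx => if_pos hx)
  · rw [← h]
    refine Finset.sum_congr rfl fun Y hY => ?_
    congr 1
    funext x
    by_cases hx : x ∈ P
    · simp [hx]
    · have : x ∉ Y := fun h => hx ((Finset.mem_powersetCard.1 hY).1 h)
      simp [hx, this]
  · intro w
    have := congrFun (hf.kill i j hij) w
    rw [opE_apply] at this
    unfold eQ
    rw [Finset.sum_add_sum_compl]
    exact this
  · intro w hw
    by_contra h0
    have h1 := hf.cont w h0 i
    have h2 : #P ≤ #{x | w x = i} :=
      Finset.card_le_card fun x hx => by simpa using hw x hx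
    omega

/-- **Lattice property** of an `ω`-minimal word in the support.

Plan.  Otherwise put `Y0 = {α = j, t ≤ key}`, `P = {α = i, key < t} ∪ Y0`; then
`#P > a i` (`a i = #{α = i}` by `hf.cont`).  In `garnir` with `y = #Y0` the term `Y = Y0` is
`f α ≠ 0`, so some other `Y ≠ Y0` gives a word `α'` with `f α' ≠ 0`.  With
`δ r = ω j r - ω i r` (strictly increasing) the weight of `α'` minus the weight of `α` is
`∑_{Y \ Y0} δ (key x) - ∑_{Y0 \ Y} δ (key x) < 0`, because the two sets have the same positive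
cardinality, keys `< t` on the first (so `δ < δ t`), `≥ t` on the second (so `δ ≥ δ t`). -/
theorem lattice {a : ℕ → ℕ} {f : (X → ℕ) → V} (hf : HW a f) (key : X → ℕ) (ω : ℕ → ℕ → ℤ)
    (hω : ∀ i j r r', i < j → r < r' → ω j r + ω i r' < ω i r + ω j r')
    {α : X → ℕ} (hα : f α ≠ 0)
    (hmin : ∀ α', f α' ≠ 0 → ∑ x, ω (α x) (key x) ≤ ∑ x, ω (α' x) (key x))
    {i j : ℕ} (hij : i < j) (t : ℕ) :
    #{x | α x = j ∧ t ≤ key x} ≤ #{x | α x = i ∧ t ≤ key x} := by
  by_contra hlt
  push Not at hlt
  set Y0 : Finset X := {x | α x = j ∧ t ≤ key x} with hY0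
  set A : Finset X := {x | α x = i ∧ key x < t} with hA
  have hdis : Disjoint A Y0 := by
    rw [Finset.disjoint_left]
    intro x hx hx'
    simp only [hA, hY0, Finset.mem_filter, Finset.mem_univ, true_and] at hx hx'
    omega
  have hai : a i = #A + #{x | α x = i ∧ t ≤ key x} := by
    rw [← hf.cont α hα i, ← Finset.card_union_of_disjoint]
    · congr 1
      ext x
      simp only [hA, Finset.mem_filter, Finset.mem_univ, true_and, Finset.mem_union]
      omega
    · rw [Finset.disjoint_left]
      intro x hx hx'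
      simp only [hA, Finset.mem_filter, Finset.mem_univ, true_and] at hx hx'
      omega
  have hP : a i < #(A ∪ Y0) := by
    rw [Finset.card_union_of_disjoint hdis]; omega
  have hg := garnir hf hij α (A ∪ Y0) hP #Y0
  have hmem : Y0 ∈ powersetCard #Y0 (A ∪ Y0) :=
    Finset.mem_powersetCard.2 ⟨Finset.subset_union_right, rfl⟩
  have hterm : (fun x => if x ∈ A ∪ Y0 then (if x ∈ Y0 then j else i) else α x) = α := by
    funext x
    by_cases h1 : x ∈ Y0
    · have : α x = j := by
        simp only [hY0, Finset.mem_filter, Finset.mem_univ, true_and] at h1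
        exact h1.1
      simp [h1, this]
    · by_cases h2 : x ∈ A
      · have : α x = i := by
          simp only [hA, Finset.mem_filter, Finset.mem_univ, true_and] at h2
          exact h2.1
        simp [h1, h2, this]
      · simp [h1, h2]
  obtain ⟨Y, hY, hne, hfY⟩ : ∃ Y ∈ powersetCard #Y0 (A ∪ Y0), Y ≠ Y0 ∧
      f (fun x => if x ∈ A ∪ Y0 then (if x ∈ Y then j else i) else α x) ≠ 0 := by
    by_contra hcon
    push Not at hcon
    rw [Finset.sum_eq_single_of_mem Y0 hmem fun Y hY hne => hcon Y hY hne, hterm] at hg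
    exact hα hg
  have hle := hmin _ hfY
  obtain ⟨hYs, hYc⟩ := Finset.mem_powersetCard.1 hY
  -- weights
  set δ : ℕ → ℤ := fun r => ω j r - ω i r with hδ
  have hδm : StrictMono δ := by
    intro r r' h
    have := hω i j r r' hij h
    simp only [hδ]; omega
  have hw : ∀ Z : Finset X, Z ⊆ A ∪ Y0 →
      ∑ x, ω (if x ∈ A ∪ Y0 then (if x ∈ Z then j else i) else α x) (key x)
        = ∑ x, ω (if x ∈ A ∪ Y0 then i else α x) (key x) + ∑ x ∈ Z, δ (key x) := by
    intro Z hZ
    rw [← Finset.sum_filter_add_sum_filter_not univ (· ∈ Z),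
      ← Finset.sum_filter_add_sum_filter_not univ (· ∈ Z)
        (fun x => ω (if x ∈ A ∪ Y0 then i else α x) (key x))]
    have e1 : (univ.filter (· ∈ Z)) = Z := by ext x; simp
    rw [e1, add_right_comm, ← Finset.sum_add_distrib]
    congr 1
    · refine Finset.sum_congr rfl fun x hx => ?_
      rw [if_pos (hZ hx), if_pos hx, if_pos (hZ hx)]
      simp only [hδ]; ring
    · refine Finset.sum_congr rfl fun x hx => ?_
      have hx' : x ∉ Z := by simpa using hx
      rw [if_neg hx']
  have e0 := hw Y0 Finset.subset_union_right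
  have e0' : ∑ x, ω (if x ∈ A ∪ Y0 then (if x ∈ Y0 then j else i) else α x) (key x)
      = ∑ x, ω (α x) (key x) :=
    Finset.sum_congr rfl fun x _ => by rw [congrFun hterm x]
  rw [hw Y hYs, ← e0', e0] at hle
  have hle' : ∑ x ∈ Y0, δ (key x) ≤ ∑ x ∈ Y, δ (key x) := by omega
  rw [← Finset.sum_sdiff (Finset.inter_subset_left : Y0 ∩ Y ⊆ Y0),
    ← Finset.sum_sdiff (Finset.inter_subset_right : Y0 ∩ Y ⊆ Y), Finset.sdiff_inter_self_left,
    Finset.sdiff_inter_self_right] at hle'
  have hc : #(Y \ Y0) = #(Y0 \ Y) := Finset.card_sdiff_comm hYc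
  have hpos : (Y \ Y0).Nonempty := by
    rw [Finset.sdiff_nonempty]
    intro hsub
    exact hne (Finset.eq_of_subset_of_card_le hsub hYc.ge)
  have b1 : ∑ x ∈ Y \ Y0, δ (key x) < ∑ _x ∈ Y \ Y0, δ t := by
    refine Finset.sum_lt_sum_of_nonempty hpos fun x hx => hδm ?_
    obtain ⟨h1, h2⟩ := Finset.mem_sdiff.1 hx
    have := (Finset.mem_union.1 (hYs h1)).resolve_right h2
    simp only [hA, Finset.mem_filter, Finset.mem_univ, true_and] at this
    exact this.2
  have b2 : ∑ _x ∈ Y0 \ Y, δ t ≤ ∑ x ∈ Y0 \ Y, δ (key x) := by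
    refine Finset.sum_le_sum fun x hx => hδm.monotone ?_
    have := (Finset.mem_sdiff.1 hx).1
    simp only [hY0, Finset.mem_filter, Finset.mem_univ, true_and] at this
    exact this.2
  rw [Finset.sum_const] at b1 b2
  rw [hc] at b1
  omega

/-- `garnir` with `P = {α = j}`, `y = #P` has a single term. -/
theorem HW.anti {a : ℕ → ℕ} {f : (X → ℕ) → V} (hf : HW a f) (hne : f ≠ 0) : Antitone a := by
  obtain ⟨α, hα⟩ := Function.ne_iff.1 hne
  intro i j hij
  rcases hij.eq_or_lt with rfl | hij
  · exact le_rfl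
  by_contra hlt
  push Not at hlt
  have hc := hf.cont α hα j
  have hg := garnir hf hij α {x | α x = j} (by rw [hc]; exact hlt) #{x | α x = j}
  rw [Finset.powersetCard_self, Finset.sum_singleton] at hg
  apply hα
  rw [Pi.zero_apply, ← hg]
  congr 1
  funext x
  by_cases h : α x = j <;> simp [h]

theorem HW.isPar {a : ℕ → ℕ} {f : (X → ℕ) → V} (hf : HW a f) (hne : f ≠ 0) :
    IsPar a (Fintype.card X) := by
  obtain ⟨α, hα⟩ := Function.ne_iff.1 hne
  exact (hf.cont α hα).isPar (hf.anti hne)

theorem bound_aux {a b : ℕ → ℕ} {k : ℕ} {f : (X → ℕ) → V} (hf : HW a f) {β : X → ℕ}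
    (hβ : Cont b β) (hb0 : ∀ i, k ≤ i → b i = 0) (c : ℤ) {α : X → ℕ} (h0 : f α ≠ 0)
    (hmin : ∀ α', f α' ≠ 0 →
      ∑ e, ((α e : ℤ) + β e - c) ^ 2 ≤ ∑ e, ((α' e : ℤ) + β e - c) ^ 2) (i r : ℕ) :
    #{e | α e = i ∧ β e = r} ≤ tail k b r / (i + 1) := by
  rw [Nat.le_div_iff_mul_le (Nat.succ_pos i)]
  have h1 : ∀ i' ∈ range (i + 1), #{e | α e = i ∧ β e = r} ≤ #{e | α e = i' ∧ r ≤ β e} := by
    intro i' hi'
    have k1 : #{e | α e = i ∧ β e = r} ≤ #{e | α e = i ∧ r ≤ β e} :=
      Finset.card_le_card fun e he => by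
        simp only [Finset.mem_filter, Finset.mem_univ, true_and] at he ⊢
        omega
    rcases (Nat.lt_succ_iff.1 (Finset.mem_range.1 hi')).eq_or_lt with rfl | hlt
    · exact k1
    · refine k1.trans (lattice hf β (fun i r => ((i : ℤ) + r - c) ^ 2) ?_ h0 hmin hlt r)
      intro i j r r' hij hr
      have h1 : (0 : ℤ) < (j : ℤ) - i := by omega
      have h2 : (0 : ℤ) < (r' : ℤ) - r := by omega
      nlinarith [mul_pos h1 h2]
  have h2 := Finset.sum_le_sum h1
  rw [Finset.sum_const, Finset.card_range, smul_eq_mul, mul_comm] at h2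
  refine h2.trans ?_
  have h3 : ∑ i' ∈ range (i + 1), #{e | α e = i' ∧ r ≤ β e} ≤ #{e | r ≤ β e} := by
    rw [← Finset.card_biUnion]
    · refine Finset.card_le_card fun e he => ?_
      simp only [Finset.mem_biUnion, Finset.mem_filter, Finset.mem_univ, true_and] at he ⊢
      obtain ⟨_, _, _, h⟩ := he
      exact h
    · intro p _ q _ hpq
      rw [Function.onFun, Finset.disjoint_left]
      intro e he he'
      simp only [Finset.mem_filter, Finset.mem_univ, true_and] at he he'
      exact hpq (he.1.symm.trans he'.1)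
  refine h3.trans ?_
  unfold tail
  rw [Finset.card_eq_sum_card_fiberwise (f := β) (t := Ico r k)]
  · refine Finset.sum_le_sum fun r' _ => ?_
    rw [← hβ r']
    refine Finset.card_le_card fun e he => ?_
    simp only [Finset.mem_filter, Finset.mem_univ, true_and] at he ⊢
    exact he.2
  · intro e he
    simp only [Finset.coe_filter, Finset.mem_univ, true_and, Set.mem_ofPred_eq] at he
    simp only [Finset.coe_Ico, Set.mem_Ico]
    refine ⟨he, ?_⟩
    by_contra hk
    have := hβ.pos e
    rw [hb0 _ (not_lt.1 hk)] at this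
    exact lt_irrefl _ this

/-- **Multiplicity bound** for a pair of words minimising `∑ (α e + β e - c)²`.

Plan.  `m = #{α = i, β = r} ≤ a i, b r` by contents.  `lattice` for `x · β` with `key = β`,
`ω i r = (i + r - c)²`, `t = r`: for every `i' ≤ i`,
`m ≤ #{α = i, r ≤ β} ≤ #{α = i', r ≤ β}`; summing over `i' ≤ i` (disjoint sets):
`(i+1) m ≤ #{r ≤ β} = tail k b r` (letters of `β` are `< k` by `Cont.pos` and `hb0`).
Symmetrically for `x α ·` with `key = α`.  `Nat.le_div_iff_mul_le`. -/
theorem bound {a b : ℕ → ℕ} {k : ℕ} (x : (X → ℕ) → (X → ℕ) → V)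
    (hl : ∀ β, HW a fun α => x α β) (hr : ∀ α, HW b (x α))
    (ha0 : ∀ i, k ≤ i → a i = 0) (hb0 : ∀ i, k ≤ i → b i = 0) (c : ℤ) {α β : X → ℕ}
    (h0 : x α β ≠ 0)
    (hmin : ∀ α' β', x α' β' ≠ 0 →
      ∑ e, ((α e : ℤ) + β e - c) ^ 2 ≤ ∑ e, ((α' e : ℤ) + β' e - c) ^ 2) (i r : ℕ) :
    #{e | α e = i ∧ β e = r} ≤ dd k a b i r := by
  have hα : Cont a α := (hl β).cont α h0
  have hβ : Cont b β := (hr α).cont β h0
  unfold dd
  refine le_min (le_min ?_ ?_) (le_min ?_ ?_)
  · rw [← hα i]
    refine Finset.card_le_card fun e he => ?_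
    simp only [Finset.mem_filter, Finset.mem_univ, true_and] at he ⊢
    exact he.1
  · rw [← hβ r]
    refine Finset.card_le_card fun e he => ?_
    simp only [Finset.mem_filter, Finset.mem_univ, true_and] at he ⊢
    exact he.2
  · exact bound_aux (hl β) hβ hb0 c h0 (fun α' h => hmin α' β h) i r
  · have := bound_aux (hr α) hα ha0 c h0 (fun β' h => by
      simpa only [add_comm] using hmin α β' h) r i
    simpa only [and_comm] using this

end Crest.Agent.R195
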