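import Crest.Agent.R195.Chain2
import Crest.Agent.R195.Det
import Crest.Agent.R195.Ext
import Crest.Agent.R195.Lattice

/-!
# Row 195: the lifting lemmas
-/

set_option autoImplicit false
set_option synthInstance.maxSize 1024

open Finset Equiv MvPolynomial

namespace Crest.Agent.R195

variable {J S E : Type} [Fintype J] [DecidableEq J] [Fintype S] [DecidableEq S] [Fintype E]
  [DecidableEq E] {V : Type} [AddCommGroup V] [Module ℂ V]

theorem card_mixW {P : Type} [Fintype P] [DecidableEq P] (p : Al (ℕ × ℕ) → Prop) [DecidablePred p]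
    {W : P ⊕ E → Al (ℕ × ℕ)} {G : Perm (P ⊕ E)} {y : P → Fin 4} {α β : E → ℕ}
    (h : W ∘ G = mixW y α β) :
    #{x | p (W x)} = #{q | p (Sum.inr (y q))} + #{e | p (Sum.inl (α e, β e))} := by
  have h1 : #{x | p (W x)} = #{x | p ((W ∘ G) x)} :=
    (Finset.card_equiv G (by simp)).symm
  rw [h1, h]
  simp only [Finset.card_filter, Fintype.sum_sum_type]
  rfl

theorem wt_mixW {P : Type} [Fintype P] [DecidableEq P] (ω : ℕ × ℕ → ℕ)
    {W : P ⊕ E → Al (ℕ × ℕ)} {G : Perm (P ⊕ E)} {y : P → Fin 4} {α β : E → ℕ}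
    (h : W ∘ G = mixW y α β) : wt ω W = ∑ e, ω (α e, β e) := by
  have h1 : wt ω W = wt ω (W ∘ G) := by
    unfold wt
    exact (Equiv.sum_comp G fun x => Sum.elim ω (fun _ => 0) (W x)).symm
  rw [h1, h]
  simp [wt, Fintype.sum_sum_type, mixW]

theorem lift_common (ρ : Representation ℂ (Perm (Pos J S ⊕ E)) V) {a b : ℕ → ℕ} {k : ℕ}
    (la : ∀ i, k ≤ i → a i = 0) (lb : ∀ i, k ≤ i → b i = 0) (h : K (imgRep ρ) a b)
    (ω : ℕ × ℕ → ℕ) (hω : ∀ i r, i < k → (ω (i, r) : ℤ) = ((i : ℤ) + r - (k - 1 : ℤ)) ^ 2)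
    {R : Type} [Fintype R] [DecidableEq R] {ri ci : R → ℕ × Fin 2} (hr : Down ri) (hc : Down ci)
    (hR : Fintype.card R = Fintype.card (Pos J S)) :
    K ρ (fun i => a i + #{x | (ri x).1 = i}) (fun i => b i + #{x | (ci x).1 = i}) ∨
      ∃ (f0 : (Pos J S ⊕ E → Al (ℕ × ℕ)) → V) (α0 β0 : E → ℕ), FinL f0 ∧
        Hom4 f0 (Fintype.card (Pos J S)) ∧ (∀ i r, DegLE f0 (i, r) (dd k a b i r)) ∧
        (∀ e, α0 e < k) ∧ ∑ y : Pos J S → Fin 4, c0 y • f0 (mixW y α0 β0) ≠ 0 ∧
        low ω (detM ri ci).det ∈ Ann f0 := by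
  obtain ⟨x, hne, hx⟩ := h
  obtain ⟨f, he, hA, hB, hsupp, hcon⟩ := exists_ext ρ hx
  have hA' : ∀ i, opA _ V i i f = (a i : ℂ) • f := by
    intro i
    funext W
    rw [opA_self, Pi.smul_apply]
    by_cases hW : f W = 0
    · simp [hW]
    obtain ⟨G, y, α, β, hx0, hG⟩ := hsupp W hW
    rw [card_mixW (fun l => Sum.elim (fun l : ℕ × ℕ => decide (l.1 = i)) (fun _ => false) l = true)
      hG, ← (hx.left β).cont α hx0 i]
    simp
  have hB' : ∀ i, opB _ V i i f = (b i : ℂ) • f := by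
    intro i
    funext W
    rw [opB_self, Pi.smul_apply]
    by_cases hW : f W = 0
    · simp [hW]
    obtain ⟨G, y, α, β, hx0, hG⟩ := hsupp W hW
    rw [card_mixW (fun l => Sum.elim (fun l : ℕ × ℕ => decide (l.2 = i)) (fun _ => false) l = true)
      hG, ← (hx.right α).cont β hx0 i]
    simp
  have h4 : Hom4 f (Fintype.card (Pos J S)) := by
    intro W hW
    obtain ⟨G, y, α, β, hx0, hG⟩ := hsupp W hW
    rw [card_mixW (fun l => l.isRight = true) hG]
    simp
  by_cases hF : (fun α β : Pos J S ⊕ E → ℕ =>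
      ev _ _ V (detM ri ci).det f fun x => Sum.inl (α x, β x)) = 0
  swap
  · exact Or.inl ⟨_, hF, isK_det he hA hB hA' hB' hr hc⟩
  right
  have hN : ev _ _ V (detM ri ci).det f = 0 := by
    funext W
    by_contra hW
    have h0 : Hom4 (ev _ _ V (detM ri ci).det f) 0 :=
      Hom4.ev (m := Fintype.card R) (by rw [zero_add, hR]; exact h4) (detM_isHomogeneous ri ci)
    have h1 := h0 W hW
    rw [Finset.card_eq_zero, Finset.filter_eq_empty_iff] at h1
    have h2 : ∀ x, ∃ l, W x = Sum.inl l := by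
      intro x
      have := h1 (Finset.mem_univ x)
      rcases hWx : W x with l | c
      · exact ⟨l, rfl⟩
      · simp [hWx] at this
    choose l hl using h2
    have h3 := congrFun (congrFun hF fun x => (l x).1) fun x => (l x).2
    apply hW
    have h5 : W = fun x => Sum.inl ((l x).1, (l x).2) := funext fun x => hl x
    rw [h5]
    exact h3
  have hlt : ∀ α β, x α β ≠ 0 → ∀ e, α e < k ∧ β e < k := by
    intro α β h0 e
    constructor
    · by_contra hk
      have := ((hx.left β).cont α h0).pos e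
      rw [la _ (not_lt.1 hk)] at this
      exact lt_irrefl _ this
    · by_contra hk
      have := ((hx.right α).cont β h0).pos e
      rw [lb _ (not_lt.1 hk)] at this
      exact lt_irrefl _ this
  have hcast : ∀ α β, x α β ≠ 0 →
      ((∑ e, ω (α e, β e) : ℕ) : ℤ) = ∑ e, ((α e : ℤ) + β e - (k - 1 : ℤ)) ^ 2 := by
    intro α β h0
    rw [Nat.cast_sum]
    exact Finset.sum_congr rfl fun e _ => hω _ _ (hlt α β h0 e).1
  have hex : ∃ m, ∃ α β, x α β ≠ 0 ∧ ∑ e, ω (α e, β e) = m := by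
    obtain ⟨α, hα⟩ := Function.ne_iff.1 hne
    obtain ⟨β, hβ⟩ := Function.ne_iff.1 hα
    exact ⟨_, α, β, hβ, rfl⟩
  classical
  obtain ⟨α0, β0, h00, hm0⟩ := Nat.find_spec hex
  have hmin : ∀ α β, x α β ≠ 0 → Nat.find hex ≤ ∑ e, ω (α e, β e) :=
    fun α β h0 => Nat.find_min' hex ⟨α, β, h0, rfl⟩
  have hf0 : ∀ W, (if wt ω W = Nat.find hex then f W else 0) ≠ 0 →
      wt ω W = Nat.find hex ∧ f W ≠ 0 := by
    intro W hW
    by_cases h1 : wt ω W = Nat.find hex
    · exact ⟨h1, by simpa [h1] using hW⟩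
    · simp [h1] at hW
  refine ⟨fun W => if wt ω W = Nat.find hex then f W else 0, α0, β0, ?_, ?_, ?_,
    fun e => (hlt _ _ h00 e).1, ?_, ?_⟩
  · refine ⟨range k ×ˢ range k, fun W hW z m hz => ?_⟩
    obtain ⟨G, y, α, β, hx0, hG⟩ := hsupp W (hf0 W hW).2
    have h1 := congrFun hG (G.symm z)
    simp only [Function.comp_apply, Equiv.apply_symm_apply, hz] at h1
    rcases hGz : G.symm z with q | e
    · simp [hGz, mixW] at h1
    · simp only [hGz, mixW, Sum.elim_inr, Sum.inl.injEq] at h1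
      rw [h1]
      simpa using hlt α β hx0 e
  · exact fun W hW => h4 W (hf0 W hW).2
  · intro i r W hW
    obtain ⟨hw, hW⟩ := hf0 W hW
    obtain ⟨G, y, α, β, hx0, hG⟩ := hsupp W hW
    rw [card_mixW (fun l => l = Sum.inl (i, r)) hG]
    have h1 := bound x hx.left hx.right la lb (k - 1 : ℤ) hx0 (fun α' β' h' => by
      rw [← hcast α β hx0, ← hcast α' β' h', ← wt_mixW ω hG, hw]
      exact_mod_cast hmin α' β' h') i r
    simpa using h1
  · have h1 : ∀ y : Pos J S → Fin 4, wt ω (mixW y α0 β0) = Nat.find hex := fun y => by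
      rw [wt_mixW ω (G := 1) (y := y) (α := α0) (β := β0) (by simp), hm0]
    simp only [h1, if_true]
    rw [hcon]
    refine smul_ne_zero (Nat.cast_ne_zero.2 Fintype.card_ne_zero) fun h2 => h00 (Subtype.ext h2)
  · rw [mem_Ann]
    refine ev_low ω _ f _ (fun W hW => ?_) hN
    obtain ⟨G, y, α, β, hx0, hG⟩ := hsupp W hW
    rw [wt_mixW ω hG]
    exact hmin α β hx0

theorem prod_mem_pow_card {A ι : Type} [CommRing A] [Fintype ι] (I : Ideal A) (g : ι → A)
    (h : ∀ i, g i ∈ I) : ∏ i, g i ∈ I ^ Fintype.card ι := by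
  have := Ideal.prod_mem_prod (s := Finset.univ) (I := fun _ => I) (x := g) fun i _ => h i
  rwa [Finset.prod_const, Finset.card_univ] at this

/-- **Lifting lemma, one column.** -/
theorem lift1 (ρ : Representation ℂ (Perm (Pos J S ⊕ E)) V) {a b : ℕ → ℕ} {k : ℕ}
    (hJ : Fintype.card J = 0) (hS : Fintype.card S = k) (hL : Lcond 1 k a b)
    (h : K (imgRep ρ) a b) : K ρ (a + col k) (b + col k) := by
  rcases lift_common ρ hL.la hL.lb h (ω1 k) (fun i r _ => by
      simp only [ω1]; exact Int.toNat_of_nonneg (sq_nonneg _)) (down_r1 k) (down_c1 k)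
      (by simp [hJ, hS]) with h1 | ⟨f0, α0, β0, hfin, -, hdeg, hα, hne, hAnn⟩
  · simp only [card_r1, card_c1] at h1
    exact h1
  exfalso
  rw [low_det1] at hAnn
  have h2 := chainU (range k) (fun i => (i, k - 1 - i)) (fun i _ j _ h => (Prod.ext_iff.1 h).1)
    (fun i => dd k a b i (k - 1 - i)) (by simpa using hL.hall) hfin (fun i _ => hdeg _ _) hAnn
  rw [Finset.card_range] at h2
  haveI : IsEmpty J := Fintype.card_eq_zero_iff.1 hJ
  let z : S → ℕ × ℕ := fun t => (k + Fintype.equivFin S t, 0)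
  have h3 := ev_eval (V := V) (J := J) isEmptyElim z (fun j => isEmptyElim j)
    (fun t t' h => by
      have := (Prod.ext_iff.1 h).1
      exact (Fintype.equivFin S).injective (Fin.ext (by simpa [z] using this)))
    (fun j => isEmptyElim j) (fun e => Sum.inl (α0 e, β0 e)) (fun _ j => isEmptyElim j)
    (fun e t h => by
      have := hα e
      simp only [z, Sum.inl.injEq, Prod.mk.injEq] at h
      omega) f0
  have h4 : (∏ j : J, qq (isEmptyElim j : ℕ × ℕ) (isEmptyElim j)) * ∏ t, uu (z t) ∈ Ann f0 := by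
    refine Ideal.mul_mem_left _ _ (h2 ?_)
    rw [← hS]
    exact prod_mem_pow_card _ _ fun t => Ideal.subset_span ⟨_, rfl⟩
  rw [mem_Ann.1 h4] at h3
  exact smul_ne_zero (pow_ne_zero _ two_ne_zero) hne h3.symm

/-- **Lifting lemma, two columns.** -/
theorem lift2 (ρ : Representation ℂ (Perm (Pos J S ⊕ E)) V) {a b : ℕ → ℕ} {s e : ℕ}
    (hJ : Fintype.card J = s) (hS : Fintype.card S = e) (hL : Lcond 4 s a b)
    (h : K (imgRep ρ) a b) :
    K ρ (a + col (s + e) + col s) (b + col (s + e) + col s) := by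
  rcases lift_common ρ hL.la hL.lb h (ω2 s) (fun i r hi => by
      simp only [ω2, hi, if_true, ω1]; exact Int.toNat_of_nonneg (sq_nonneg _))
      (down_r2 s e) (down_c2 s e) (by simp [hJ, hS, mul_comm]) with
    h1 | ⟨f0, α0, β0, hfin, h4, hdeg, hα, hne, hAnn⟩
  · simp only [card_r2, card_c2, ← add_assoc] at h1
    exact h1
  exfalso
  rw [low_det2] at hAnn
  set U : Pol (ℕ × ℕ) := ∏ j : Fin e, uu (s + (j : ℕ), s + (j : ℕ)) with hU
  have hUh : U.IsHomogeneous e := by
    have := IsHomogeneous.prod (Finset.univ : Finset (Fin e))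
      (fun j => uu (s + (j : ℕ), s + (j : ℕ))) (fun _ => 1) fun j _ => uu_isHomogeneous _
    simpa using this
  have hUv : ∀ v ∈ U.vars, s ≤ v.1.1 := by
    intro v hv
    obtain ⟨j, -, hj⟩ := Finset.mem_biUnion.1 (vars_prod _ hv)
    rw [vars_uu _ v hj]
    exact Nat.le_add_right _ _
  have h2 := chainQ (h := ev _ _ V U f0) (range s) (fun i => (i, s - 1 - i))
    (fun i _ j _ h => (Prod.ext_iff.1 h).1)
    (fun i => dd s a b i (s - 1 - i)) (by simpa using hL.hall) (hfin.ev U)
    (fun i hi => (hdeg _ _).ev fun v hv h => by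
      have := hUv v hv
      rw [h] at this
      exact absurd (Finset.mem_range.1 hi) (not_lt.2 this))
    (Hom4.ev (m := e) (by
      rw [Finset.card_range]
      convert h4 using 1
      simp [hJ, hS, mul_comm]) hUh)
    (by rw [mem_Ann, ← ev_mul]; exact hAnn)
  rw [Finset.card_range] at h2
  let iS : S ≃ Fin e := Fintype.equivFinOfCardEq hS
  let z : S → ℕ × ℕ := fun t => (s + iS t, s + iS t)
  let m : J → ℕ × ℕ := fun j => (s + e + Fintype.equivFin J j, 0)
  have h3 := ev_eval (V := V) m z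
    (fun t t' h => by
      have := (Prod.ext_iff.1 h).1
      exact (Fintype.equivFin J).injective (Fin.ext (by simpa [m] using this)))
    (fun t t' h => by
      have := (Prod.ext_iff.1 h).1
      exact iS.injective (Fin.ext (by simpa [z] using this)))
    (fun j t h => by
      have := (iS t).2
      simp only [m, z, Prod.mk.injEq] at h
      omega) (fun e => Sum.inl (α0 e, β0 e))
    (fun e' j h => by
      have := hα e'
      simp only [m, Sum.inl.injEq, Prod.mk.injEq] at h
      omega)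
    (fun e' t h => by
      have := hα e'
      simp only [z, Sum.inl.injEq, Prod.mk.injEq] at h
      omega) f0
  have h5 : (∏ j : J, qq (m j) (m j)) * ∏ t, uu (z t) ∈ Ann f0 := by
    have h6 : ∏ t, uu (z t) = U := Equiv.prod_comp iS fun j => uu (s + (j : ℕ), s + (j : ℕ))
    rw [h6, mem_Ann, ev_mul]
    refine h2 ?_
    rw [← hJ]
    exact prod_mem_pow_card _ _ fun j => Ideal.subset_span ⟨(m j, m j), rfl⟩
  rw [mem_Ann.1 h5] at h3
  exact smul_ne_zero (pow_ne_zero _ two_ne_zero) hne h3.symm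

end Crest.Agent.R195
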