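import Crest.Agent.R195.Lift
import Crest.Agent.R195.KG

/-!
# Row 195, task M1: the Pieri-type rule and rule P1
-/

set_option autoImplicit false

open Finset Equiv

namespace Crest.Agent.R195

section
variable {X : Type} [Fintype X] [DecidableEq X] {V : Type} [AddCommGroup V] [Module ℂ V]

/-- **Core pairing** (`Eqv.apply_eq`, `alt_james`, `Tab.cont`, `Cont.comp`, `HW.alt_ne`) -/
theorem core {ρ : Representation ℂ (Perm X) V} {a : ℕ → ℕ} {f : (X → ℕ) → V} (hf : HW a f)
    (he : Eqv ρ f) (hne : f ≠ 0) {α κ : X → ℕ} (h : Tab a α κ) {ι : Type} [Fintype ι]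
    (c : ι → ℂ) (g : ι → Perm X) (H : ∑ i, c i * polyt α κ (α ∘ (g i).symm) ≠ 0) :
    alt ρ κ (∑ i, c i • ρ (g i) (f α)) ≠ 0 := by
  have ha := (hf.isPar hne).anti
  have : alt ρ κ (∑ i, c i • ρ (g i) (f α)) =
      (∑ i, c i * polyt α κ (α ∘ (g i).symm)) • alt ρ κ (f α) := by
    rw [map_sum, Finset.sum_smul]
    refine Finset.sum_congr rfl fun i _ => ?_
    rw [map_smul, he.apply_eq, alt_james he h ha (h.cont.comp (g i).symm), smul_smul]
  rw [this]
  exact smul_ne_zero H (hf.alt_ne he hne h)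

/-- a sum of `0`'s and `1`'s with at least one `1` -/
theorem sum_ne_zero_of_zero_or_one {ι : Type} [Fintype ι] (t : ι → ℂ)
    (h : ∀ i, t i = 0 ∨ t i = 1) (i0 : ι) (h0 : t i0 = 1) : ∑ i, t i ≠ 0 := by
  intro hs
  have h1 := congrArg Complex.re hs
  rw [Complex.re_sum, Complex.zero_re] at h1
  have h2 := Finset.single_le_sum (f := fun i => (t i).re) (s := Finset.univ)
    (fun i _ => by rcases h i with h | h <;> simp [h]) (Finset.mem_univ i0)
  simp only [h0, Complex.one_re] at h2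
  linarith

/-- `alt κ ∘ alt κ' = #(Stab κ') • alt κ` if the permutations in `Stab κ'` lie in `Stab κ`
(`alt_mul_of_mem`); here for the restriction to `Perm E`. -/
theorem alt_resE_ne {P E : Type} [Fintype P] [DecidableEq P] [Fintype E] [DecidableEq E]
    (ρ : Representation ℂ (Perm (P ⊕ E)) V) (κ : P ⊕ E → ℕ) {w : V} (hw : alt ρ κ w ≠ 0) :
    alt (resE ρ) (κ ∘ Sum.inr) w ≠ 0 := by
  intro h0
  have h1 : alt ρ κ (alt (resE ρ) (κ ∘ Sum.inr) w) =
      ((#(Stab (κ ∘ Sum.inr : E → ℕ)) : ℕ) : ℂ) • alt ρ κ w := by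
    rw [alt.eq_1 (resE ρ), LinearMap.sum_apply, map_sum, Finset.card_eq_sum_ones, Nat.cast_sum,
      Finset.sum_smul]
    refine Finset.sum_congr rfl fun σ hσ => ?_
    have h2 : Perm.sumCongr (1 : Perm P) σ ∈ Stab κ := by
      rw [mem_Stab] at hσ ⊢
      rintro (p | e)
      · rfl
      · exact hσ e
    have h3 : sgn (Perm.sumCongr (1 : Perm P) σ) = sgn σ := by simp [sgn, Perm.sign_sumCongr]
    rw [LinearMap.smul_apply, map_smul, resE_apply, alt_mul_of_mem ρ h2, h3, smul_smul, sgn_mul_self,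
      Nat.cast_one]
  rw [h0, map_zero] at h1
  refine smul_ne_zero ?_ hw h1.symm
  exact_mod_cast (Finset.card_pos.2 ⟨1, one_mem_Stab _⟩).ne'

end

/-- from a non-vanishing antisymmetrisation to a type of the image representation -/
theorem HV_imgRep {J S E : Type} [Fintype J] [DecidableEq J] [Fintype S] [DecidableEq S] [Fintype E]
    [DecidableEq E] {V : Type} [AddCommGroup V] [Module ℂ V]
    {ρ : Representation ℂ (Perm (Pos J S ⊕ E)) V} {f : (Pos J S ⊕ E → ℕ) → V} (he : Eqv ρ f)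
    {cb : ℕ → ℕ} {α κ : Pos J S ⊕ E → ℕ} (hTE : Tab cb (α ∘ Sum.inr) (κ ∘ Sum.inr))
    (hcb : Antitone cb) (y0 : Pos J S → Fin 4)
    (hw : alt ρ κ (Phi ρ (Pi.single y0 (f α))) ≠ 0) : HV (imgRep ρ) cb := by
  have hw' := alt_resE_ne ρ κ hw
  set v : (Pos J S → Fin 4) → V := Pi.single y0 (f α) with hv
  have hfix : ∀ σ ∈ Stab (α ∘ Sum.inr : E → ℕ), resE ρ σ (Phi ρ v) = Phi ρ v := by
    intro σ hσ
    rw [resE_Phi]
    congr 1
    funext y
    by_cases hy : y = y0
    · subst hy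
      have h1 : α ∘ (Perm.sumCongr (1 : Perm (Pos J S)) σ) = α := by
        funext x
        rcases x with x | x
        · rfl
        · exact mem_Stab.1 hσ x
      have h2 := he (Perm.sumCongr 1 σ) α
      rw [h1] at h2
      rw [hv, Pi.single_eq_same, resE_apply, h2]
    · rw [hv, Pi.single_eq_of_ne hy, map_zero]
  refine HV.of_alt_symz hTE hcb (w := ⟨Phi ρ v, v, rfl⟩) fun h0 => hw' ?_
  have h1 : symz (imgRep ρ) (α ∘ Sum.inr) ⟨Phi ρ v, v, rfl⟩ =
      ((#(Stab (α ∘ Sum.inr : E → ℕ)) : ℕ) : ℂ) • ⟨Phi ρ v, v, rfl⟩ := by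
    rw [symz, LinearMap.sum_apply, Finset.card_eq_sum_ones, Nat.cast_sum, Finset.sum_smul]
    refine Finset.sum_congr rfl fun σ hσ => ?_
    rw [Nat.cast_one, one_smul]
    exact Subtype.ext (hfix σ hσ)
  rw [h1, map_smul] at h0
  have h2 := (smul_eq_zero.1 h0).resolve_left
    (by exact_mod_cast (Finset.card_pos.2 ⟨1, one_mem_Stab _⟩).ne')
  have h3 := congrArg Subtype.val h2
  rw [alt, LinearMap.sum_apply, Submodule.coe_sum] at h3
  rw [alt, LinearMap.sum_apply]
  exact h3

/-- **M1** (Pieri rule inside a Kronecker product).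

Plan.  `G.isPar` gives `n` with `IsPar cb n`.  Let `E = cells cb n`, `S = cells c (n+k) \ cells cb n`
(as subtypes; `card S = k` by `card_cells`), `J = Fin 0` (or `Empty`), `X = Pos J S ⊕ E`, `α`, `κ` the
coordinates of the cells: `Tab c α κ`, `Tab cb (α ∘ inr) (κ ∘ inr)`.  `ρ = Sp X c`, `f` from
`HV_Sp` (`Tab.card`).  `w = Phi ρ (Pi.single (fun _ => 0) (f α)) = ∑ g, ρ (sumCongr g 1) (f α)`
(`Phi_single`, `c0 = 1`).  `core`: if `α ∘ (sumCongr g 1).symm = α ∘ σ` with `σ ∈ Stab κ`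
(`polyt_ne_zero`), then `σ` fixes `E` pointwise (`Tab.inj`), hence maps `S` to `S`, and the cells
of `S` lie in different columns (interlacing), so `σ = 1` and the term is `1`.  So `alt ρ κ w ≠ 0`,
`alt (resE ρ) (κ ∘ inr) w ≠ 0`; `w` is fixed by `Stab (α ∘ inr)` (`resE_Phi`), so
`HV.of_alt_symz` gives `HV (imgRep ρ) cb` (compare `alt`/`symz` of the subrepresentation through
`Subtype.val`).  `G.toK`, `lift1`, `G.ofK`. -/
theorem M1 {a b cb c : ℕ → ℕ} {k n : ℕ} (h : G a b cb) (hL : Lcond 1 k a b) (hcb : IsPar cb n)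
    (hc : IsPar c (n + k)) (hs : ∀ i, c (i + 1) ≤ cb i ∧ cb i ≤ c i) :
    G (a + col k) (b + col k) c := by
  let E : Type := ↥(cells cb n)
  let S : Type := ↥(cells c (n + k) \ cells cb n)
  let cell : Pos (Fin 0) S ⊕ E → ℕ × ℕ :=
    Sum.elim (Sum.elim (fun p => p.1.elim0) Subtype.val) Subtype.val
  let α : Pos (Fin 0) S ⊕ E → ℕ := fun x => (cell x).1
  let κ : Pos (Fin 0) S ⊕ E → ℕ := fun x => (cell x).2
  have hE : ∀ e : E, e.1.2 < cb e.1.1 := fun e => (mem_cells hcb).1 e.2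
  have hS : ∀ s : S, cb s.1.1 ≤ s.1.2 ∧ s.1.2 < c s.1.1 := fun s => by
    have := Finset.mem_sdiff.1 s.2
    exact ⟨not_lt.1 fun h => this.2 ((mem_cells hcb).2 h), (mem_cells hc).1 this.1⟩
  have hT : Tab c α κ := by
    refine ⟨?_, ?_, fun i j hij => ?_⟩
    · rintro ((p | s) | e)
      · exact p.1.elim0
      · exact (hS s).2
      · exact (hE e).trans_le (hs _).2
    · rintro ((p | s) | e) ((p' | s') | e') h1 h2
      · exact p.1.elim0
      · exact p.1.elim0
      · exact p.1.elim0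
      · exact p'.1.elim0
      · exact congrArg _ (congrArg _ (Subtype.ext (Prod.ext h1 h2)))
      · have a1 := (hS s).1
        have a2 := hE e'
        have b1 : s.1.1 = e'.1.1 := h1
        have b2 : s.1.2 = e'.1.2 := h2
        rw [b1, b2] at a1; omega
      · exact p'.1.elim0
      · have a1 := (hS s').1
        have a2 := hE e
        have b1 : e.1.1 = s'.1.1 := h1
        have b2 : e.1.2 = s'.1.2 := h2
        rw [b1, b2] at a2; omega
      · exact congrArg _ (Subtype.ext (Prod.ext h1 h2))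
    · by_cases h1 : j < cb i
      · exact ⟨Sum.inr ⟨(i, j), (mem_cells hcb).2 h1⟩, rfl, rfl⟩
      · exact ⟨Sum.inl (Sum.inr ⟨(i, j), Finset.mem_sdiff.2 ⟨(mem_cells hc).2 hij,
          fun h => h1 ((mem_cells hcb).1 h)⟩⟩), rfl, rfl⟩
  have hTE : Tab cb (α ∘ Sum.inr) (κ ∘ Sum.inr) :=
    ⟨hE, fun e e' h1 h2 => Subtype.ext (Prod.ext h1 h2),
      fun i j hij => ⟨⟨(i, j), (mem_cells hcb).2 hij⟩, rfl, rfl⟩⟩
  have hcard : Fintype.card S = k := by
    rw [Fintype.card_coe, Finset.card_sdiff_of_subset, card_cells hc, card_cells hcb,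
      Nat.add_sub_cancel_left]
    intro p hp
    exact (mem_cells hc).2 (((mem_cells hcb).1 hp).trans_le (hs _).2)
  obtain ⟨f, hne, he, hf⟩ := HV_Sp (X := Pos (Fin 0) S ⊕ E) (a := c) (by rw [hT.card hc]; exact hc)
  set ρ := Sp (Pos (Fin 0) S ⊕ E) c with hρ
  have hw : alt ρ κ (Phi ρ (Pi.single (fun _ => 0) (f α))) ≠ 0 := by
    rw [Phi_single]
    refine core hf he hne hT _ (fun g : Perm (Pos (Fin 0) S) => Perm.sumCongr g 1) ?_
    have hc0 : ∀ g : Perm (Pos (Fin 0) S), c0 ((fun _ => (0 : Fin 4)) ∘ g.symm) = 1 := by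
      intro g; simp [c0, uvec]
    simp only [hc0, one_mul]
    refine sum_ne_zero_of_zero_or_one _ (fun g => ?_) 1 ?_
    · refine or_iff_not_imp_left.2 fun hg => ?_
      obtain ⟨σ, hσ, hασ⟩ := polyt_ne_zero hg
      rw [mem_Stab] at hσ
      have h1 : ∀ e, σ (Sum.inr e) = Sum.inr e := fun e =>
        hT.inj _ _ (congrFun hασ (Sum.inr e)).symm (hσ _)
      have h2 : σ = 1 := by
        ext1 x
        rcases x with (p | s) | e
        · exact p.1.elim0
        · have h3 := hσ (Sum.inl (Sum.inr s))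
          rcases hx : σ (Sum.inl (Sum.inr s)) with (p' | s') | e'
          · exact p'.1.elim0
          · rw [hx] at h3
            have b2 : s'.1.2 = s.1.2 := h3
            have a1 := hS s
            have a2 := hS s'
            have b1 : s'.1.1 = s.1.1 := by
              by_contra hne
              rcases lt_or_gt_of_ne hne with hlt | hlt
              · have := hc.anti (show s'.1.1 + 1 ≤ s.1.1 from hlt)
                have := (hs s'.1.1).1
                omega
              · have := hc.anti (show s.1.1 + 1 ≤ s'.1.1 from hlt)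
                have := (hs s.1.1).1
                omega
            exact congrArg _ (congrArg _ (Subtype.ext (Prod.ext b1 b2)))
          · exact absurd (σ.injective (hx.trans (h1 e').symm)) Sum.inl_ne_inr
        · exact h1 e
      rw [hασ, h2]
      exact hT.polyt_self
    · have : α ∘ (Perm.sumCongr (1 : Perm (Pos (Fin 0) S)) (1 : Perm E)).symm = α := by
        funext x; rcases x with x | x <;> rfl
      rw [this]
      exact hT.polyt_self
  have hHV := HV_imgRep he hTE hcb.anti _ hw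
  exact G.ofK (lift1 ρ (by simp) hcard hL (h.toK hHV))

/-- **P1**: `IsPar.exists_strip` twice (first `k`, then `k - 1` cells), `M1`, `G.tw` with
`IsConj.add_col`, `M1`. -/
theorem P1 {a : ℕ → ℕ} {m k : ℕ} (hk : 1 ≤ k) (hs : IsConj a a) (hF : Full a m)
    (h1 : Lcond 1 (k - 1) a a) (h2 : Lcond 1 k (cons (k - 1) a) (cons (k - 1) a))
    {lam : ℕ → ℕ} (hl : IsPar lam (m + (2 * k - 1))) (hq : 2 * k - 1 ≤ lam 0 + lam 1) :
    G (wrap k a) (wrap k a) lam := by
  have h01 := hl.anti (show 0 ≤ 1 by omega)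
  rw [show m + (2 * k - 1) = m + (k - 1) + k by omega] at hl
  obtain ⟨b1, hb1, hs1, hq1⟩ := hl.exists_strip (by omega)
  obtain ⟨b2, hb2, hs2, -⟩ := hb1.exists_strip (by omega)
  have hc := hs.add_col h1.la
  exact M1 ((M1 (hF b2 hb2) h1 hb2 hb1 hs2).tw hc hc) h2 hb1 hl hs1

end Crest.Agent.R195
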