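import Crest.Agent.R195.M1

/-!
# Row 195, tasks P2a, P2b: the two-block rule
-/

set_option autoImplicit false
set_option synthInstance.maxSize 1024

open Finset Equiv

namespace Crest.Agent.R195

/-- A permutation which fixes everything outside the dominoes and permutes the dominoes rigidly is
even (`σ = (prodCongrLeft fun _ => τ).extendDomain _` or `viaEmbedding`;
`Equiv.Perm.sign_extendDomain`, `Equiv.Perm.sign_prodCongrLeft`). -/
theorem sgn_eq_one_of_dominoes {X D : Type} [Fintype X] [DecidableEq X] [Fintype D] [DecidableEq D]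
    (ι : D × Fin 2 → X) (hι : Function.Injective ι) (σ : Perm X)
    (hfix : ∀ x, x ∉ Set.range ι → σ x = x)
    (hdom : ∀ d, ∃ d', σ (ι (d, 0)) = ι (d', 0) ∧ σ (ι (d, 1)) = ι (d', 1)) : sgn σ = 1 := by
  choose τ0 h0 h1 using hdom
  have hinj : Function.Injective τ0 := by
    intro d d' hd
    have : σ (ι (d, 0)) = σ (ι (d', 0)) := by rw [h0, h0, hd]
    exact congrArg Prod.fst (hι (σ.injective this))
  let τ : Perm D := Equiv.ofBijective τ0 (Finite.injective_iff_bijective.1 hinj)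
  have hσ : σ = Perm.viaFintypeEmbedding (Equiv.prodCongrLeft fun _ : Fin 2 => τ) ⟨ι, hι⟩ := by
    ext x
    by_cases hx : x ∈ Set.range ι
    · obtain ⟨⟨d, ε⟩, rfl⟩ := hx
      have := Perm.viaFintypeEmbedding_apply_image (Equiv.prodCongrLeft fun _ : Fin 2 => τ)
        ⟨ι, hι⟩ (d, ε)
      refine Eq.trans ?_ this.symm
      fin_cases ε
      · exact h0 d
      · exact h1 d
    · rw [hfix x hx, Perm.viaFintypeEmbedding_apply_notMem_range _ _ hx]
  rw [hσ, sgn, Perm.viaFintypeEmbedding_sign, Perm.sign_prodCongrLeft]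
  simp

/-- the cell of a position of a block: domino `(t, j)` occupies `(r t, 2j)`, `(r t, 2j+1)`;
the single `i < e` is the cell `(r 0, L - e + i)` -/
def cellOf {A : Finset (Fin 4 × ℕ)} (r : Fin 4 → ℕ) (e L : ℕ) : Pos A (Fin e) → ℕ × ℕ :=
  Sum.elim (fun p => (r p.1.1.1, 2 * p.1.1.2 + p.2)) fun i => (r 0, L - e + i)

/-- the label of a position of a block -/
def labOf {A : Finset (Fin 4 × ℕ)} (e : ℕ) : Pos A (Fin e) → Fin 4 :=
  Sum.elim (fun p => p.1.1.1) fun _ => 0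

/-- the geometric data extracted from `Q2` -/
structure Geo (e : ℕ) (lam : ℕ → ℕ) (ra rb : Fin 4 → ℕ) (Ef : ℕ → ℕ) (La Lb : ℕ)
    (A B : Finset (Fin 4 × ℕ)) : Prop where
  he : e = 1 ∨ e = 2
  ia : Function.Injective ra
  ib : Function.Injective rb
  n1 : ra 0 ≠ rb 0
  n2 : ra 0 ≠ rb 1
  n3 : rb 0 ≠ ra 1
  le : ∀ r, Ef r ≤ lam r
  la : Ef (ra 0) + e ≤ La ∧ La ≤ lam (ra 0)
  lb : Ef (rb 0) + e ≤ Lb ∧ Lb ≤ lam (rb 0)
  two : e = 2 → Ef (ra 1) < La ∧ Ef (rb 1) < Lb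
  mA : ∀ p ∈ A, 2 * p.2 + 1 < Ef (ra p.1)
  mB : ∀ p ∈ B, 2 * p.2 + 1 < Ef (rb p.1)
  disj : ∀ p ∈ A, ∀ q ∈ B, (ra p.1, p.2) ≠ (rb q.1, q.2)

theorem P2a_choose {T : Type} [DecidableEq T] {SA SB : Finset T} {s1 s2 : ℕ} (h1 : s1 ≤ #SA)
    (h2 : s2 ≤ #SB) (h3 : s1 + s2 ≤ #(SA ∪ SB)) :
    ∃ A' B' : Finset T, A' ⊆ SA ∧ B' ⊆ SB ∧ Disjoint A' B' ∧ #A' = s1 ∧ #B' = s2 := by
  by_cases h : s1 ≤ #(SA \ SB)
  · obtain ⟨A', hA, hA'⟩ := Finset.exists_subset_card_eq h
    obtain ⟨B', hB, hB'⟩ := Finset.exists_subset_card_eq h2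
    exact ⟨A', B', hA.trans Finset.sdiff_subset, hB,
      Finset.disjoint_of_subset_left hA (Finset.disjoint_of_subset_right hB Finset.sdiff_disjoint),
      hA', hB'⟩
  · obtain ⟨A', hA1, hA2, hA'⟩ := Finset.exists_subsuperset_card_eq
      (Finset.sdiff_subset : SA \ SB ⊆ SA) (not_le.1 h).le h1
    have h4 : SA ∪ SB ⊆ A' ∪ (SB \ A') := by
      intro x hx
      by_cases hxA : x ∈ A'
      · exact Finset.mem_union_left _ hxA
      · refine Finset.mem_union_right _ (Finset.mem_sdiff.2 ⟨?_, hxA⟩)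
        by_contra hxB
        rcases Finset.mem_union.1 hx with h5 | h5
        · exact hxA (hA1 (Finset.mem_sdiff.2 ⟨h5, hxB⟩))
        · exact hxB h5
    have h5 := (Finset.card_le_card h4).trans (Finset.card_union_le _ _)
    obtain ⟨B', hB, hB'⟩ := Finset.exists_subset_card_eq (show s2 ≤ #(SB \ A') by omega)
    exact ⟨A', B', hA2, hB.trans Finset.sdiff_subset,
      Finset.disjoint_of_subset_right hB Finset.disjoint_sdiff, hA', hB'⟩

/-- the domino slots in the rows `R` -/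
def P2a_slots (E : ℕ → ℕ) (R : Finset ℕ) : Finset (ℕ × ℕ) :=
  (R.sigma fun r => range (E r / 2)).map (Equiv.sigmaEquivProd ℕ ℕ).toEmbedding

theorem P2a_mem_slots {E : ℕ → ℕ} {R : Finset ℕ} {p : ℕ × ℕ} :
    p ∈ P2a_slots E R ↔ p.1 ∈ R ∧ p.2 < E p.1 / 2 := by
  simp [P2a_slots, Finset.mem_map_equiv, Equiv.sigmaEquivProd]

theorem P2a_card_slots (E : ℕ → ℕ) (R : Finset ℕ) : #(P2a_slots E R) = ∑ r ∈ R, E r / 2 := by
  simp [P2a_slots]

theorem P2a_card_image (E : ℕ → ℕ) {r : Fin 4 → ℕ} (hr : Function.Injective r) :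
    #(P2a_slots E (univ.image r)) = ∑ t, E (r t) / 2 := by
  rw [P2a_card_slots]
  exact Finset.sum_image fun x _ y _ h => hr h

theorem P2a_pull {E : ℕ → ℕ} {r : Fin 4 → ℕ} (hr : Function.Injective r) {A' : Finset (ℕ × ℕ)}
    (hA : A' ⊆ P2a_slots E (univ.image r)) :
    ∃ A : Finset (Fin 4 × ℕ), #A = #A' ∧ ∀ p ∈ A, (r p.1, p.2) ∈ A' := by
  have hinj : Function.Injective fun p : Fin 4 × ℕ => (r p.1, p.2) := by
    intro p q h
    simp only [Prod.mk.injEq] at h
    exact Prod.ext (hr h.1) h.2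
  refine ⟨A'.preimage (fun p : Fin 4 × ℕ => (r p.1, p.2)) hinj.injOn, ?_, fun p hp => ?_⟩
  · classical
    rw [Finset.card_preimage]
    congr 1
    refine Finset.filter_true_of_mem fun x hx => ?_
    obtain ⟨t, -, ht⟩ := Finset.mem_image.1 (P2a_mem_slots.1 (hA hx)).1
    exact ⟨(t, x.2), Prod.ext ht rfl⟩
  · exact (Finset.mem_preimage (f := fun p : Fin 4 × ℕ => (r p.1, p.2))).1 hp

/-- (task P2a) choose the dominoes.  `SA = {(ra t, j) | j < Ef (ra t) / 2}`, `SB` likewise,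
`#SA = ∑ t, …`, `#(SA ∪ SB) = ∑ r ∈ image ra ∪ image rb, Ef r / 2`.  Choose `A' ⊆ SA` with
`#A' = s1` and either `A' ⊆ SA \ SB` or `SA \ SB ⊆ A'` (`Finset.exists_subset_card_eq`,
`Finset.exists_subsuperset_card_eq`); then `#(SB \ A') ≥ s2`; pull back along
`(t, j) ↦ (ra t, j)`. -/
theorem Q2.exists_geo {e s1 s2 : ℕ} {lam : ℕ → ℕ} (he : e = 1 ∨ e = 2) (h : Q2 e s1 s2 lam) :
    ∃ ra rb Ef La Lb A B, Geo e lam ra rb Ef La Lb A B ∧ #A = s1 ∧ #B = s2 := by
  obtain ⟨ra, rb, E, La, Lb, ia, ib, n1, n2, n3, hle, h1, h2, h3, h4, h5, h6, h7, h8⟩ := h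
  have hU : P2a_slots E (univ.image ra) ∪ P2a_slots E (univ.image rb) =
      P2a_slots E (univ.image ra ∪ univ.image rb) := by
    ext p
    simp only [Finset.mem_union, P2a_mem_slots, or_and_right]
  obtain ⟨A', B', hA, hB, hd, hA', hB'⟩ := P2a_choose (SA := P2a_slots E (univ.image ra))
    (SB := P2a_slots E (univ.image rb)) (s1 := s1) (s2 := s2)
    (h6.trans_eq (P2a_card_image E ia).symm)
    (h7.trans_eq (P2a_card_image E ib).symm)
    (by rw [hU, P2a_card_slots]; exact h8)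
  obtain ⟨A, hA1, hA2⟩ := P2a_pull ia hA
  obtain ⟨B, hB1, hB2⟩ := P2a_pull ib hB
  refine ⟨ra, rb, E, La, Lb, A, B, ⟨he, ia, ib, n1, n2, n3, hle, ⟨h1, h2⟩, ⟨h3, h4⟩, h5, ?_, ?_, ?_⟩,
    hA1.trans hA', hB1.trans hB'⟩
  · intro p hp
    have := (P2a_mem_slots.1 (hA (hA2 p hp))).2
    simp only at this
    omega
  · intro p hp
    have := (P2a_mem_slots.1 (hB (hB2 p hp))).2
    simp only at this
    omega
  · intro p hp q hq hpq
    exact Finset.disjoint_left.1 hd (hA2 p hp) (hpq ▸ hB2 q hq)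

/-- (task P2a) the cells of the two blocks are distinct cells of `lam` -/
theorem Geo.cells {e : ℕ} {lam : ℕ → ℕ} {ra rb : Fin 4 → ℕ} {Ef : ℕ → ℕ} {La Lb : ℕ}
    {A B : Finset (Fin 4 × ℕ)} (h : Geo e lam ra rb Ef La Lb A B) :
    Function.Injective (Sum.elim (cellOf (A := A) ra e La) (cellOf (A := B) rb e Lb)) ∧
      (∀ p, (cellOf (A := A) ra e La p).2 < lam (cellOf (A := A) ra e La p).1) ∧
      ∀ p, (cellOf (A := B) rb e Lb p).2 < lam (cellOf (A := B) rb e Lb p).1 := by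
  have hla := h.la
  have hlb := h.lb
  have block : ∀ {A : Finset (Fin 4 × ℕ)} {r : Fin 4 → ℕ} {L : ℕ}, Function.Injective r →
      Ef (r 0) + e ≤ L → (∀ p ∈ A, 2 * p.2 + 1 < Ef (r p.1)) →
      Function.Injective (cellOf (A := A) r e L) := by
    intro A r L hr hL hm
    rintro (⟨⟨⟨t, j⟩, hd⟩, ε⟩ | i) (⟨⟨⟨t', j'⟩, hd'⟩, ε'⟩ | i') hpq <;>
      simp only [cellOf, Sum.elim_inl, Sum.elim_inr, Prod.mk.injEq] at hpq
    · obtain ⟨h1, h2⟩ := hpq
      obtain rfl := hr h1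
      have := ε.2
      have := ε'.2
      obtain rfl : j = j' := by omega
      obtain rfl : ε = ε' := Fin.ext (by omega)
      rfl
    · obtain ⟨h1, h2⟩ := hpq
      have h3 := hm _ hd
      simp only [h1] at h3
      have := ε.2
      omega
    · obtain ⟨h1, h2⟩ := hpq
      have h3 := hm _ hd'
      simp only [← h1] at h3
      have := ε'.2
      omega
    · obtain rfl : i = i' := Fin.ext (by omega)
      rfl
  have cross : ∀ p q, cellOf (A := A) ra e La p ≠ cellOf (A := B) rb e Lb q := by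
    rintro (⟨⟨⟨t, j⟩, hd⟩, ε⟩ | i) (⟨⟨⟨t', j'⟩, hd'⟩, ε'⟩ | i') hpq <;>
      simp only [cellOf, Sum.elim_inl, Sum.elim_inr, Prod.mk.injEq] at hpq
    · obtain ⟨h1, h2⟩ := hpq
      have := ε.2
      have := ε'.2
      obtain rfl : j = j' := by omega
      exact h.disj _ hd _ hd' (Prod.ext h1 rfl)
    · obtain ⟨h1, h2⟩ := hpq
      have h3 := h.mA _ hd
      simp only [h1] at h3
      have := ε.2
      omega
    · obtain ⟨h1, h2⟩ := hpq
      have h3 := h.mB _ hd'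
      simp only [← h1] at h3
      have := ε'.2
      omega
    · exact h.n1 hpq.1
  have bnd : ∀ {A : Finset (Fin 4 × ℕ)} {r : Fin 4 → ℕ} {L : ℕ},
      Ef (r 0) + e ≤ L ∧ L ≤ lam (r 0) → (∀ p ∈ A, 2 * p.2 + 1 < Ef (r p.1)) →
      ∀ p, (cellOf (A := A) r e L p).2 < lam (cellOf (A := A) r e L p).1 := by
    intro A r L hL hm
    rintro (⟨⟨⟨t, j⟩, hd⟩, ε⟩ | i) <;> simp only [cellOf, Sum.elim_inl, Sum.elim_inr]
    · have h3 := hm _ hd
      have h4 := h.le (r t)
      have := ε.2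
      simp only at h3
      omega
    · have := i.2
      omega
  refine ⟨?_, bnd hla h.mA, bnd hlb h.mB⟩
  rintro (p | p) (q | q) hpq <;> simp only [Sum.elim_inl, Sum.elim_inr] at hpq
  · rw [block h.ia hla.1 h.mA hpq]
  · exact absurd hpq (cross p q)
  · exact absurd hpq.symm (cross q p)
  · rw [block h.ib hlb.1 h.mB hpq]

/-- (task P2b) parity argument inside one block: if `c0 (lab ∘ g⁻¹) ≠ 0` then the labels
`y = lab ∘ g⁻¹` are constant on dominoes and in `{0, 1}` on the singles; the number of positions with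
label `0` is `≡ e mod 2` for `lab` and for `y`.  So either all singles have label `0`
(then `c0 y = 1`) or `e = 2` and both singles have label `1`. -/
theorem parity_block {A : Finset (Fin 4 × ℕ)} {e : ℕ} (he : e = 1 ∨ e = 2)
    (g : Perm (Pos A (Fin e))) (h : c0 (labOf (A := A) e ∘ g.symm) ≠ 0) :
    (∀ d, labOf (A := A) e (g.symm (Sum.inl (d, 0))) = labOf (A := A) e (g.symm (Sum.inl (d, 1)))) ∧
      (((∀ i, labOf (A := A) e (g.symm (Sum.inr i)) = 0) ∧ c0 (labOf (A := A) e ∘ g.symm) = 1) ∨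
        (e = 2 ∧ ∀ i, labOf (A := A) e (g.symm (Sum.inr i)) = 1)) := by
  generalize hy : labOf (A := A) e ∘ g.symm = y at h
  have hy' : ∀ p, labOf (A := A) e (g.symm p) = y p := fun p => congrFun hy p
  simp only [hy']
  rw [c0, mul_ne_zero_iff, Finset.prod_ne_zero_iff, Finset.prod_ne_zero_iff] at h
  have hd : ∀ d, y (Sum.inl (d, 0)) = y (Sum.inl (d, 1)) := by
    intro d
    by_contra hne
    exact h.1 d (mem_univ _) (if_neg hne)
  have hs : ∀ i, y (Sum.inr i) = 0 ∨ y (Sum.inr i) = 1 := by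
    intro i
    have := h.2 i (mem_univ _)
    generalize y (Sum.inr i) = c at this
    fin_cases c <;> simp [uvec] at this ⊢
  have key : ∀ z : Pos A (Fin e) → Fin 4, (∀ d, z (Sum.inl (d, 0)) = z (Sum.inl (d, 1))) →
      ∑ p, (if z p = 0 then 1 else 0 : ℕ) = 2 * ∑ d, (if z (Sum.inl (d, 0)) = 0 then 1 else 0 : ℕ) +
        ∑ i, (if z (Sum.inr i) = 0 then 1 else 0 : ℕ) := by
    intro z hz
    rw [Fintype.sum_sum_type, Fintype.sum_prod_type, Finset.mul_sum]
    congr 1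
    refine Finset.sum_congr rfl fun d _ => ?_
    rw [Fin.sum_univ_two, ← hz d, two_mul]
  have e1 := key y hd
  have e2 := key (labOf (A := A) e) (fun d => rfl)
  have e3 : ∑ p, (if y p = 0 then 1 else 0 : ℕ) =
      ∑ p, (if labOf (A := A) e p = 0 then 1 else 0 : ℕ) := by
    rw [← Equiv.sum_comp g.symm (fun p => (if labOf (A := A) e p = 0 then 1 else 0 : ℕ))]
    simp only [hy']
  have e4 : ∑ i : Fin e, (if labOf (A := A) e (Sum.inr i) = 0 then 1 else 0 : ℕ) = e := by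
    simp [labOf]
  rw [e1, e2, e4] at e3
  have fin : (∀ i, y (Sum.inr i) = 0) → (∀ i, y (Sum.inr i) = 0) ∧ c0 y = 1 := by
    intro h0
    refine ⟨h0, ?_⟩
    simp [c0, hd, h0, uvec]
  refine ⟨hd, ?_⟩
  rcases he with rfl | rfl
  · left
    apply fin
    intro i
    rw [Subsingleton.elim i 0]
    rw [Fin.sum_univ_one] at e3
    by_contra hne
    rw [if_neg hne] at e3
    omega
  · rw [Fin.sum_univ_two] at e3
    by_cases h0 : y (Sum.inr 0) = 0 <;> by_cases h1 : y (Sum.inr 1) = 0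
    · left
      apply fin
      intro i
      fin_cases i
      · exact h0
      · exact h1
    · rw [if_pos h0, if_neg h1] at e3; omega
    · rw [if_neg h0, if_pos h1] at e3; omega
    · right
      refine ⟨rfl, fun i => ?_⟩
      fin_cases i
      · exact (hs 0).resolve_left h0
      · exact (hs 1).resolve_left h1

/-- (task P2b) every term of the double contraction is `0` or `1`.

Plan.  Suppose the three factors are non-zero; `polyt_ne_zero` gives `σ ∈ Stab κ` with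
`β = α ∘ σ`, `β = α ∘ G.symm`; on block `A`, `β = ra ∘ lab ∘ g1.symm`, on block `B` likewise, on `E`
`β = α`, so `σ` fixes `E` pointwise (`Tab.inj`) and maps positions to positions.  The case "both
singles have label `1`" is impossible: `σ` would map the last single of `A` to the cell
`(ra 1, La - 1)`, which is not a position (`two`, `mA`, `mB`, `n3`, `ia`); likewise for `B` (`n2`).
So the singles are fixed, `σ` maps domino cells to domino cells; the left cell (even column) of a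
domino goes to the left cell of a domino `d'` in row `β`, the right cell to the cell next to it.
`sgn_eq_one_of_dominoes` with `D = A ⊕ B`; `Tab.polyt_of_eq`. -/
theorem Geo.term {e : ℕ} {lam : ℕ → ℕ} {ra rb : Fin 4 → ℕ} {Ef : ℕ → ℕ} {La Lb : ℕ}
    {A B : Finset (Fin 4 × ℕ)} (h : Geo e lam ra rb Ef La Lb A B) {E : Type} [Fintype E]
    [DecidableEq E] {α κ : Pos A (Fin e) ⊕ (Pos B (Fin e) ⊕ E) → ℕ} (hT : Tab lam α κ)
    (hA : ∀ p, (α (Sum.inl p), κ (Sum.inl p)) = cellOf ra e La p)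
    (hB : ∀ p, (α (Sum.inr (Sum.inl p)), κ (Sum.inr (Sum.inl p))) = cellOf rb e Lb p)
    (g1 : Perm (Pos A (Fin e))) (g2 : Perm (Pos B (Fin e))) :
    c0 (labOf (A := A) e ∘ g1.symm) * c0 (labOf (A := B) e ∘ g2.symm) *
        polyt α κ (α ∘ (Perm.sumCongr g1 (Perm.sumCongr g2 (1 : Perm E))).symm) = 0 ∨
      c0 (labOf (A := A) e ∘ g1.symm) * c0 (labOf (A := B) e ∘ g2.symm) *
        polyt α κ (α ∘ (Perm.sumCongr g1 (Perm.sumCongr g2 (1 : Perm E))).symm) = 1 := by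
  rw [or_iff_not_imp_left]
  intro hne
  rw [← Ne, mul_ne_zero_iff, mul_ne_zero_iff] at hne
  obtain ⟨⟨hc1, hc2⟩, hp⟩ := hne
  obtain ⟨σ, hσ, hβ⟩ := polyt_ne_zero hp
  have hκ := mem_Stab.1 hσ
  have aA : ∀ p, α (Sum.inl p) = ra (labOf (A := A) e p) := by
    intro p
    have := congrArg Prod.fst (hA p)
    cases p <;> exact this
  have aB : ∀ p, α (Sum.inr (Sum.inl p)) = rb (labOf (A := B) e p) := by
    intro p
    have := congrArg Prod.fst (hB p)
    cases p <;> exact this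
  have sA : ∀ p, α (σ (Sum.inl p)) = ra (labOf (A := A) e (g1.symm p)) := by
    intro p
    rw [← aA]
    exact (congrFun hβ (Sum.inl p)).symm
  have sB : ∀ p, α (σ (Sum.inr (Sum.inl p))) = rb (labOf (A := B) e (g2.symm p)) := by
    intro p
    rw [← aB]
    exact (congrFun hβ (Sum.inr (Sum.inl p))).symm
  have sE : ∀ z, σ (Sum.inr (Sum.inr z)) = Sum.inr (Sum.inr z) := fun z =>
    hT.inj _ _ (congrFun hβ (Sum.inr (Sum.inr z))).symm (hκ _)
  have kAd : ∀ (d : A) (ε : Fin 2), κ (Sum.inl (Sum.inl (d, ε))) = 2 * d.1.2 + ε := fun d ε =>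
    congrArg Prod.snd (hA (Sum.inl (d, ε)))
  have kBd : ∀ (d : B) (ε : Fin 2), κ (Sum.inr (Sum.inl (Sum.inl (d, ε)))) = 2 * d.1.2 + ε :=
    fun d ε => congrArg Prod.snd (hB (Sum.inl (d, ε)))
  have kAs : ∀ i : Fin e, κ (Sum.inl (Sum.inr i)) = La - e + i := fun i =>
    congrArg Prod.snd (hA (Sum.inr i))
  have kBs : ∀ i : Fin e, κ (Sum.inr (Sum.inl (Sum.inr i))) = Lb - e + i := fun i =>
    congrArg Prod.snd (hB (Sum.inr i))
  -- a cell beyond the dominoes in a row different from `ra 0`, `rb 0` is not a position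
  have nopos : ∀ x, (∀ z, x ≠ Sum.inr (Sum.inr z)) → α (σ x) ≠ ra 0 → α (σ x) ≠ rb 0 →
      κ x < Ef (α (σ x)) := by
    intro x hx h1 h2
    rw [← hκ x]
    rcases hz : σ x with (⟨d, ε⟩ | i) | ((⟨d, ε⟩ | i) | z)
    · have := h.mA _ d.2
      rw [kAd, aA]
      have hε := ε.2
      show _ < Ef (ra d.1.1)
      omega
    · rw [hz, aA] at h1
      exact absurd rfl h1
    · have := h.mB _ d.2
      rw [kBd, aB]
      have hε := ε.2
      show _ < Ef (rb d.1.1)
      omega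
    · rw [hz, aB] at h2
      exact absurd rfl h2
    · rw [← sE z] at hz
      exact absurd (σ.injective hz) (hx z)
  obtain ⟨dA, pA⟩ := parity_block h.he g1 hc1
  obtain ⟨dB, pB⟩ := parity_block h.he g2 hc2
  have h01 : (1 : Fin 4) ≠ 0 := by decide
  obtain ⟨zA, cA⟩ := pA.resolve_right (by
    rintro ⟨rfl, h1⟩
    have := nopos (Sum.inl (Sum.inr 1)) (fun z => by simp)
      (by rw [sA, h1]; exact h.ia.ne h01) (by rw [sA, h1]; exact h.n3.symm)
    rw [sA, h1, kAs] at this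
    have h2 := (h.two rfl).1
    have h3 := h.la.1
    simp at this
    omega)
  obtain ⟨zB, cB⟩ := pB.resolve_right (by
    rintro ⟨rfl, h1⟩
    have := nopos (Sum.inr (Sum.inl (Sum.inr 1))) (fun z => by simp)
      (by rw [sB, h1]; exact h.n2.symm) (by rw [sB, h1]; exact h.ib.ne h01)
    rw [sB, h1, kBs] at this
    have h2 := (h.two rfl).2
    have h3 := h.lb.1
    simp at this
    omega)
  rw [cA, cB, hβ, hT.polyt_of_eq hσ, one_mul, one_mul]
  let ι : (A ⊕ B) × Fin 2 → Pos A (Fin e) ⊕ (Pos B (Fin e) ⊕ E) := fun q =>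
    Sum.elim (fun d => Sum.inl (Sum.inl (d, q.2))) (fun d => Sum.inr (Sum.inl (Sum.inl (d, q.2)))) q.1
  let jj : A ⊕ B → ℕ := Sum.elim (fun d => d.1.2) fun d => d.1.2
  have kι : ∀ d ε, κ (ι (d, ε)) = 2 * jj d + ε := by
    rintro (d | d) ε
    · exact kAd d ε
    · exact kBd d ε
  have aι : ∀ d, α (ι (d, 0)) = α (ι (d, 1)) := by
    rintro (d | d)
    · exact (aA _).trans (aA (Sum.inl (d, 1))).symm
    · exact (aB _).trans (aB (Sum.inl (d, 1))).symm
  have sι : ∀ d, α (σ (ι (d, 0))) = α (σ (ι (d, 1))) := by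
    rintro (d | d)
    · exact (sA _).trans ((congrArg ra (dA d)).trans (sA _).symm)
    · exact (sB _).trans ((congrArg rb (dB d)).trans (sB _).symm)
  have hfix : ∀ x, x ∉ Set.range ι → σ x = x := by
    rintro ((⟨d, ε⟩ | i) | ((⟨d, ε⟩ | i) | z)) hx
    · exact absurd ⟨(Sum.inl d, ε), rfl⟩ hx
    · exact hT.inj _ _ (by rw [sA, zA, aA]; rfl) (hκ _)
    · exact absurd ⟨(Sum.inr d, ε), rfl⟩ hx
    · exact hT.inj _ _ (by rw [sB, zB, aB]; rfl) (hκ _)
    · exact sE z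
  refine sgn_eq_one_of_dominoes ι ?_ σ hfix fun d => ?_
  · rintro ⟨d | d, ε⟩ ⟨d' | d', ε'⟩ hh <;> simp [ι] at hh <;> simp [hh]
  · have hr : σ (ι (d, 0)) ∈ Set.range ι := by
      by_contra hn
      have := σ.injective (hfix _ hn)
      exact hn (this.symm ▸ ⟨_, rfl⟩)
    obtain ⟨⟨d', ε⟩, hd'⟩ := hr
    have k0 := hκ (ι (d, 0))
    rw [← hd', kι, kι] at k0
    have hε : ε = 0 := by
      have := ε.2
      apply Fin.ext
      simp at k0 ⊢
      omega
    subst hε
    refine ⟨d', hd'.symm, hT.inj _ _ ?_ ?_⟩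
    · rw [← sι, ← hd', aι]
    · rw [hκ, kι, kι]
      simp at k0 ⊢
      omega

theorem P2a_c0_lab {A : Finset (Fin 4 × ℕ)} (e : ℕ) : c0 (labOf (A := A) e) = 1 := by
  simp [c0, labOf, uvec]

/-- the double contraction does not vanish -/
theorem P2a_nontrivial {e : ℕ} {lam : ℕ → ℕ} {ra rb : Fin 4 → ℕ} {Ef : ℕ → ℕ} {La Lb : ℕ}
    {A B : Finset (Fin 4 × ℕ)} (h : Geo e lam ra rb Ef La Lb A B) {E : Type} [Fintype E]
    [DecidableEq E] {α κ : Pos A (Fin e) ⊕ (Pos B (Fin e) ⊕ E) → ℕ} (hT : Tab lam α κ)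
    (hA : ∀ p, (α (Sum.inl p), κ (Sum.inl p)) = cellOf ra e La p)
    (hB : ∀ p, (α (Sum.inr (Sum.inl p)), κ (Sum.inr (Sum.inl p))) = cellOf rb e Lb p)
    {V : Type} [AddCommGroup V] [Module ℂ V]
    (ρ : Representation ℂ (Perm (Pos A (Fin e) ⊕ (Pos B (Fin e) ⊕ E))) V) (hρ : HV ρ lam) :
    Nontrivial (LinearMap.range (Phi (imgRep ρ))) := by
  obtain ⟨f, hne, he, hf⟩ := hρ
  let v1 : LinearMap.range (Phi ρ) := ⟨Phi ρ (Pi.single (labOf (A := A) e) (f α)), _, rfl⟩
  refine nontrivial_of_ne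
    ⟨Phi (imgRep ρ) (Pi.single (labOf (A := B) e) v1), _, rfl⟩ 0 fun h0 => ?_
  have h1 : (Phi (imgRep ρ) (Pi.single (labOf (A := B) e) v1)).1 = 0 :=
    congrArg Subtype.val (congrArg Subtype.val h0)
  have h2 := core hf he hne hT (ι := Perm (Pos A (Fin e)) × Perm (Pos B (Fin e)))
    (fun i => c0 (labOf (A := A) e ∘ i.1.symm) * c0 (labOf (A := B) e ∘ i.2.symm))
    (fun i => Perm.sumCongr i.1 (Perm.sumCongr i.2 (1 : Perm E))) ?_
  · apply h2
    rw [Phi_single] at h1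
    simp only [Submodule.coe_sum, Submodule.coe_smul, imgRep_apply, v1, Phi_single, map_sum,
      map_smul, Finset.smul_sum, smul_smul, ← Module.End.mul_apply, ← map_mul, Perm.sumCongr_mul,
      one_mul, mul_one] at h1
    rw [Fintype.sum_prod_type, Finset.sum_comm]
    simp only [mul_comm (c0 (labOf (A := A) e ∘ _))]
    rw [h1, map_zero]
  · refine sum_ne_zero_of_zero_or_one _ (fun i => h.term hT hA hB i.1 i.2) (1, 1) ?_
    simp only [Perm.sumCongr_one]
    change c0 (labOf (A := A) e) * c0 (labOf (A := B) e) * polyt α κ α = 1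
    rw [P2a_c0_lab, P2a_c0_lab, hT.polyt_self, mul_one, mul_one]

theorem P2a_K {a : ℕ → ℕ} {m k' e : ℕ} (hk' : 1 ≤ k') (hs : IsConj a a)
    (h2 : Lcond 4 (k' - 1) a a)
    (h1 : Lcond 4 (k' + 1) (cons (k' - 1 + e) (cons (k' - 1) a)) (cons (k' - 1 + e) (cons (k' - 1) a)))
    {A B : Finset (Fin 4 × ℕ)} (hA : #A = k' + 1) (hB : #B = k' - 1) {E : Type} [Fintype E]
    [DecidableEq E] (hE : Fintype.card E = m) (hF : Full a m) {V : Type} [AddCommGroup V]
    [Module ℂ V] (ρ : Representation ℂ (Perm (Pos A (Fin e) ⊕ (Pos B (Fin e) ⊕ E))) V)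
    (hnt : Nontrivial (LinearMap.range (Phi (imgRep ρ)))) :
    K ρ (wrap (k' + 1 + e) (wrap k' a)) (wrap (k' + 1 + e) (wrap k' a)) := by
  have k1 : K (imgRep (imgRep ρ)) a a := Full.toK (hE ▸ hF)
  have k2 := lift2 _ (s := k' - 1) (e := e) (by rw [Fintype.card_coe, hB]) (Fintype.card_fin e) h2 k1
  have hc : IsConj (a + col (k' - 1 + e) + col (k' - 1)) (cons (k' - 1 + e) (cons (k' - 1) a)) := by
    rw [add_right_comm]
    refine (hs.add_col h2.la).add_col fun i hi => ?_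
    have h3 : ¬ i < k' - 1 := by omega
    simp [col, h3, h2.la i (by omega)]
  have k3 := lift2 _ (s := k' + 1) (e := e) (by rw [Fintype.card_coe, hA]) (Fintype.card_fin e) h1
    (k2.tw hc hc)
  rw [wrap_wrap k' e hk' a] at k3
  exact k3

/-- (task P2a) **P2.**

Plan.  `Q2.exists_geo`; `E` = cells of `lam` that are not positions (subtype of
`cells lam n \ image`), `X = Pos A (Fin e) ⊕ (Pos B (Fin e) ⊕ E)`, `α, κ` coordinates, `Tab lam α κ`
(`Geo.cells`, `mem_cells`), `card E = m` (`Tab.card`).  `ρ = Sp X lam`, `f` from `HV_Sp`,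
`ρ1 = imgRep ρ`, `v1 = ⟨Phi ρ (Pi.single (labOf e) (f α)), _⟩`,
`v2 = Phi ρ1 (Pi.single (labOf e) v1)`; `Phi_single` twice, `imgRep_apply`:
`(v2 : V) = ∑ (g1, g2), c0 _ * c0 _ • ρ (sumCongr g1 (sumCongr g2 1)) (f α)`, non-zero by `core`,
`Geo.term`, `sum_ne_zero_of_zero_or_one` (term `(1, 1)`, `Tab.polyt_self`).  So
`range (Phi ρ1)` is non-trivial; `Full.toK` for `imgRep ρ1`, `lift2`, `K.tw` with
`IsConj.add_col` twice (`a + col (s+e) + col s = a + col s + col (s+e)` has conjugate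
`cons (s+e) (cons s a)`), `lift2`, `wrap_wrap`, `G.ofK`. -/
theorem P2 {a : ℕ → ℕ} {m k' e : ℕ} (he : e = 1 ∨ e = 2) (hk' : 1 ≤ k') (hs : IsConj a a)
    (hF : Full a m) (h2 : Lcond 4 (k' - 1) a a)
    (h1 : Lcond 4 (k' + 1) (cons (k' - 1 + e) (cons (k' - 1) a)) (cons (k' - 1 + e) (cons (k' - 1) a)))
    {lam : ℕ → ℕ} (hl : IsPar lam (m + (2 * k' - 1) + (2 * (k' + 1 + e) - 1)))
    (hq : Q2 e (k' + 1) (k' - 1) lam) :
    G (wrap (k' + 1 + e) (wrap k' a)) (wrap (k' + 1 + e) (wrap k' a)) lam := by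
  obtain ⟨ra, rb, Ef, La, Lb, A, B, hG, hA, hB⟩ := hq.exists_geo he
  obtain ⟨hinj, hcA, hcB⟩ := hG.cells
  set n := m + (2 * k' - 1) + (2 * (k' + 1 + e) - 1) with hn
  let S : Finset (ℕ × ℕ) := cells lam n \
    univ.image (Sum.elim (cellOf (A := A) ra e La) (cellOf (A := B) rb e Lb))
  let cell : Pos A (Fin e) ⊕ (Pos B (Fin e) ⊕ S) → ℕ × ℕ :=
    Sum.elim (cellOf (A := A) ra e La) (Sum.elim (cellOf (A := B) rb e Lb) Subtype.val)
  have hS : ∀ x : S, x.1.2 < lam x.1.1 ∧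
      ∀ p, Sum.elim (cellOf (A := A) ra e La) (cellOf (A := B) rb e Lb) p ≠ x.1 := by
    intro x
    obtain ⟨h3, h4⟩ := Finset.mem_sdiff.1 x.2
    exact ⟨(mem_cells hl).1 h3, fun p hp => h4 (Finset.mem_image.2 ⟨p, Finset.mem_univ _, hp⟩)⟩
  have hT : Tab lam (fun x => (cell x).1) (fun x => (cell x).2) := by
    refine ⟨?_, ?_, ?_⟩
    · rintro (p | p | x)
      · exact hcA p
      · exact hcB p
      · exact (hS x).1
    · intro x y h3 h4
      have h5 : cell x = cell y := Prod.ext h3 h4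
      rcases x with p | p | x <;> rcases y with q | q | y
      · have := @hinj (Sum.inl p) (Sum.inl q) h5
        rw [Sum.inl.inj this]
      · exact absurd (@hinj (Sum.inl p) (Sum.inr q) h5) (by simp)
      · exact absurd h5 ((hS y).2 (Sum.inl p))
      · exact absurd (@hinj (Sum.inr p) (Sum.inl q) h5) (by simp)
      · have := @hinj (Sum.inr p) (Sum.inr q) h5
        rw [Sum.inr.inj this]
      · exact absurd h5 ((hS y).2 (Sum.inr p))
      · exact absurd h5.symm ((hS x).2 (Sum.inl q))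
      · exact absurd h5.symm ((hS x).2 (Sum.inr q))
      · rw [Subtype.ext h5]
    · intro i j hij
      by_cases h3 : (i, j) ∈ S
      · exact ⟨Sum.inr (Sum.inr ⟨(i, j), h3⟩), rfl, rfl⟩
      · have h4 : (i, j) ∈
            univ.image (Sum.elim (cellOf (A := A) ra e La) (cellOf (A := B) rb e Lb)) := by
          by_contra h5
          exact h3 (Finset.mem_sdiff.2 ⟨(mem_cells hl).2 hij, h5⟩)
        obtain ⟨p | p, -, hp⟩ := Finset.mem_image.1 h4
        · exact ⟨Sum.inl p, congrArg Prod.fst hp, congrArg Prod.snd hp⟩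
        · exact ⟨Sum.inr (Sum.inl p), congrArg Prod.fst hp, congrArg Prod.snd hp⟩
  have hcard := hT.card hl
  have hcS : Fintype.card S = m := by
    simp only [Fintype.card_sum, Fintype.card_prod, Fintype.card_coe A, Fintype.card_coe B,
      Fintype.card_fin, hA, hB] at hcard
    omega
  have hV : HV (Sp (Pos A (Fin e) ⊕ (Pos B (Fin e) ⊕ S)) lam) lam := HV_Sp (hcard ▸ hl)
  exact G.ofK (P2a_K hk' hs h2 h1 hA hB hcS hF _
    (P2a_nontrivial hG hT (fun _ => rfl) (fun _ => rfl) _ hV))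

end Crest.Agent.R195
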