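import Crest.Agent.R195.Defs

/-!
# Row 195, task Par: partitions, conjugates, tableaux (elementary)
-/

set_option autoImplicit false

open Finset Equiv

namespace Crest.Agent.R195

namespace ParAux

theorem sum_eq {a : ℕ → ℕ} {N M : ℕ} (h : Antitone a) (h0 : a N = 0) (hNM : N ≤ M) :
    ∑ i ∈ range M, a i = ∑ i ∈ range N, a i := by
  refine (sum_subset (range_mono hNM) fun i _ hi => ?_).symm
  have := h (not_lt.1 fun h' => hi (mem_range.2 h'))
  omega

theorem cnt (c M : ℕ) : ∑ t ∈ range M, (if t < c then 1 else 0) = min c M := by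
  induction M with
  | zero => simp
  | succ M ih =>
    rw [sum_range_succ, ih]
    split_ifs <;> omega

end ParAux
open ParAux

theorem IsPar.of_sum {a : ℕ → ℕ} {N n : ℕ} (h : Antitone a) (h0 : a N = 0)
    (hs : ∑ i ∈ range N, a i = n) : IsPar a n := by
  -- if `a n > 0` then `n < N` and the sum is `≥ n + 1`; then compare the two sums (`Finset.sum_subset`)
  have hn : a n = 0 := by
    by_contra hne
    have h1 : n < N := by
      by_contra h2
      have := h (not_lt.1 h2)
      omega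
    have h2 : ∑ i ∈ range (n + 1), a i ≤ ∑ i ∈ range N, a i := sum_le_sum_of_subset (range_mono h1)
    have h3 : ∑ _i ∈ range (n + 1), 1 ≤ ∑ i ∈ range (n + 1), a i := sum_le_sum fun i hi => by
      have := h (Nat.lt_succ_iff.1 (mem_range.1 hi))
      omega
    simp only [sum_const, card_range, smul_eq_mul, mul_one] at h3
    omega
  refine ⟨h, hn, ?_⟩
  rw [← sum_eq h hn (le_max_left n N), sum_eq h h0 (le_max_right n N), hs]

theorem IsPar.eq_zero {a : ℕ → ℕ} {n i : ℕ} (h : IsPar a n) (hi : n ≤ i) : a i = 0 := by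
  have := h.anti hi
  have := h.zero
  omega

theorem IsPar.sum_of_zero {a : ℕ → ℕ} {n N : ℕ} (h : IsPar a n) (h0 : a N = 0) :
    ∑ i ∈ range N, a i = n := by
  rw [← sum_eq h.anti h0 (le_max_right n N), sum_eq h.anti h.zero (le_max_left n N), h.sum]

theorem IsPar.sum_le {a : ℕ → ℕ} {n : ℕ} (h : IsPar a n) (N : ℕ) : ∑ i ∈ range N, a i ≤ n := by
  have h1 := sum_eq h.anti h.zero (le_max_left n N)
  rw [h.sum] at h1
  rw [← h1]
  exact sum_le_sum_of_subset (range_mono (le_max_right n N))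

theorem IsPar.le {a : ℕ → ℕ} {n : ℕ} (h : IsPar a n) (i : ℕ) : a i ≤ n := by
  have h1 := h.sum_le 1
  rw [sum_range_one] at h1
  exact (h.anti (Nat.zero_le i)).trans h1

theorem IsPar.unique {a : ℕ → ℕ} {n m : ℕ} (h : IsPar a n) (h' : IsPar a m) : n = m := by
  rw [← h.sum_of_zero h'.zero, h'.sum]

theorem isPar_zero : IsPar (fun _ => 0) 0 := by
  exact ⟨fun _ _ _ => le_rfl, rfl, rfl⟩

theorem IsConj.symm {a a' : ℕ → ℕ} (h : IsConj a a') : IsConj a' a := fun i j => (h j i).symm

theorem IsConj.anti {a a' : ℕ → ℕ} (h : IsConj a a') : Antitone a := by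
  intro i i' hi
  by_contra hc
  have h1 := (h i' (a i)).1 (not_le.1 hc)
  exact lt_irrefl _ ((h i (a i)).2 (lt_of_le_of_lt hi h1))

theorem IsConj.unique {a b c : ℕ → ℕ} (h : IsConj a b) (h' : IsConj a c) : b = c := by
  funext j
  exact eq_of_forall_lt_iff fun i => (h i j).symm.trans (h' i j)

theorem IsConj.mono {a a' b b' : ℕ → ℕ} (h : IsConj a a') (h' : IsConj b b')
    (hab : ∀ i, a i ≤ b i) (j : ℕ) : a' j ≤ b' j := by
  exact le_of_forall_lt fun i hi => (h' i j).1 (lt_of_lt_of_le ((h i j).2 hi) (hab i))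

/-- `a' j = #{i < n | j < a i}` -/
theorem IsPar.exists_conj {a : ℕ → ℕ} {n : ℕ} (h : IsPar a n) : ∃ a', IsConj a a' := by
  have hex : ∀ j, ∃ i, a i ≤ j := fun j => ⟨n, h.zero ▸ Nat.zero_le j⟩
  refine ⟨fun j => Nat.find (hex j), fun i j => ?_⟩
  rw [Nat.lt_find_iff]
  exact ⟨fun hj m hm => not_le.2 (lt_of_lt_of_le hj (h.anti hm)), fun hj => not_le.1 (hj i le_rfl)⟩

theorem mem_cells {a : ℕ → ℕ} {n : ℕ} (h : IsPar a n) {p : ℕ × ℕ} :
    p ∈ cells a n ↔ p.2 < a p.1 := by
  simp only [cells, mem_filter, mem_product, mem_range]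
  refine ⟨fun hp => hp.2, fun hp => ⟨⟨?_, lt_of_lt_of_le hp (h.le _)⟩, hp⟩⟩
  by_contra hc
  have := h.eq_zero (not_lt.1 hc)
  omega

theorem card_cells {a : ℕ → ℕ} {n : ℕ} (h : IsPar a n) : #(cells a n) = n := by
  rw [cells, card_filter, sum_product]
  simp only [cnt]
  rw [sum_congr rfl fun i _ => min_eq_left (h.le i), h.sum]

/-- double counting: `∑_{i<N} min (a i) j = ∑_{t<j} a' t` -/
theorem IsConj.sum_min {a a' : ℕ → ℕ} (hc : IsConj a a') {N : ℕ} (h0 : a N = 0) (j : ℕ) :
    ∑ i ∈ range N, min (a i) j = ∑ t ∈ range j, a' t := by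
  have h1 : ∀ t ∈ range j, a' t = ∑ i ∈ range N, if t < a i then 1 else 0 := fun t _ => by
    simp only [hc _ t, cnt]
    refine (min_eq_left ?_).symm
    by_contra h2
    have := (hc N t).2 (not_le.1 h2)
    omega
  rw [sum_congr rfl h1, sum_comm]
  simp only [cnt]

theorem IsPar.conj {a a' : ℕ → ℕ} {n : ℕ} (h : IsPar a n) (hc : IsConj a a') : IsPar a' n := by
  refine ⟨hc.symm.anti, ?_, ?_⟩
  · by_contra h1
    have h2 := (hc 0 n).2 (Nat.pos_of_ne_zero h1)
    have := h.le 0
    omega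
  · rw [← hc.sum_min h.zero, sum_congr rfl fun i _ => min_eq_left (h.le i), h.sum]

theorem IsConj.add_col {a a' : ℕ → ℕ} (h : IsConj a a') {m : ℕ} (hm : ∀ i, m ≤ i → a i = 0) :
    IsConj (a + col m) (cons m a') := by
  intro i j
  have h1 := hm i
  have h2 := h i (j - 1)
  simp only [Pi.add_apply, col, R195.cons]
  split_ifs <;> omega

theorem IsPar.add_col {a : ℕ → ℕ} {n m : ℕ} (h : IsPar a n) : IsPar (a + col m) (n + m) := by
  refine IsPar.of_sum (N := n + m) (fun i j hij => ?_) ?_ ?_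
  · have := h.anti hij
    simp only [Pi.add_apply, col]
    split_ifs <;> omega
  · simp [col, h.eq_zero (Nat.le_add_right n m)]
  · simp only [Pi.add_apply, col, sum_add_distrib, cnt]
    rw [h.sum_of_zero (h.eq_zero (Nat.le_add_right n m))]
    omega

theorem IsPar.cons {a : ℕ → ℕ} {n m : ℕ} (h : IsPar a n) (hm : a 0 ≤ m) :
    IsPar (cons m a) (n + m) := by
  refine IsPar.of_sum (N := n + 1) (fun i j hij => ?_) ?_ ?_
  · have h1 := h.anti (Nat.sub_le_sub_right hij 1)
    have h2 := h.anti (Nat.zero_le (j - 1))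
    simp only [R195.cons]
    split_ifs <;> omega
  · simp [R195.cons, h.zero]
  · simp [sum_range_succ', R195.cons, h.sum]

theorem IsPar.wrap {a : ℕ → ℕ} {n k : ℕ} (h : IsPar a n) (hk : 1 ≤ k) (ha : a 0 ≤ k - 1) :
    IsPar (wrap k a) (n + (2 * k - 1)) := by
  have := (h.cons ha).add_col (m := k)
  rwa [show n + (k - 1) + k = n + (2 * k - 1) by omega] at this

/-- for symmetric `a`, `a 0 ≤ k - 1` gives `a i = 0` for `i ≥ k - 1`;
`wrap k a = cons k (a + col (k-1))` -/
theorem IsConj.wrap {a : ℕ → ℕ} (h : IsConj a a) {k : ℕ} (hk : 1 ≤ k) (ha : a 0 ≤ k - 1) :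
    IsConj (wrap k a) (wrap k a) := by
  have h0 : ∀ i, k - 1 ≤ i → a i = 0 := fun i hi => by
    by_contra hc
    have := (h i 0).1 (Nat.pos_of_ne_zero hc)
    omega
  have h1 := (h.add_col h0).symm.add_col (m := k) fun i hi => by
    rw [cons, if_neg (by omega)]
    exact h0 _ (by omega)
  have h2 : cons k (a + col (k - 1)) = R195.wrap k a := by
    funext i
    simp only [R195.wrap, Pi.add_apply, col, cons]
    split_ifs <;> omega
  rwa [h2] at h1

theorem wrap_wrap (k' e : ℕ) (hk' : 1 ≤ k') (a : ℕ → ℕ) :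
    cons (k' - 1 + e) (cons (k' - 1) a) + col (k' + 1 + e) + col (k' + 1)
      = wrap (k' + 1 + e) (wrap k' a) := by
  funext i
  simp only [wrap, Pi.add_apply, col, cons]
  split_ifs <;> omega

theorem isPar_stair (k : ℕ) : IsPar (stair k) (tri k) := by
  refine IsPar.of_sum (N := k) (fun i j hij => Nat.sub_le_sub_left hij k) (Nat.sub_self k) ?_
  induction k with
  | zero => rfl
  | succ k ih =>
    rw [sum_range_succ', tri, ← ih]
    simp [stair]

theorem isConj_stair (k : ℕ) : IsConj (stair k) (stair k) := by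
  intro i j
  simp only [stair]
  omega

theorem wrap_stair (k : ℕ) : wrap (k + 2) (stair k) = stair (k + 2) := by
  funext i
  simp only [wrap, Pi.add_apply, col, cons, stair]
  split_ifs <;> omega

theorem two_mul_tri (k : ℕ) : 2 * tri k = k * (k + 1) := by
  induction k with
  | zero => rfl
  | succ k ih =>
    rw [tri, mul_add, ih]
    ring

/-- remove the last cell repeatedly -/
theorem IsPar.exists_sub {a : ℕ → ℕ} {n m : ℕ} (h : IsPar a n) (hm : m ≤ n) :
    ∃ b, IsPar b m ∧ ∀ i, b i ≤ a i := by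
  have hs : ∀ N, ∑ i ∈ range N, min (a i) (m - ∑ t ∈ range i, a t) = min m (∑ t ∈ range N, a t) := fun N => by
    induction N with
    | zero => simp
    | succ N ih =>
      rw [sum_range_succ, ih, sum_range_succ]
      omega
  refine ⟨fun i => min (a i) (m - ∑ t ∈ range i, a t), IsPar.of_sum (N := n) (fun i j hij => ?_) ?_ ?_,
    fun i => min_le_left _ _⟩
  · exact min_le_min (h.anti hij) (Nat.sub_le_sub_left (sum_le_sum_of_subset (range_mono hij)) m)
  · simp [h.zero]
  · rw [hs, h.sum, min_eq_left hm]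

/-- remove the bottom cell of each of the first `k` columns:
`b i = a i - (min (a i) k - min (a (i+1)) k)`, the sum telescopes -/
theorem IsPar.exists_strip {a : ℕ → ℕ} {n k : ℕ} (h : IsPar a (n + k)) (hk : k ≤ a 0) :
    ∃ b, IsPar b n ∧ (∀ i, a (i + 1) ≤ b i ∧ b i ≤ a i) ∧ a 0 + min (a 1) k ≤ b 0 + k := by
  have hb : ∀ i, a (i + 1) ≤ a i - (min (a i) k - min (a (i + 1)) k) ∧
      a i - (min (a i) k - min (a (i + 1)) k) ≤ a i := fun i => by
    have := h.anti (Nat.le_succ i)
    simp only [Nat.succ_eq_add_one] at this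
    omega
  have hs : ∀ N, ∑ i ∈ range N, (a i - (min (a i) k - min (a (i + 1)) k)) + min (a 0) k =
      ∑ i ∈ range N, a i + min (a N) k := fun N => by
    induction N with
    | zero => simp
    | succ N ih =>
      have := h.anti (Nat.le_succ N)
      simp only [Nat.succ_eq_add_one] at this
      rw [sum_range_succ, sum_range_succ]
      omega
  refine ⟨fun i => a i - (min (a i) k - min (a (i + 1)) k), IsPar.of_sum (N := n + k)
    (antitone_nat_of_succ_le fun i => (hb (i + 1)).2.trans (hb i).1) ?_ ?_, hb, ?_⟩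
  · simp [h.zero]
  · have h1 := hs (n + k)
    rw [h.sum, h.zero] at h1
    omega
  · simp only [zero_add]
    omega

section Tab
variable {X : Type} [Fintype X] [DecidableEq X]

theorem Tab.cont {a : ℕ → ℕ} {α κ : X → ℕ} (h : Tab a α κ) : Cont a α := by
  -- `κ` is a bijection from the fibre of `α` over `i` to `range (a i)`
  intro i
  rw [← card_range (a i)]
  refine card_bij (fun x _ => κ x) (fun x hx => ?_) (fun x hx y hy hxy => ?_) (fun j hj => ?_)
  · rw [mem_range, ← (mem_filter.1 hx).2]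
    exact h.mem x
  · exact h.inj x y ((mem_filter.1 hx).2.trans (mem_filter.1 hy).2.symm) hxy
  · obtain ⟨x, h1, h2⟩ := h.surj i j (mem_range.1 hj)
    exact ⟨x, mem_filter.2 ⟨mem_univ _, h1⟩, h2⟩

theorem Tab.swap {a a' : ℕ → ℕ} {α κ : X → ℕ} (h : Tab a α κ) (hc : IsConj a a') :
    Tab a' κ α := by
  refine ⟨fun x => (hc _ _).1 (h.mem x), fun x y h1 h2 => h.inj x y h2 h1, fun i j hj => ?_⟩
  obtain ⟨x, h1, h2⟩ := h.surj j i ((hc _ _).2 hj)
  exact ⟨x, h2, h1⟩

theorem Tab.comp {a : ℕ → ℕ} {α κ : X → ℕ} (h : Tab a α κ) {Y : Type} [Fintype Y] [DecidableEq Y]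
    (g : Y ≃ X) : Tab a (α ∘ g) (κ ∘ g) := by
  refine ⟨fun y => h.mem (g y), fun x y h1 h2 => g.injective (h.inj _ _ h1 h2), fun i j hj => ?_⟩
  obtain ⟨x, h1, h2⟩ := h.surj i j hj
  exact ⟨g.symm x, by simpa using h1, by simpa using h2⟩

/-- two tableaux of the same shape differ by a permutation -/
theorem Tab.exists_perm {a : ℕ → ℕ} {α κ α' κ' : X → ℕ} (h : Tab a α κ) (h' : Tab a α' κ') :
    ∃ g : Perm X, α' = α ∘ g ∧ κ' = κ ∘ g := by
  choose g h1 h2 using fun x => h.surj (α' x) (κ' x) (h'.mem x)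
  have hg : Function.Injective g := fun x y hxy =>
    h'.inj x y (by rw [← h1, ← h1, hxy]) (by rw [← h2, ← h2, hxy])
  exact ⟨Equiv.ofBijective g (Finite.injective_iff_bijective.1 hg), funext fun x => (h1 x).symm,
    funext fun x => (h2 x).symm⟩

/-- an antitone content is a partition of `card X` -/
theorem Cont.isPar {a : ℕ → ℕ} {α : X → ℕ} (h : Cont a α) (ha : Antitone a) :
    IsPar a (Fintype.card X) := by
  -- if `a n > 0` all letters `0..n` occur; `Finset.card_eq_sum_card_fiberwise`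
  have hlt : ∀ x, α x < univ.sup α + 1 := fun x => Nat.lt_succ_of_le (le_sup (mem_univ x))
  refine IsPar.of_sum (N := univ.sup α + 1) ha ?_ ?_
  · rw [← h, card_eq_zero, filter_eq_empty_iff]
    exact fun x _ => (hlt x).ne
  · rw [← card_univ, card_eq_sum_card_fiberwise (f := α) (t := range (univ.sup α + 1))
      fun x _ => mem_range.2 (hlt x)]
    exact sum_congr rfl fun i _ => (h i).symm

theorem Tab.card {a : ℕ → ℕ} {n : ℕ} {α κ : X → ℕ} (h : Tab a α κ) (ha : IsPar a n) :
    Fintype.card X = n := (h.cont.isPar ha.anti).unique ha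

theorem IsPar.exists_tab {a : ℕ → ℕ} (h : IsPar a (Fintype.card X)) :
    ∃ α κ : X → ℕ, Tab a α κ := by
  -- `Fintype.equivOfCardEq : X ≃ cells a n`
  have e : X ≃ cells a (Fintype.card X) := Fintype.equivOfCardEq (by rw [Fintype.card_coe, card_cells h])
  refine ⟨fun x => (e x).1.1, fun x => (e x).1.2, fun x => (mem_cells h).1 (e x).2,
    fun x y h1 h2 => e.injective (Subtype.ext (Prod.ext h1 h2)), fun i j hj => ?_⟩
  exact ⟨e.symm ⟨(i, j), (mem_cells h).2 hj⟩, by simp, by simp⟩

/-- two words with the same content differ by a permutation -/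
theorem Cont.exists_perm {a : ℕ → ℕ} {α β : X → ℕ} (h : Cont a α) (h' : Cont a β) :
    ∃ g : Perm X, β = α ∘ g := by
  -- `Equiv.ofFiberEquiv` with `Fintype.equivOfCardEq` on the fibres
  have e : ∀ c, {x // β x = c} ≃ {x // α x = c} := fun c =>
    Fintype.equivOfCardEq (by rw [Fintype.card_subtype, Fintype.card_subtype, h c, h' c])
  exact ⟨Equiv.ofFiberEquiv e, funext fun x => (Equiv.ofFiberEquiv_map e x).symm⟩

theorem Cont.pos {a : ℕ → ℕ} {α : X → ℕ} (h : Cont a α) (x : X) : 0 < a (α x) := by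
  rw [← h]
  exact card_pos.2 ⟨x, by simp⟩

end Tab

end Crest.Agent.R195
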