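import Crest.Agent.R195.Par

/-!
# Row 195, task Polyt: polytabloids and James' lemma
-/

set_option autoImplicit false

open Finset Equiv

namespace Crest.Agent.R195

variable {X : Type} [Fintype X] [DecidableEq X] {V : Type} [AddCommGroup V] [Module ℂ V]

theorem one_mem_Stab (κ : X → ℕ) : (1 : Perm X) ∈ Stab κ := by simp [mem_Stab]

theorem mul_mem_Stab {κ : X → ℕ} {σ τ : Perm X} (h : σ ∈ Stab κ) (h' : τ ∈ Stab κ) :
    σ * τ ∈ Stab κ := by
  rw [mem_Stab] at *
  intro x
  rw [Perm.mul_apply, h, h']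

theorem inv_mem_Stab {κ : X → ℕ} {σ : Perm X} (h : σ ∈ Stab κ) : σ⁻¹ ∈ Stab κ := by
  rw [mem_Stab] at *
  intro x
  rw [← h (σ⁻¹ x)]
  simp

/-- reindex a sum over `Stab κ` by left multiplication -/
theorem sum_Stab_mul_left {M : Type} [AddCommMonoid M] {κ : X → ℕ} {τ : Perm X} (hτ : τ ∈ Stab κ)
    (φ : Perm X → M) : ∑ σ ∈ Stab κ, φ (τ * σ) = ∑ σ ∈ Stab κ, φ σ := by
  refine Finset.sum_equiv (Equiv.mulLeft τ) (fun σ => ⟨fun h => mul_mem_Stab hτ h, fun h => ?_⟩) fun _ _ => rfl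
  simpa using mul_mem_Stab (inv_mem_Stab hτ) h

/-- reindex a sum over `Stab κ` by right multiplication -/
theorem sum_Stab_mul_right {M : Type} [AddCommMonoid M] {κ : X → ℕ} {τ : Perm X}
    (hτ : τ ∈ Stab κ) (φ : Perm X → M) : ∑ σ ∈ Stab κ, φ (σ * τ) = ∑ σ ∈ Stab κ, φ σ := by
  refine Finset.sum_equiv (Equiv.mulRight τ) (fun σ => ⟨fun h => mul_mem_Stab h hτ, fun h => ?_⟩) fun _ _ => rfl
  simpa using mul_mem_Stab h (inv_mem_Stab hτ)

theorem sum_Stab_inv {M : Type} [AddCommMonoid M] (κ : X → ℕ) (φ : Perm X → M) :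
    ∑ σ ∈ Stab κ, φ σ⁻¹ = ∑ σ ∈ Stab κ, φ σ := by
  refine Finset.sum_equiv (Equiv.inv (Perm X)) (fun σ => ⟨fun h => inv_mem_Stab h, fun h => ?_⟩) fun _ _ => rfl
  simpa using inv_mem_Stab h

/-- conjugation `σ ↦ g σ g⁻¹` maps `Stab (κ ∘ g)` to `Stab κ` -/
theorem polyt_comp (α κ β : X → ℕ) (g : Perm X) :
    polyt (α ∘ g) (κ ∘ g) (β ∘ g) = polyt α κ β := by
  unfold polyt
  refine Finset.sum_equiv (MulAut.conj g).toEquiv (fun σ => ?_) fun σ _ => ?_
  · simp only [mem_Stab, MulEquiv.toEquiv_eq_coe, EquivLike.coe_coe, MulAut.conj_apply, Function.comp_apply,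
      Perm.mul_apply]
    refine ⟨fun h x => ?_, fun h x => ?_⟩
    · rw [h]
      simp
    · simpa using h (g x)
  · simp only [MulEquiv.toEquiv_eq_coe, EquivLike.coe_coe, MulAut.conj_apply]
    refine if_congr ⟨fun h => funext fun x => ?_, fun h => funext fun x => ?_⟩ ?_ rfl
    · simpa using congrFun h (g⁻¹ x)
    · simpa using congrFun h (g x)
    · rw [sgn_mul, sgn_mul, sgn_inv, mul_right_comm, sgn_mul_self, one_mul]

theorem polyt_comp_stab (α κ β : X → ℕ) {σ : Perm X} (hσ : σ ∈ Stab κ) :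
    polyt α κ (β ∘ σ) = sgn σ * polyt α κ β := by
  unfold polyt
  rw [← sum_Stab_mul_right hσ, mul_sum]
  refine sum_congr rfl fun ρ _ => ?_
  rw [mul_ite, mul_zero, sgn_mul, mul_comm]
  refine if_congr ⟨fun h => funext fun x => ?_, fun h => ?_⟩ rfl rfl
  · simpa using congrFun h (σ⁻¹ x)
  · rw [h]
    rfl

theorem polyt_ne_zero {α κ β : X → ℕ} (h : polyt α κ β ≠ 0) : ∃ σ ∈ Stab κ, β = α ∘ σ := by
  obtain ⟨σ, hσ, h1⟩ := exists_ne_zero_of_sum_ne_zero h
  refine ⟨σ, hσ, ?_⟩
  by_contra hc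
  exact h1 (if_neg hc)

theorem Tab.polyt_self {a : ℕ → ℕ} {α κ : X → ℕ} (h : Tab a α κ) : polyt α κ α = 1 := by
  -- `α = α ∘ σ` and `σ ∈ Stab κ` force `σ = 1` by `h.inj`
  unfold polyt
  rw [sum_eq_single_of_mem 1 (one_mem_Stab κ)]
  · simp
  · intro σ hσ h1
    refine if_neg fun h2 => h1 (Equiv.ext fun x => ?_)
    exact h.inj _ _ (congrFun h2 x).symm (mem_Stab.1 hσ x)

theorem Tab.polyt_of_eq {a : ℕ → ℕ} {α κ : X → ℕ} (h : Tab a α κ) {σ : Perm X}
    (hσ : σ ∈ Stab κ) : polyt α κ (α ∘ σ) = sgn σ := by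
  rw [polyt_comp_stab _ _ _ hσ, h.polyt_self, mul_one]

namespace PolytAux

theorem card_lt {a : ℕ → ℕ} {β : X → ℕ} (hβ : Cont a β) (m : ℕ) : #{x | β x < m} = ∑ i ∈ range m, a i := by
  rw [card_eq_sum_card_fiberwise (f := β) (t := range m) fun x hx => mem_range.2 (mem_filter.1 hx).2]
  refine sum_congr rfl fun i hi => ?_
  rw [← hβ i, filter_filter]
  congr 1
  exact filter_congr fun x _ => ⟨fun h => h.2, fun h => ⟨h ▸ mem_range.1 hi, h⟩⟩

theorem swap_mem {κ : X → ℕ} {x y : X} (h : κ x = κ y) : swap x y ∈ Stab κ := by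
  rw [mem_Stab]
  intro z
  rw [swap_apply_def]
  split_ifs with h1 h2
  · rw [h1, h]
  · rw [h2, h]
  · rfl

theorem sgn_swap {x y : X} (h : x ≠ y) : sgn (swap x y) = -1 := by
  simp [sgn, Perm.sign_swap h]

theorem col_inj {a : ℕ → ℕ} {α κ β : X → ℕ} (h : Tab a α κ) (hβ : polyt α κ β ≠ 0) {x y : X} (h1 : κ x = κ y)
    (h2 : β x = β y) : x = y := by
  obtain ⟨σ, hσ, rfl⟩ := polyt_ne_zero hβ
  rw [mem_Stab] at hσ
  exact σ.injective (h.inj _ _ h2 (by rw [hσ, hσ, h1]))

end PolytAux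
open PolytAux

/-- a word of content `a` which is injective on the columns is a column rearrangement of `α`.

Plan.  Let `a'` be the conjugate (`Cont.isPar`, `IsPar.exists_conj`).  It suffices to show
`β x < a' (κ x)` for all `x`: then `x ↦` the position of the cell `(β x, κ x)` is an injective
self-map `σ` of `X` with `κ σ = κ`, `α σ = β`.  For this fix `m`; `#{β < m} = #{α < m}` (same
content), and in each column `c`, `#{κ = c, β < m} ≤ min (a' c) m = #{κ = c, α < m}`; the sums over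
`c` agree, so equality holds in every column (`Finset.sum_eq_sum_iff_of_le`); take `m = a' c`. -/
theorem Tab.exists_stab {a : ℕ → ℕ} {α κ β : X → ℕ} (h : Tab a α κ) (ha : Antitone a)
    (hβ : Cont a β) (hinj : ∀ x y, κ x = κ y → β x = β y → x = y) :
    ∃ σ ∈ Stab κ, β = α ∘ σ := by
  obtain ⟨a', hc⟩ := (hβ.isPar ha).exists_conj
  have h' := h.swap hc
  have key : ∀ x, β x < a' (κ x) := fun x0 => by
    set m := a' (κ x0) with hm
    have h1 : ∀ c ∈ univ.image κ, #{x ∈ ({x | β x < m} : Finset X) | κ x = c} ≤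
        #{x ∈ ({x | α x < m} : Finset X) | κ x = c} := fun c _ => by
      rcases le_total (a' c) m with h2 | h2
      · refine card_le_card fun x hx => ?_
        simp only [mem_filter, mem_univ, true_and] at hx ⊢
        exact ⟨lt_of_lt_of_le (hx.2 ▸ h'.mem x) h2, hx.2⟩
      · calc _ ≤ #(range m) := card_le_card_of_injOn β (fun x hx => by
                simp only [coe_filter, mem_filter, mem_univ, true_and, Set.mem_setOf_eq] at hx
                exact mem_coe.2 (mem_range.2 hx.1)) fun x hx y hy hxy => by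
                simp only [coe_filter, mem_filter, mem_univ, true_and, Set.mem_setOf_eq] at hx hy
                exact hinj x y (hx.2.trans hy.2.symm) hxy
          _ ≤ #(image α {x ∈ ({x | α x < m} : Finset X) | κ x = c}) := card_le_card fun i hi => by
                obtain ⟨x, e1, e2⟩ := h'.surj c i (lt_of_lt_of_le (mem_range.1 hi) h2)
                refine mem_image.2 ⟨x, ?_, e2⟩
                simp only [mem_filter, mem_univ, true_and]
                exact ⟨e2 ▸ mem_range.1 hi, e1⟩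
          _ ≤ _ := card_image_le
    have h2 : ∑ c ∈ univ.image κ, #{x ∈ ({x | β x < m} : Finset X) | κ x = c} =
        ∑ c ∈ univ.image κ, #{x ∈ ({x | α x < m} : Finset X) | κ x = c} := by
      rw [← card_eq_sum_card_fiberwise fun x _ => mem_coe.2 (mem_image_of_mem κ (mem_univ x)),
        ← card_eq_sum_card_fiberwise fun x _ => mem_coe.2 (mem_image_of_mem κ (mem_univ x)),
        card_lt hβ, card_lt h.cont]
    have h3 := (sum_eq_sum_iff_of_le h1).1 h2 (κ x0) (mem_image_of_mem κ (mem_univ x0))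
    have h4 : {x ∈ ({x | β x < m} : Finset X) | κ x = κ x0} = ({x | κ x = κ x0} : Finset X) := by
      refine eq_of_subset_of_card_le (fun x hx => ?_) ?_
      · simp only [mem_filter, mem_univ, true_and] at hx ⊢
        exact hx.2
      · rw [h3]
        refine card_le_card fun x hx => ?_
        simp only [mem_filter, mem_univ, true_and] at hx ⊢
        exact ⟨hm ▸ hx ▸ h'.mem x, hx⟩
    have h5 : x0 ∈ ({x | κ x = κ x0} : Finset X) := by simp
    rw [← h4] at h5
    simpa using h5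
  choose g h1 h2 using fun x => h'.surj (κ x) (β x) (key x)
  have hg : Function.Injective g := fun x y hxy =>
    hinj x y (by rw [← h1, ← h1 y, hxy]) (by rw [← h2, ← h2 y, hxy])
  exact ⟨Equiv.ofBijective g (Finite.injective_iff_bijective.1 hg), mem_Stab.2 h1, funext fun x => (h2 x).symm⟩

/-- **James' lemma.**  If `β` is not column-injective, a transposition `τ ∈ Stab κ` fixes `β`, so
both sides vanish (left: reindex by `τ * σ`; right: `polyt_ne_zero` and `h.inj`).  Otherwise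
`Tab.exists_stab`, `Tab.polyt_of_eq` and reindexing. -/
theorem james {a : ℕ → ℕ} {α κ β : X → ℕ} (h : Tab a α κ) (ha : Antitone a) (hβ : Cont a β)
    (φ : (X → ℕ) → V) :
    ∑ σ ∈ Stab κ, sgn σ • φ (β ∘ σ) = polyt α κ β • ∑ σ ∈ Stab κ, sgn σ • φ (α ∘ σ) := by
  by_cases hinj : ∀ x y, κ x = κ y → β x = β y → x = y
  · obtain ⟨τ, hτ, rfl⟩ := h.exists_stab ha hβ hinj
    rw [h.polyt_of_eq hτ, ← sum_Stab_mul_left hτ fun σ => sgn σ • φ (α ∘ σ), smul_sum]
    refine sum_congr rfl fun σ _ => ?_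
    rw [smul_smul, sgn_mul, ← mul_assoc, sgn_mul_self, one_mul]
    rfl
  · push Not at hinj
    obtain ⟨x, y, h1, h2, hxy⟩ := hinj
    have h3 : polyt α κ β = 0 := by
      by_contra hc
      exact hxy (col_inj h hc h1 h2)
    have h4 : β ∘ swap x y = β := funext (mem_Stab.1 (swap_mem h2))
    have h5 := sum_Stab_mul_left (swap_mem h1) fun σ => sgn σ • φ (β ∘ σ)
    simp only [sgn_mul, sgn_swap hxy, Perm.coe_mul, ← Function.comp_assoc, h4, neg_mul, one_mul, neg_smul,
      sum_neg_distrib] at h5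
    rw [h3, zero_smul]
    have h6 : (2 : ℂ) • ∑ σ ∈ Stab κ, sgn σ • φ (β ∘ σ) = 0 := by
      rw [two_smul]
      nth_rewrite 1 [← h5]
      exact neg_add_cancel _
    exact (smul_eq_zero.1 h6).resolve_left two_ne_zero

/-- The polytabloid is killed by the raising operators.

Plan.  Fix `β`, `i < j`.  If the term `x0` (`β x0 = i`, `polyt (β[x0 := j]) ≠ 0`) is non-zero then
`β[x0 := j] = α ∘ σ`; the column of `x0` contains the letter `j`, hence (antitone, `h.surj`) also the
letter `i` at some `x1 ≠ x0`, `β x1 = i`.  Any `x` with a non-zero term lies in `{x0, x1}` (words in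
the support of `polyt` are column-injective), and `β[x1 := j] = β[x0 := j] ∘ swap x0 x1`, so the
two terms cancel (`polyt_comp_stab`). -/
theorem Tab.polyt_hw {a : ℕ → ℕ} {α κ : X → ℕ} (h : Tab a α κ) (ha : Antitone a) :
    HW a (polyt α κ) := by
  refine ⟨fun β hβ => ?_, fun i j hij => funext fun β => ?_⟩
  · obtain ⟨σ, -, rfl⟩ := polyt_ne_zero hβ
    exact h.cont.comp σ
  rw [opE_apply, Pi.zero_apply]
  by_contra hne
  obtain ⟨x0, -, h0⟩ := exists_ne_zero_of_sum_ne_zero hne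
  have hx0 : β x0 = i := by
    by_contra hc
    exact h0 (if_neg hc)
  rw [if_pos hx0] at h0
  obtain ⟨σ, hσ, e⟩ := polyt_ne_zero h0
  rw [mem_Stab] at hσ
  have e0 : α (σ x0) = j := by simpa using (congrFun e x0).symm
  obtain ⟨y, y1, y2⟩ := h.surj i (κ x0) (lt_of_lt_of_le (by rw [← hσ x0, ← e0]; exact h.mem _) (ha hij.le))
  obtain ⟨x1, rfl⟩ := σ.surjective y
  rw [hσ] at y2
  have h10 : x1 ≠ x0 := fun hc => by
    rw [hc, e0] at y1
    omega
  have hx1 : β x1 = i := by
    have := congrFun e x1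
    rw [Function.update_of_ne h10] at this
    exact this.trans y1
  refine hne ?_
  rw [sum_eq_add_of_mem x0 x1 (mem_univ _) (mem_univ _) h10.symm, if_pos hx0, if_pos hx1]
  · have : Function.update β x1 j = Function.update β x0 j ∘ Equiv.swap x0 x1 := by
      funext z
      rw [Function.comp_apply, swap_apply_def]
      split_ifs with h1 h2
      · rw [h1, Function.update_of_ne h10.symm, Function.update_of_ne h10, hx0, hx1]
      · rw [h2, Function.update_self, Function.update_self]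
      · rw [Function.update_of_ne h1, Function.update_of_ne h2]
    rw [this, polyt_comp_stab _ _ _ (swap_mem y2.symm), sgn_swap h10.symm]
    ring
  · intro x _ hx
    split_ifs with h1
    · by_contra hc
      refine h10 (col_inj h hc y2 ?_)
      rw [Function.update_of_ne hx.2.symm, Function.update_of_ne hx.1.symm, hx0, hx1]
    · rfl

theorem Eqv.apply_eq {A : Type} {ρ : Representation ℂ (Perm X) V} {f : (X → A) → V}
    (hf : Eqv ρ f) (g : Perm X) (w : X → A) : ρ g (f w) = f (w ∘ g.symm) := by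
  rw [← hf g (w ∘ g.symm)]
  simp [Function.comp_assoc]

theorem alt_eqv {ρ : Representation ℂ (Perm X) V} {f : (X → ℕ) → V} (hf : Eqv ρ f)
    (κ β : X → ℕ) : alt ρ κ (f β) = ∑ σ ∈ Stab κ, sgn σ • f (β ∘ σ) := by
  rw [← sum_Stab_inv κ fun σ => sgn σ • f (β ∘ σ), alt, LinearMap.sum_apply]
  refine sum_congr rfl fun σ _ => ?_
  rw [LinearMap.smul_apply, hf.apply_eq, sgn_inv]
  rfl

theorem symz_eqv {ρ : Representation ℂ (Perm X) V} {f : (X → ℕ) → V} (hf : Eqv ρ f)
    (α : X → ℕ) : symz ρ α (f α) = (#(Stab α) : ℂ) • f α := by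
  rw [symz, LinearMap.sum_apply, Nat.cast_smul_eq_nsmul, ← sum_const]
  refine sum_congr rfl fun σ hσ => ?_
  have : α ∘ σ = α := funext (mem_Stab.1 hσ)
  nth_rewrite 1 [← this]
  exact hf σ α

theorem alt_james {ρ : Representation ℂ (Perm X) V} {f : (X → ℕ) → V} (hf : Eqv ρ f)
    {a : ℕ → ℕ} {α κ β : X → ℕ} (h : Tab a α κ) (ha : Antitone a) (hβ : Cont a β) :
    alt ρ κ (f β) = polyt α κ β • alt ρ κ (f α) := by
  rw [alt_eqv hf, alt_eqv hf, james h ha hβ]

theorem hat_polyt {ρ : Representation ℂ (Perm X) V} {f : (X → ℕ) → V} (hf : Eqv ρ f)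
    {a : ℕ → ℕ} {α κ : X → ℕ} (h : Tab a α κ) : hat a f (polyt α κ) = alt ρ κ (f α) := by
  -- unfold, `Finset.sum_comm`, `α ∘ σ ∈ words X a` by `Tab.cont`, `Cont.comp`
  rw [alt_eqv hf, hat_apply]
  simp only [polyt, sum_smul]
  rw [sum_comm]
  refine sum_congr rfl fun σ _ => ?_
  rw [sum_eq_single_of_mem (α ∘ σ) (mem_words.2 (h.cont.comp σ)), if_pos rfl]
  intro β _ hβ
  rw [if_neg hβ, zero_smul]

/-- `hat a f` is equivariant -/
theorem hat_comp {ρ : Representation ℂ (Perm X) V} {f : (X → ℕ) → V} (hf : Eqv ρ f)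
    (a : ℕ → ℕ) (g : Perm X) (u : (X → ℕ) → ℂ) :
    hat a f (fun β => u (β ∘ g)) = ρ g (hat a f u) := by
  -- reindex the sum over `words X a` by `β ↦ β ∘ g`
  rw [hat_apply, hat_apply, map_sum]
  refine sum_nbij' (fun β => β ∘ g) (fun β => β ∘ g.symm) (fun β hβ => mem_words.2 ((mem_words.1 hβ).comp g))
    (fun β hβ => mem_words.2 ((mem_words.1 hβ).comp g.symm)) (fun β _ => by simp [Function.comp_assoc])
    (fun β _ => by simp [Function.comp_assoc]) fun β _ => ?_
  rw [map_smul, hf g β]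

theorem alt_mul_of_mem (ρ : Representation ℂ (Perm X) V) {κ : X → ℕ} {τ : Perm X}
    (hτ : τ ∈ Stab κ) (v : V) : alt ρ κ (ρ τ v) = sgn τ • alt ρ κ v := by
  simp only [alt, LinearMap.sum_apply, LinearMap.smul_apply]
  rw [← sum_Stab_mul_right hτ fun σ => sgn σ • ρ σ v, smul_sum]
  refine sum_congr rfl fun σ _ => ?_
  rw [smul_smul, sgn_mul, mul_left_comm, sgn_mul_self, mul_one, map_mul]
  rfl

theorem symz_tw (ρ : Representation ℂ (Perm X) V) (κ : X → ℕ) : symz (tw ρ) κ = alt ρ κ := rfl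

theorem tw_tw (ρ : Representation ℂ (Perm X) V) : tw (tw ρ) = ρ := by
  ext g v
  simp [tw_apply, smul_smul]

theorem alt_tw (ρ : Representation ℂ (Perm X) V) (α : X → ℕ) : alt (tw ρ) α = symz ρ α := by
  rw [← symz_tw, tw_tw]

end Crest.Agent.R195
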