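import Crest.Agent.R195.KG

/-!
# Row 195, task Semi: the semigroup property of non-vanishing Kronecker coefficients
-/

set_option autoImplicit false

open Finset Equiv

namespace Crest.Agent.R195

section SemiAux

variable {X X' : Type} [Fintype X] [DecidableEq X] [Fintype X'] [DecidableEq X']

theorem Semi_hw_prod {a a' : ℕ → ℕ} {u : (X → ℕ) → ℂ} {u' : (X' → ℕ) → ℂ} (hu : HW a u)
    (hu' : HW a' u') :
    HW (a + a') fun α : X ⊕ X' → ℕ => u (α ∘ Sum.inl) * u' (α ∘ Sum.inr) := by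
  refine ⟨fun α hα i => ?_, fun i j hij => ?_⟩
  · have h1 := hu.cont _ (left_ne_zero_of_mul hα) i
    have h2 := hu'.cont _ (right_ne_zero_of_mul hα) i
    rw [Finset.card_filter] at h1 h2 ⊢
    rw [Fintype.sum_sum_type, Pi.add_apply, ← h1, ← h2]
    rfl
  · funext α
    have h1 := congrFun (hu.kill i j hij) (α ∘ Sum.inl)
    have h2 := congrFun (hu'.kill i j hij) (α ∘ Sum.inr)
    rw [opE_apply] at h1 h2 ⊢
    rw [Fintype.sum_sum_type]
    have h3 : ∑ x : X, (if α (Sum.inl x) = i then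
        u (Function.update α (Sum.inl x) j ∘ Sum.inl) *
          u' (Function.update α (Sum.inl x) j ∘ Sum.inr) else 0) =
        (∑ x : X, if (α ∘ Sum.inl) x = i then u (Function.update (α ∘ Sum.inl) x j) else 0) *
          u' (α ∘ Sum.inr) := by
      rw [Finset.sum_mul]
      refine Finset.sum_congr rfl fun x _ => ?_
      rw [Sum.update_inl_comp_inl, Sum.update_inl_comp_inr]
      simp only [Function.comp_apply]
      split_ifs <;> simp
    have h4 : ∑ x : X', (if α (Sum.inr x) = i then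
        u (Function.update α (Sum.inr x) j ∘ Sum.inl) *
          u' (Function.update α (Sum.inr x) j ∘ Sum.inr) else 0) =
        u (α ∘ Sum.inl) *
          (∑ x : X', if (α ∘ Sum.inr) x = i then u' (Function.update (α ∘ Sum.inr) x j) else 0) := by
      rw [Finset.mul_sum]
      refine Finset.sum_congr rfl fun x _ => ?_
      rw [Sum.update_inr_comp_inl, Sum.update_inr_comp_inr]
      simp only [Function.comp_apply]
      split_ifs <;> simp
    rw [h3, h4, h1, h2]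
    simp

theorem Semi_hw_avg {a : ℕ → ℕ} (u : Perm X → (X → ℕ) → ℂ) (hu : ∀ g, HW a (u g)) :
    HW a fun α => ∑ g : Perm X, u g (α ∘ g) := by
  have h2 : (fun α : X → ℕ => ∑ g : Perm X, u g (α ∘ g)) =
      ∑ g : Perm X, fun α : X → ℕ => u g (α ∘ g) := by
    funext α
    simp [Finset.sum_apply]
  rw [h2, ← mem_HWs]
  exact Submodule.sum_mem _ fun g _ => HVs_hw_comp (hu g) g

variable {A : Type} [Fintype A] [DecidableEq A]

/-- the monomial of a word -/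
noncomputable def SemiMon (w : X → A) : A →₀ ℕ := ∑ x, Finsupp.single (w x) 1

/-- the generating polynomial of a function of words -/
noncomputable def SemiP (F : (X → A) → ℂ) : MvPolynomial A ℂ :=
  ∑ w : X → A, MvPolynomial.monomial (SemiMon w) (F w)

omit [DecidableEq X] [Fintype A] [DecidableEq A] in
theorem SemiMon_comp (w : X → A) (g : Perm X) : SemiMon (w ∘ g) = SemiMon w :=
  Equiv.sum_comp g fun x => Finsupp.single (w x) 1

omit [DecidableEq X] [Fintype A] in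
theorem SemiMon_eq {w w0 : X → A} (h : SemiMon w = SemiMon w0) : ∃ g : Perm X, w = w0 ∘ g := by
  have h1 : ∀ (v : X → A) (l : A), SemiMon v l = #{x | v x = l} := by
    intro v l
    rw [SemiMon, Finsupp.finsetSum_apply, Finset.card_filter]
    refine Finset.sum_congr rfl fun x _ => ?_
    rw [Finsupp.single_apply]
  have h2 : ∀ l, Fintype.card {x // w x = l} = Fintype.card {x // w0 x = l} := by
    intro l
    rw [Fintype.card_subtype, Fintype.card_subtype, ← h1, ← h1, h]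
  refine ⟨Equiv.ofFiberEquiv fun l => Fintype.equivOfCardEq (h2 l), ?_⟩
  funext x
  exact (Equiv.ofFiberEquiv_map _ x).symm

theorem SemiP_ne {F : (X → A) → ℂ} (hF : ∀ (g : Perm X) w, F (w ∘ g) = F w) {w0 : X → A}
    (h0 : F w0 ≠ 0) : SemiP F ≠ 0 := by
  intro h
  have h1 := congrArg (MvPolynomial.coeff (SemiMon w0)) h
  rw [SemiP, MvPolynomial.coeff_sum, MvPolynomial.coeff_zero] at h1
  simp only [MvPolynomial.coeff_monomial] at h1
  rw [← Finset.sum_filter] at h1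
  have h2 : ∑ w ∈ univ.filter (fun w : X → A => SemiMon w = SemiMon w0), F w =
      ∑ _w ∈ univ.filter (fun w : X → A => SemiMon w = SemiMon w0), F w0 := by
    refine Finset.sum_congr rfl fun w hw => ?_
    obtain ⟨g, rfl⟩ := SemiMon_eq (Finset.mem_filter.1 hw).2
    exact hF g w0
  rw [h2, Finset.sum_const, nsmul_eq_mul] at h1
  refine mul_ne_zero (Nat.cast_ne_zero.2 (Finset.card_ne_zero.2 ⟨w0, ?_⟩)) h0 h1
  simp

omit [DecidableEq A] in
theorem SemiP_mul (F : (X → A) → ℂ) (F' : (X' → A) → ℂ) :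
    SemiP (fun w : X ⊕ X' → A => F (w ∘ Sum.inl) * F' (w ∘ Sum.inr)) = SemiP F * SemiP F' := by
  unfold SemiP
  rw [Finset.sum_mul_sum, ← Fintype.sum_prod_type',
    ← Equiv.sum_comp (Equiv.sumArrowEquivProdArrow X X' A)]
  refine Finset.sum_congr rfl fun w _ => ?_
  rw [MvPolynomial.monomial_mul]
  congr 2
  rw [SemiMon, Fintype.sum_sum_type]
  rfl

omit [DecidableEq A] in
theorem SemiP_avg (F : (X → A) → ℂ) :
    SemiP (fun w => ∑ g : Perm X, F (w ∘ g)) = (Fintype.card (Perm X)) • SemiP F := by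
  unfold SemiP
  simp only [map_sum]
  rw [Finset.sum_comm, ← Finset.card_univ, ← Finset.sum_const]
  refine Finset.sum_congr rfl fun g _ => ?_
  rw [← Equiv.sum_comp (Equiv.arrowCongr g.symm (Equiv.refl A))
    (fun w => MvPolynomial.monomial (SemiMon w) (F w))]
  refine Finset.sum_congr rfl fun w _ => ?_
  have : (Equiv.arrowCongr g.symm (Equiv.refl A)) w = w ∘ g := by
    funext x; simp
  rw [this, SemiMon_comp]

theorem Semi_ne {F : (X → A) → ℂ} (hF : ∀ (g : Perm X) w, F (w ∘ g) = F w) {w0 : X → A}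
    (h0 : F w0 ≠ 0) {F' : (X' → A) → ℂ} (hF' : ∀ (g : Perm X') w, F' (w ∘ g) = F' w)
    {w0' : X' → A} (h0' : F' w0' ≠ 0) :
    ∃ w : X ⊕ X' → A,
      ∑ g : Perm (X ⊕ X'), F ((w ∘ g) ∘ Sum.inl) * F' ((w ∘ g) ∘ Sum.inr) ≠ 0 := by
  by_contra h
  push Not at h
  have h1 := SemiP_avg (fun w : X ⊕ X' → A => F (w ∘ Sum.inl) * F' (w ∘ Sum.inr))
  rw [SemiP_mul] at h1
  simp only [h] at h1
  have h2 : SemiP (fun _ : X ⊕ X' → A => (0 : ℂ)) = 0 := by simp [SemiP]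
  rw [h2, nsmul_eq_mul] at h1
  exact mul_ne_zero (Nat.cast_ne_zero.2 Fintype.card_ne_zero)
    (mul_ne_zero (SemiP_ne hF h0) (SemiP_ne hF' h0')) h1.symm

theorem Semi_GX {a b c a' b' c' : ℕ → ℕ} (h : GX X a b c) (h' : GX X' a' b' c') :
    GX (X ⊕ X') (a + a') (b + b') (c + c') := by
  obtain ⟨T, hT0, hT⟩ := h
  obtain ⟨T', hT0', hT'⟩ := h'
  refine ⟨fun α β γ => ∑ g : Perm (X ⊕ X'),
    T ((α ∘ g) ∘ Sum.inl) ((β ∘ g) ∘ Sum.inl) ((γ ∘ g) ∘ Sum.inl) *
      T' ((α ∘ g) ∘ Sum.inr) ((β ∘ g) ∘ Sum.inr) ((γ ∘ g) ∘ Sum.inr), ?_, ?_, ?_, ?_, ?_⟩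
  · obtain ⟨α0, h1⟩ := Function.ne_iff.1 hT0
    obtain ⟨β0, h2⟩ := Function.ne_iff.1 h1
    obtain ⟨γ0, h3⟩ := Function.ne_iff.1 h2
    obtain ⟨α1, h4⟩ := Function.ne_iff.1 hT0'
    obtain ⟨β1, h5⟩ := Function.ne_iff.1 h4
    obtain ⟨γ1, h6⟩ := Function.ne_iff.1 h5
    obtain ⟨w, hw⟩ := Semi_ne (A := X ⊕ X')
      (F := fun v => T (Sum.elim α0 α1 ∘ v) (Sum.elim β0 β1 ∘ v) (Sum.elim γ0 γ1 ∘ v))
      (fun g v => hT.inv g (Sum.elim α0 α1 ∘ v) (Sum.elim β0 β1 ∘ v) (Sum.elim γ0 γ1 ∘ v))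
      (w0 := Sum.inl) h3
      (F' := fun v => T' (Sum.elim α0 α1 ∘ v) (Sum.elim β0 β1 ∘ v) (Sum.elim γ0 γ1 ∘ v))
      (fun g v => hT'.inv g (Sum.elim α0 α1 ∘ v) (Sum.elim β0 β1 ∘ v) (Sum.elim γ0 γ1 ∘ v))
      (w0' := Sum.inr) h6
    intro h0
    exact hw (congrFun (congrFun (congrFun h0 (Sum.elim α0 α1 ∘ w)) (Sum.elim β0 β1 ∘ w))
      (Sum.elim γ0 γ1 ∘ w))
  · intro h α β γ
    rw [← Equiv.sum_comp (Equiv.mulLeft h) (fun g : Perm (X ⊕ X') =>
      T ((α ∘ g) ∘ Sum.inl) ((β ∘ g) ∘ Sum.inl) ((γ ∘ g) ∘ Sum.inl) *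
        T' ((α ∘ g) ∘ Sum.inr) ((β ∘ g) ∘ Sum.inr) ((γ ∘ g) ∘ Sum.inr))]
    rfl
  · intro β γ
    exact Semi_hw_avg (fun g α => T (α ∘ Sum.inl) ((β ∘ g) ∘ Sum.inl) ((γ ∘ g) ∘ Sum.inl) *
      T' (α ∘ Sum.inr) ((β ∘ g) ∘ Sum.inr) ((γ ∘ g) ∘ Sum.inr))
      fun g => Semi_hw_prod (hT.h1 _ _) (hT'.h1 _ _)
  · intro α γ
    exact Semi_hw_avg (fun g β => T ((α ∘ g) ∘ Sum.inl) (β ∘ Sum.inl) ((γ ∘ g) ∘ Sum.inl) *
      T' ((α ∘ g) ∘ Sum.inr) (β ∘ Sum.inr) ((γ ∘ g) ∘ Sum.inr))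
      fun g => Semi_hw_prod (hT.h2 _ _) (hT'.h2 _ _)
  · intro α β
    exact Semi_hw_avg (fun g γ => T ((α ∘ g) ∘ Sum.inl) ((β ∘ g) ∘ Sum.inl) (γ ∘ Sum.inl) *
      T' ((α ∘ g) ∘ Sum.inr) ((β ∘ g) ∘ Sum.inr) (γ ∘ Sum.inr))
      fun g => Semi_hw_prod (hT.h3 _ _) (hT'.h3 _ _)

end SemiAux

/-- **Semigroup property.**

Plan.  Let `T` on `X`, `T'` on `X'` (`X = Fin n`, `X' = Fin n'`), `Y = X ⊕ X'`.
`T0 α β γ = T (α∘inl) (β∘inl) (γ∘inl) * T' (α∘inr) (β∘inr) (γ∘inr)` is `HW` in each variable with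
contents added (`opE_apply`, `Fintype.sum_sum_type`, `Function.update` commutes with `∘ inl`,
`∘ inr`), `T'' α β γ = ∑ g : Perm Y, T0 (α∘g) (β∘g) (γ∘g)` is invariant and `HW`
(`HW.transport`/`HW.funRep`, `HWs` is a submodule).
Non-vanishing: for `T` on `X` with finite support put
`P T = ∑ (α,β,γ) ∈ words ×ˢ words ×ˢ words, C (T α β γ) * ∏ x, X (α x, β x, γ x)` in
`MvPolynomial (ℕ × ℕ × ℕ) ℂ`.  For invariant `T ≠ 0`, `P T ≠ 0`: the coefficient of the monomial of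
a triple `(α0,β0,γ0)` is `T α0 β0 γ0` times a positive integer, since two maps `X → ℕ×ℕ×ℕ` with the
same monomial differ by a permutation (`Equiv.ofFiberEquiv`).  `P T0 = P T * P T'` (words on
`X ⊕ X'` = pairs of words; sum over any big enough finite sets), `P T'' = (card (Perm Y)) • P T0`,
and `MvPolynomial` is a domain.  It is convenient to use one function `w : X → ℕ × ℕ × ℕ` instead of
three, and sums over `Fintype.piFinset fun _ => A` for a finite set `A` of letters. -/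
theorem G.add {a b c a' b' c' : ℕ → ℕ} (h : G a b c) (h' : G a' b' c') :
    G (a + a') (b + b') (c + c') := by
  obtain ⟨n, h⟩ := h
  obtain ⟨n', h'⟩ := h'
  exact (Semi_GX h h').toG

end Crest.Agent.R195
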