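import Crest.Agent.R195.P2
import Crest.Agent.R195.Semi
import Crest.Agent.R195.Enum

/-!
# Row 195: list-level derivation rules
-/

set_option autoImplicit false

open Finset

namespace Crest.Agent.R195

theorem GG.swap12 {a b c : List ℕ} (h : GG a b c) : GG b a c := G.swap12 h
theorem GG.swap23 {a b c : List ℕ} (h : GG a b c) : GG a c b := G.swap23 h

theorem GG.tw12 {a b c : List ℕ} (h : GG a b c) : GG (conjL a) (conjL b) c := by
  obtain ⟨n, ha, hb, -⟩ := G.isPar h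
  exact G.tw h (isConj_ofL ha.anti) (isConj_ofL hb.anti)

/-- conjugate two of the three entries -/
def twT (m : ℕ) (t : List ℕ × List ℕ × List ℕ) : List ℕ × List ℕ × List ℕ :=
  match m with
  | 0 => t
  | 1 => (conjL t.1, conjL t.2.1, t.2.2)
  | 2 => (conjL t.1, t.2.1, conjL t.2.2)
  | _ => (t.1, conjL t.2.1, conjL t.2.2)

/-- permute the three entries -/
def pmT (p : ℕ) (t : List ℕ × List ℕ × List ℕ) : List ℕ × List ℕ × List ℕ :=
  match p with
  | 0 => t
  | 1 => (t.1, t.2.2, t.2.1)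
  | 2 => (t.2.1, t.1, t.2.2)
  | 3 => (t.2.1, t.2.2, t.1)
  | 4 => (t.2.2, t.1, t.2.1)
  | _ => (t.2.2, t.2.1, t.1)

def GT (t : List ℕ × List ℕ × List ℕ) : Prop := GG t.1 t.2.1 t.2.2

theorem GT.tw {t : List ℕ × List ℕ × List ℕ} (h : GT t) (m : ℕ) : GT (twT m t) := by
  obtain ⟨a, b, c⟩ := t
  have h' : GG a b c := h
  match m with
  | 0 => exact h
  | 1 => exact h'.tw12
  | 2 => exact h'.swap23.tw12.swap23
  | _ + 3 => exact h'.swap12.swap23.tw12.swap23.swap12

theorem GT.pm {t : List ℕ × List ℕ × List ℕ} (h : GT t) (p : ℕ) : GT (pmT p t) := by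
  obtain ⟨a, b, c⟩ := t
  have h' : GG a b c := h
  match p with
  | 0 => exact h
  | 1 => exact h'.swap23
  | 2 => exact h'.swap12
  | 3 => exact h'.swap12.swap23
  | 4 => exact h'.swap23.swap12
  | _ + 5 => exact h'.swap12.swap23.swap12

theorem GG.var {a b c a' b' c' : List ℕ} (h : GG a b c) (m p : ℕ)
    (e : pmT p (twT m (a, b, c)) = (a', b', c')) : GG a' b' c' := by
  have := (GT.tw (t := (a, b, c)) h m).pm p
  rw [e] at this
  exact this

theorem GG.sg {a b c a' b' c' A B C : List ℕ} (h : GG a b c) (h' : GG a' b' c')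
    (e : (addL a a', addL b b', addL c c') = (A, B, C)) : GG A B C := by
  simp only [Prod.mk.injEq] at e
  obtain ⟨rfl, rfl, rfl⟩ := e
  unfold GG
  simp only [ofL_addL]
  exact G.add h h'

theorem GG.m1 {a b cb A B c : List ℕ} (k n : ℕ) (h : GG a b cb)
    (e : (lcondL 1 k a b && parL cb n && parL c (n + k) && interL cb c &&
      decide (addL a (List.replicate k 1) = A) && decide (addL b (List.replicate k 1) = B)) = true) :
    GG A B c := by
  simp only [Bool.and_eq_true, decide_eq_true_eq] at e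
  obtain ⟨⟨⟨⟨⟨e1, e2⟩, e3⟩, e4⟩, rfl⟩, rfl⟩ := e
  unfold GG
  simp only [ofL_addL, ofL_replicate]
  exact M1 h (lcond_ofL e1) (isPar_ofL e2) (isPar_ofL e3) (inter_ofL e4)

theorem Full.gg {a c : List ℕ} {n : ℕ} (h : Full (ofL a) n) (e : parL c n = true) : GG a a c :=
  h _ (isPar_ofL e)

theorem full_nil : Full (ofL []) 0 := by
  rw [ofL_nil]; exact full_zero

theorem G.of_conj {mu lam lam' : ℕ → ℕ} (hs : IsConj mu mu) (hc : IsConj lam lam')
    (h : G mu mu lam') : G mu mu lam :=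
  (h.swap23.swap12.tw hc.symm hs).swap12.swap23

theorem isConj_self_ofL {l : List ℕ} (h : sortedL l = true) (e : conjL l = l) :
    IsConj (ofL l) (ofL l) := by
  have := isConj_ofL (anti_ofL h)
  rwa [e] at this

theorem full_of_en {mu : List ℕ} {n k e : ℕ} {h1 h2 : Bool} {left : List (List ℕ)}
    (hs : IsConj (ofL mu) (ofL mu))
    (H1 : h1 = true → ∀ lam, IsPar lam n → 2 * k - 1 ≤ lam 0 + lam 1 → G (ofL mu) (ofL mu) lam)
    (H2 : h2 = true → ∀ lam, IsPar lam n → Q2 e (k - e) (k - e - 2) lam → G (ofL mu) (ofL mu) lam)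
    (H : en (quick h1 h2 k e) h1 left (n + 1) [] n n (2 * k - 2) = true) (hA : AllG mu left) :
    Full (ofL mu) n := by
  have key : ∀ lam, IsPar lam n → Cov (quick h1 h2 k e) lam → G (ofL mu) (ofL mu) lam := by
    intro lam hl hc
    rcases hc.quick with ⟨h, h'⟩ | ⟨h, h'⟩
    · exact H1 h lam hl h'
    · exact H2 h lam hl h'
  intro lam hl
  obtain ⟨lam', hc⟩ := hl.exists_conj
  rcases en_sound _ h1 k n left (fun h L hL => by simp [quick, h, hL]) H hl hc with
    h | h | ⟨l, hm, h | h⟩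
  · exact key lam hl h
  · exact G.of_conj hs hc (key lam' (hl.conj hc) h)
  · exact h ▸ hA l hm
  · exact G.of_conj hs hc (h ▸ hA l hm)

theorem full0 {mu : List ℕ} {n : ℕ} {left : List (List ℕ)} (hA : AllG mu left)
    (e : (sortedL mu && decide (conjL mu = mu) &&
      en (quick false false 0 0) false left (n + 1) [] n n (2 * 0 - 2)) = true) :
    Full (ofL mu) n := by
  simp only [Bool.and_eq_true, decide_eq_true_eq] at e
  obtain ⟨⟨e1, e2⟩, e3⟩ := e
  exact full_of_en (isConj_self_ofL e1 e2) (fun h => absurd h (by simp))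
    (fun h => absurd h (by simp)) e3 hA

/-- side conditions of rule P1 -/
def chk1 (mu a : List ℕ) (n m k : ℕ) : Bool :=
  sortedL mu && decide (conjL mu = mu) && sortedL a && decide (conjL a = a) && decide (1 ≤ k) &&
    lcondL 1 (k - 1) a a && lcondL 1 k ((k - 1) :: a) ((k - 1) :: a) && decide (wrapL k a = mu) &&
    decide (m + (2 * k - 1) = n)

theorem chk1_sound {mu a : List ℕ} {n m k : ℕ} (F : Full (ofL a) m) (e : chk1 mu a n m k = true) :
    IsConj (ofL mu) (ofL mu) ∧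
      ∀ lam, IsPar lam n → 2 * k - 1 ≤ lam 0 + lam 1 → G (ofL mu) (ofL mu) lam := by
  simp only [chk1, Bool.and_eq_true, decide_eq_true_eq] at e
  obtain ⟨⟨⟨⟨⟨⟨⟨⟨e1, e2⟩, e3⟩, e4⟩, e5⟩, e6⟩, e7⟩, e8⟩, rfl⟩ := e
  refine ⟨isConj_self_ofL e1 e2, fun lam hl hq => ?_⟩
  have h7 := lcond_ofL e7
  rw [ofL_cons] at h7
  rw [← e8, ofL_wrapL]
  exact P1 e5 (isConj_self_ofL e3 e4) F (lcond_ofL e6) h7 hl hq

theorem full1 {mu a : List ℕ} {n m : ℕ} (k : ℕ) {left : List (List ℕ)} (F : Full (ofL a) m)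
    (hA : AllG mu left)
    (e : (chk1 mu a n m k &&
      en (quick true false k 0) true left (n + 1) [] n n (2 * k - 2)) = true) :
    Full (ofL mu) n := by
  simp only [Bool.and_eq_true] at e
  obtain ⟨hs, h1⟩ := chk1_sound F e.1
  exact full_of_en hs (fun _ => h1) (fun h => absurd h (by simp)) e.2 hA

/-- side conditions of rule P2 -/
def chk2 (mu a : List ℕ) (n m k' e : ℕ) : Bool :=
  sortedL a && decide (conjL a = a) && decide (1 ≤ k') && decide (e = 1 ∨ e = 2) &&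
    lcondL 4 (k' - 1) a a &&
    lcondL 4 (k' + 1) ((k' - 1 + e) :: (k' - 1) :: a) ((k' - 1 + e) :: (k' - 1) :: a) &&
    decide (wrapL (k' + 1 + e) (wrapL k' a) = mu) &&
    decide (m + (2 * k' - 1) + (2 * (k' + 1 + e) - 1) = n)

theorem full2 {mu a1 a2 : List ℕ} {n m1 m2 : ℕ} (k' e : ℕ) {left : List (List ℕ)}
    (F1 : Full (ofL a1) m1) (F2 : Full (ofL a2) m2) (hA : AllG mu left)
    (h : (chk1 mu a1 n m1 (k' + 1 + e) && chk2 mu a2 n m2 k' e &&
      en (quick true true (k' + 1 + e) e) true left (n + 1) [] n n (2 * (k' + 1 + e) - 2)) = true) :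
    Full (ofL mu) n := by
  simp only [Bool.and_eq_true] at h
  obtain ⟨⟨c1, c2⟩, c3⟩ := h
  obtain ⟨hs, h1⟩ := chk1_sound F1 c1
  refine full_of_en hs (fun _ => h1) (fun _ lam hl hq => ?_) c3 hA
  simp only [chk2, Bool.and_eq_true, decide_eq_true_eq] at c2
  obtain ⟨⟨⟨⟨⟨⟨⟨e1, e2⟩, e3⟩, e4⟩, e5⟩, e6⟩, e7⟩, rfl⟩ := c2
  have h6 := lcond_ofL e6
  rw [ofL_cons, ofL_cons] at h6
  rw [← e7, ofL_wrapL, ofL_wrapL]
  refine P2 e4 e3 (isConj_self_ofL e1 e2) F2 (lcond_ofL e5) h6 hl ?_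
  have q1 : k' + 1 + e - e = k' + 1 := by omega
  have q2 : k' + 1 - 2 = k' - 1 := by omega
  rwa [q1, q2] at hq

end Crest.Agent.R195
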