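import Crest.Agent.R195.KG
import Crest.Prelude.Def_SpechtModule

/-!
# Row 195, task Spec: the Specht module of the Prelude has a highest weight function
-/

set_option autoImplicit false

open Finset Equiv Crest.AlgebraR.Specht

namespace Crest.Agent.R195

theorem card_staircase (m : ℕ) : (staircaseShape m).card = tri m := by
  -- `staircaseShape m = cells (stair m) (tri m)` (`mem_cells`, `isPar_stair`), `card_cells`
  rw [← card_cells (isPar_stair m)]
  congr 1
  ext p
  rw [mem_cells (isPar_stair m)]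
  simp only [staircaseShape, Finset.mem_filter, Finset.mem_product, Finset.mem_range, stair]
  omega

/-- Take any tableau `t : D ≃ Fin D.card` (`D.equivFin`), `α = rowWord t`, `κ i = (t.symm i).1.2`;
then `Tab a α κ`, `columnGroup t = Stab κ`.  Let `w = ⟨polytabloid t, _⟩ ∈ spechtSubrep D`.
`HV.of_symz_alt`: the coefficient of `α` in `symz α (alt κ w)` is
`∑ r ∈ Stab α, ∑ σ ∈ Stab κ, ∑ τ ∈ Stab κ, sgn σ * sgn τ * [(r σ τ) • α = α]`; the condition forces
`σ τ = 1` (`Tab.inj`), so it equals `#(Stab α) * #(Stab κ) ≠ 0`. -/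
theorem HV_specht (D : Finset (ℕ × ℕ)) {a : ℕ → ℕ} (ha : Antitone a)
    (hD : ∀ p : ℕ × ℕ, p ∈ D ↔ p.2 < a p.1) : HV (V := (spechtSubrep D).toSubmodule) (spechtRep D) a := by
  classical
  let t : D ≃ Fin D.card := D.equivFin
  let α : Fin D.card → ℕ := rowWord t
  let κ : Fin D.card → ℕ := fun i => (t.symm i).1.2
  have hT : Tab a α κ := by
    refine ⟨fun x => (hD _).1 (t.symm x).2, fun x y h1 h2 => ?_, fun i j hij => ?_⟩
    · exact t.symm.injective (Subtype.ext (Prod.ext h1 h2))
    · exact ⟨t ⟨(i, j), (hD _).2 hij⟩, by simp [α, rowWord], by simp [κ]⟩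
  have hcol : columnGroup t = Stab κ := by
    ext σ
    simp only [columnGroup, mem_Stab, Finset.mem_filter, Finset.mem_univ, true_and, κ]
  have hmem : polytabloid t ∈ (spechtSubrep D).toSubmodule :=
    Submodule.mem_sInf.2 fun p hp => hp.1 ⟨t, rfl⟩
  refine HV.of_symz_alt hT ha (w := ⟨polytabloid t, hmem⟩) fun h0 => ?_
  have hact : ∀ (g : Perm (Fin D.card)) (v : (spechtSubrep D).toSubmodule),
      (spechtRep D g v).1 = rowWordRep D.card g v.1 := fun _ _ => rfl
  have hiff : ∀ r ∈ Stab α, ∀ σ ∈ Stab κ, ∀ τ ∈ Stab κ,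
      (r • σ • τ • rowWord t = rowWord t ↔ τ = σ⁻¹) := by
    intro r hr σ hσ τ hτ
    rw [mem_Stab] at hr hσ hτ
    constructor
    · intro h
      refine eq_inv_of_mul_eq_one_right (Equiv.ext fun x => ?_)
      have h1 : α (τ.symm (σ.symm (r.symm (r (σ (τ x)))))) = α (r (σ (τ x))) :=
        congrFun h (r (σ (τ x)))
      simp only [Equiv.symm_apply_apply, hr] at h1
      exact hT.inj _ _ h1.symm ((hσ _).trans (hτ _))
    · rintro rfl
      rw [smul_inv_smul]
      funext i
      have := hr (r.symm i)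
      rw [Equiv.apply_symm_apply] at this
      exact this.symm
  have hco : ∀ r ∈ Stab α, ∀ σ ∈ Stab κ,
      rowWordRep D.card r (rowWordRep D.card σ (polytabloid t)) (rowWord t) = sgn σ := by
    intro r hr σ hσ
    simp only [polytabloid, map_sum, map_smul, hcol, rowWordRep, MonoidHom.coe_mk, OneHom.coe_mk,
      Finsupp.lmapDomain_apply, Finsupp.mapDomain_single, Finsupp.coe_finsetSum, Finset.sum_apply,
      Finsupp.smul_apply, Finsupp.single_apply, smul_eq_mul]
    rw [Finset.sum_eq_single σ⁻¹]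
    · rw [if_pos ((hiff r hr σ hσ _ (inv_mem_Stab hσ)).2 rfl), mul_one]
      exact sgn_inv σ
    · intro τ hτ hne
      rw [if_neg fun h => hne ((hiff r hr σ hσ τ hτ).1 h), mul_zero]
    · intro h
      exact absurd (inv_mem_Stab hσ) h
  have h1 := congrArg (fun v : (spechtSubrep D).toSubmodule => v.1 (rowWord t)) h0
  simp only [symz, alt, LinearMap.sum_apply, LinearMap.smul_apply, map_sum, map_smul,
    Submodule.coe_sum, Submodule.coe_smul, hact, Finsupp.coe_finsetSum, Finset.sum_apply,
    Finsupp.smul_apply, smul_eq_mul, Submodule.coe_zero, Finsupp.zero_apply,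
    Finset.mul_sum] at h1
  rw [Finset.sum_congr rfl fun σ hσ => Finset.sum_congr rfl fun r hr => by
    rw [hco r hr σ hσ, sgn_mul_self]] at h1
  simp only [Finset.sum_const, nsmul_eq_mul, mul_one, mul_eq_zero, Nat.cast_eq_zero,
    Finset.card_eq_zero] at h1
  rcases h1 with h1 | h1
  · exact absurd (h1 ▸ one_mem_Stab κ) (Finset.notMem_empty _)
  · exact absurd (h1 ▸ one_mem_Stab α) (Finset.notMem_empty _)

theorem HV_staircase (m : ℕ) :
    HV (V := (spechtSubrep (staircaseShape m)).toSubmodule) (spechtRep (staircaseShape m))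
      (stair m) := by
  refine HV_specht _ (isPar_stair m).anti fun p => ?_
  simp only [staircaseShape, Finset.mem_filter, Finset.mem_product, Finset.mem_range, stair]
  omega

end Crest.Agent.R195
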