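import Crest.Agent.R195.Lattice
import Crest.Agent.R195.Polyt

/-!
# Row 195, task Straight: straightening and its consequences
-/

set_option autoImplicit false
set_option linter.unusedSectionVars false

open Finset Equiv

namespace Crest.Agent.R195

variable {X : Type} [Fintype X] [DecidableEq X] {V : Type} [AddCommGroup V] [Module ℂ V]

/-- rank inside the row -/
def strRank (key α : X → ℕ) (x : X) : ℕ := #{y | α y = α x ∧ key x < key y}

theorem strRank_lt {key α : X → ℕ} {x y : X} (h : α x = α y) (hk : key x < key y) :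
    strRank key α y < strRank key α x := by
  refine Finset.card_lt_card ⟨fun z hz => ?_, fun hs => ?_⟩
  · simp only [Finset.mem_filter, Finset.mem_univ, true_and] at hz ⊢
    exact ⟨hz.1.trans h.symm, hk.trans hz.2⟩
  · have := hs (Finset.mem_filter.2 ⟨Finset.mem_univ y, h.symm, hk⟩)
    simp at this

theorem str_tab {a : ℕ → ℕ} {key α : X → ℕ} (hk : Function.Injective key) (hα : Cont a α) :
    Tab a α (strRank key α) := by
  have hmem : ∀ x, strRank key α x < a (α x) := by
    intro x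
    rw [← hα (α x)]
    refine Finset.card_lt_card ⟨fun z hz => ?_, fun hs => ?_⟩
    · simp only [Finset.mem_filter, Finset.mem_univ, true_and] at hz ⊢
      exact hz.1
    · have := hs (Finset.mem_filter.2 ⟨Finset.mem_univ x, rfl⟩)
      simp at this
  have hinj : ∀ x y, α x = α y → strRank key α x = strRank key α y → x = y := by
    intro x y h1 h2
    rcases lt_trichotomy (key x) (key y) with h | h | h
    · exact absurd h2 (strRank_lt h1 h).ne'
    · exact hk h
    · exact absurd h2 (strRank_lt h1.symm h).ne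
  refine ⟨hmem, hinj, fun i j hj => ?_⟩
  have h := Finset.surjOn_of_injOn_of_card_le (s := {x | α x = i}) (t := range (a i)) (strRank key α)
    (fun x hx => by
      have h1 : α x = i := by simpa using hx
      simpa [← h1] using hmem x)
    (fun x hx y hy h => hinj x y (by
      have h1 : α x = i := by simpa using hx
      have h2 : α y = i := by simpa using hy
      rw [h1, h2]) h)
    (by rw [Finset.card_range, hα i])
  obtain ⟨x, hx, hj'⟩ := h (Finset.mem_coe.2 (Finset.mem_range.2 hj))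
  exact ⟨x, by simpa using hx, hj'⟩

/-- lexicographic weight -/
def strW (N : ℕ) (key α : X → ℕ) : ℤ := ∑ x, (α x : ℤ) * (N : ℤ) ^ key x

theorem strW_lt {N : ℕ} {key α β : X → ℕ} (hk : Function.Injective key) (hN : ∑ y, α y < N) {x : X}
    (hx : α x < β x) (hy : ∀ y, key x < key y → β y = α y) : strW N key α < strW N key β := by
  have hN1 : (1 : ℤ) ≤ N := by exact_mod_cast (show 1 ≤ N by omega)
  have hc : (0 : ℤ) < (N : ℤ) ^ key x := by positivity
  have h1 : ∀ y, N * ((α y : ℤ) * (N : ℤ) ^ key y) + (if y = x then N * (N : ℤ) ^ key x else 0) ≤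
      N * ((β y : ℤ) * (N : ℤ) ^ key y) + α y * (N : ℤ) ^ key x := by
    intro y
    rcases lt_trichotomy (key x) (key y) with h | h | h
    · rw [hy y h, if_neg fun h' => by simp [h'] at h]
      have : (0 : ℤ) ≤ α y * (N : ℤ) ^ key x := by positivity
      linarith
    · obtain rfl := hk h
      rw [if_pos rfl]
      have h2 : (α x : ℤ) + 1 ≤ β x := by exact_mod_cast hx
      have h3 := mul_le_mul_of_nonneg_right h2 (show (0 : ℤ) ≤ N * (N : ℤ) ^ key x by positivity)
      have : (0 : ℤ) ≤ α x * (N : ℤ) ^ key x := by positivity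
      linarith
    · rw [if_neg fun h' => by simp [h'] at h]
      have h2 : (N : ℤ) ^ (key y + 1) ≤ (N : ℤ) ^ key x := pow_le_pow_right₀ hN1 h
      have h3 := mul_le_mul_of_nonneg_left h2 (show (0 : ℤ) ≤ α y by positivity)
      have : (0 : ℤ) ≤ N * ((β y : ℤ) * (N : ℤ) ^ key y) := by positivity
      rw [pow_succ] at h3
      linarith
  have h2 := Finset.sum_le_sum (s := Finset.univ) fun y _ => h1 y
  rw [Finset.sum_add_distrib, Finset.sum_add_distrib, ← Finset.mul_sum, ← Finset.mul_sum,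
    ← Finset.sum_mul, Finset.sum_ite_eq' , if_pos (Finset.mem_univ _)] at h2
  have h3 : ∑ y, (α y : ℤ) < N := by exact_mod_cast hN
  have h4 := mul_lt_mul_of_pos_right h3 hc
  unfold strW
  refine lt_of_mul_lt_mul_left (a := (N : ℤ)) ?_ (by linarith)
  linarith

theorem str_col {a : ℕ → ℕ} {u : (X → ℕ) → V} (hu : HW a u) {N : ℕ} (hN : 2 ≤ N) {key α : X → ℕ}
    (hk : Function.Injective key) (hα : u α ≠ 0)
    (hmin : ∀ β, u β ≠ 0 → strW N key α ≤ strW N key β) {x y : X}
    (h1 : strRank key α x = strRank key α y) (h2 : α x < α y) : key y < key x := by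
  have h := lattice hu key (fun i r => (i : ℤ) * (N : ℤ) ^ r) (fun i j r r' hij hr => by
    have h3 : (i : ℤ) < j := by exact_mod_cast hij
    have h4 : (N : ℤ) ^ r < (N : ℤ) ^ r' := pow_lt_pow_right₀ (by exact_mod_cast hN) hr
    nlinarith [mul_pos (sub_pos.2 h3) (sub_pos.2 h4)]) hα hmin h2 (key y)
  by_contra h3
  have h4 : key x < key y := lt_of_le_of_ne (not_lt.1 h3) fun h5 => by
    rw [hk h5] at h2
    exact lt_irrefl _ h2
  have h5 : strRank key α y < #{z | α z = α y ∧ key y ≤ key z} := by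
    refine Finset.card_lt_card ⟨fun z hz => ?_, fun hs => ?_⟩
    · simp only [Finset.mem_filter, Finset.mem_univ, true_and] at hz ⊢
      exact ⟨hz.1, hz.2.le⟩
    · have := hs (Finset.mem_filter.2 ⟨Finset.mem_univ y, rfl, le_rfl⟩)
      simp at this
  have h6 : #{z | α z = α x ∧ key y ≤ key z} ≤ strRank key α x := by
    refine Finset.card_le_card fun z hz => ?_
    simp only [Finset.mem_filter, Finset.mem_univ, true_and] at hz ⊢
    exact ⟨hz.1, h4.trans_le hz.2⟩
  omega

theorem str_lt {a : ℕ → ℕ} {N : ℕ} {key α κ : X → ℕ} (hk : Function.Injective key) (hT : Tab a α κ)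
    (hN : ∑ y, α y < N) (hcol : ∀ x y, κ x = κ y → α x < α y → key y < key x) {σ : Perm X}
    (hσ : σ ∈ Stab κ) (hne : α ∘ σ ≠ α) : strW N key α < strW N key (α ∘ σ) := by
  rw [mem_Stab] at hσ
  obtain ⟨x0, hx0⟩ := Function.ne_iff.1 hne
  obtain ⟨x, hx, hmax⟩ := Finset.exists_max_image ({y | α (σ y) ≠ α y} : Finset X) key
    ⟨x0, Finset.mem_filter.2 ⟨Finset.mem_univ _, hx0⟩⟩
  have hx' : α (σ x) ≠ α x := (Finset.mem_filter.1 hx).2
  have hy : ∀ y, key x < key y → α (σ y) = α y := fun y h => by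
    by_contra h1
    exact absurd (hmax y (Finset.mem_filter.2 ⟨Finset.mem_univ _, h1⟩)) (not_le.2 h)
  refine strW_lt hk hN (x := x) (lt_of_le_of_ne (not_lt.1 fun h => hx' ?_) hx'.symm) hy
  have h1 := hT.inj _ _ (hy _ (hcol _ _ (hσ x) h)) (hσ _)
  rw [σ.injective h1]

/-- **Straightening**: scalar highest weight functions are spanned by polytabloids.

Plan.  Fix an injective `key : X → ℕ` (`Fintype.equivFin`), weight `W α = ∑ x, α x * key x`.
(1) If `α` minimises `W` on the support of a `HW a` function `u`, put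
`κ x = #{y | α y = α x ∧ key x < key y}`.  Then `Tab a α κ` (rank inside the row), and by `lattice`
(`ω i r = i * r`, `t = key y`): `κ x = κ y → α x < α y → key y < key x`.
(2) For `σ ∈ Stab κ` with `α ∘ σ ≠ α`: `W α < W (α ∘ σ)`.  (Rearrangement inequality in each column,
e.g. `Antivary.sum_mul_lt_sum_comp_perm_mul_iff`/`AntivaryOn` applied to the globally antivarying
integer functions `α + M κ` and `key - M κ`, `M` large; the extra terms cancel because `κ σ = κ`.
One may also use a lexicographic weight `ω i r = i * N ^ r` instead.)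
(3) Downward induction on `m`: every `HW a` function supported on `W ≥ m` lies in the span
(`W` is bounded on the finite set `words X a`): subtract `∑ u α • polyt α κ_α` over the support
words with `W α = m` (`Tab.polyt_self`, `polyt_ne_zero`, `Tab.polyt_hw`, `HWs` is a submodule). -/
theorem straighten {a : ℕ → ℕ} {u : (X → ℕ) → ℂ} (hu : HW a u) :
    u ∈ Submodule.span ℂ {p : (X → ℕ) → ℂ | ∃ α κ, Tab a α κ ∧ p = polyt α κ} := by
  classical
  obtain ⟨key, hk⟩ : ∃ key : X → ℕ, Function.Injective key :=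
    ⟨fun x => (Fintype.equivFin X x : ℕ), fun x y h => (Fintype.equivFin X).injective (Fin.ext h)⟩
  set N := 2 + ∑ β ∈ words X a, ∑ y, β y with hN
  set T : ((X → ℕ) → ℂ) → Finset (X → ℕ) := fun v =>
    {β ∈ words X a | v β ≠ 0 ∨ ∃ γ, v γ ≠ 0 ∧ strW N key γ < strW N key β} with hT
  induction hn : #(T u) using Nat.strong_induction_on generalizing u with
  | _ n ih =>
  by_cases h0 : u = 0
  · rw [h0]
    exact Submodule.zero_mem _
  obtain ⟨α0, hα0⟩ := Function.ne_iff.1 h0
  obtain ⟨α, hα, hmin⟩ := Finset.exists_min_image {β ∈ words X a | u β ≠ 0} (strW N key)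
    ⟨α0, Finset.mem_filter.2 ⟨mem_words.2 (hu.cont _ hα0), hα0⟩⟩
  obtain ⟨hαw, hαu⟩ := Finset.mem_filter.1 hα
  have hmin' : ∀ β, u β ≠ 0 → strW N key α ≤ strW N key β := fun β hβ =>
    hmin β (Finset.mem_filter.2 ⟨mem_words.2 (hu.cont _ hβ), hβ⟩)
  have hTab := str_tab hk (hu.cont α hαu)
  have hNα : ∑ y, α y < N := by
    have := Finset.single_le_sum (f := fun β : X → ℕ => ∑ y, β y) (fun _ _ => Nat.zero_le _) hαw
    omega
  have hp : ∀ β, polyt α (strRank key α) β ≠ 0 → β = α ∨ strW N key α < strW N key β := by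
    intro β hβ
    obtain ⟨σ, hσ, rfl⟩ := polyt_ne_zero hβ
    by_cases h : α ∘ σ = α
    · exact Or.inl h
    · exact Or.inr (str_lt hk hTab hNα
        (fun x y h1 h2 => str_col hu (by omega) hk hαu hmin' h1 h2) hσ h)
  set v := u - u α • polyt α (strRank key α) with hv
  have hvH : HW a v := mem_HWs.1 (Submodule.sub_mem _ (mem_HWs.2 hu)
    (Submodule.smul_mem _ _ (mem_HWs.2 (hTab.polyt_hw (hu.anti h0)))))
  have hvα : v α = 0 := by simp [hv, hTab.polyt_self]
  have hvβ : ∀ β, v β ≠ 0 → u β ≠ 0 ∨ strW N key α < strW N key β := by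
    intro β hβ
    by_cases h1 : u β = 0
    · have h2 : polyt α (strRank key α) β ≠ 0 := fun h2 => hβ (by simp [hv, h1, h2])
      rcases hp β h2 with h3 | h3
      · exact absurd (h3 ▸ hvα) hβ
      · exact Or.inr h3
    · exact Or.inl h1
  have hvm : ∀ β, v β ≠ 0 → strW N key α ≤ strW N key β := fun β hβ =>
    (hvβ β hβ).elim (hmin' β) le_of_lt
  have hlt : #(T v) < #(T u) := by
    refine Finset.card_lt_card ⟨fun β hβ => ?_, fun hs => ?_⟩
    · obtain ⟨h1, h2⟩ := Finset.mem_filter.1 hβ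
      refine Finset.mem_filter.2 ⟨h1, ?_⟩
      rcases h2 with h2 | ⟨γ, h2, h3⟩
      · exact (hvβ β h2).imp id fun h => ⟨α, hαu, h⟩
      · exact Or.inr ⟨α, hαu, (hvm γ h2).trans_lt h3⟩
    · rcases (Finset.mem_filter.1 (hs (Finset.mem_filter.2 ⟨hαw, Or.inl hαu⟩))).2 with h | ⟨γ, h2, h3⟩
      · exact h hvα
      · exact absurd (hvm γ h2) (not_le.2 h3)
  have h1 := ih _ (hn ▸ hlt) hvH rfl
  have h2 : u = v + u α • polyt α (strRank key α) := by rw [hv, sub_add_cancel]
  rw [h2]
  exact Submodule.add_mem _ h1 (Submodule.smul_mem _ _ (Submodule.subset_span ⟨_, _, hTab, rfl⟩))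

theorem HW.map {V' : Type} [AddCommGroup V'] [Module ℂ V'] {a : ℕ → ℕ} {f : (X → ℕ) → V}
    (hf : HW a f) (L : V →ₗ[ℂ] V') : HW a fun α => L (f α) := by
  refine ⟨fun α h => hf.cont α fun h0 => h (by simp [h0]), fun i j hij => ?_⟩
  funext w
  have h := congrArg L (congrFun (hf.kill i j hij) w)
  rw [opE_apply, map_sum] at h
  rw [opE_apply]
  simpa [apply_ite L] using h

theorem HW.conj {a : ℕ → ℕ} {u : (X → ℕ) → ℂ} (hu : HW a u) :
    HW a fun α => (starRingEnd ℂ) (u α) := by
  refine ⟨fun α h => hu.cont α fun h0 => h (by simp [h0]), fun i j hij => ?_⟩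
  funext w
  have h := congrArg (starRingEnd ℂ) (congrFun (hu.kill i j hij) w)
  rw [opE_apply, map_sum] at h
  rw [opE_apply]
  simpa [apply_ite (starRingEnd ℂ)] using h

/-- positivity: take a functional `l` with `l (f β0) ≠ 0` and `u = conj (l ∘ f)`;
`l (hat a f u) = ∑ |l (f β)|² ≠ 0`. -/
theorem HW.exists_hat_ne {a : ℕ → ℕ} {f : (X → ℕ) → V} (hf : HW a f) (hne : f ≠ 0) :
    ∃ u : (X → ℕ) → ℂ, HW a u ∧ hat a f u ≠ 0 := by
  obtain ⟨β0, hβ0⟩ := Function.ne_iff.1 hne
  have hβ0' : f β0 ≠ 0 := hβ0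
  obtain ⟨l, hl⟩ : ∃ l : Module.Dual ℂ V, l (f β0) ≠ 0 := by
    by_contra h
    push Not at h
    exact hβ0' ((Module.forall_dual_apply_eq_zero_iff ℂ _).1 h)
  refine ⟨_, (hf.map l).conj, fun h => hl ?_⟩
  have h1 := congrArg l h
  rw [hat_apply, map_sum, map_zero] at h1
  simp only [map_smul, smul_eq_mul, ← Complex.normSq_eq_conj_mul_self] at h1
  have h2 : ∑ β ∈ words X a, Complex.normSq (l (f β)) = 0 := by exact_mod_cast h1
  rw [Finset.sum_eq_zero_iff_of_nonneg fun _ _ => Complex.normSq_nonneg _] at h2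
  exact Complex.normSq_eq_zero.1 (h2 β0 (mem_words.2 (hf.cont β0 hβ0')))

/-- by `straighten` some polytabloid pairs non-trivially with `f` -/
theorem HW.exists_tab_hat_ne {a : ℕ → ℕ} {f : (X → ℕ) → V} (hf : HW a f) (hne : f ≠ 0) :
    ∃ α κ, Tab a α κ ∧ hat a f (polyt α κ) ≠ 0 := by
  obtain ⟨u, hu, hu'⟩ := hf.exists_hat_ne hne
  by_contra h
  push Not at h
  have h1 : Submodule.span ℂ {p : (X → ℕ) → ℂ | ∃ α κ, Tab a α κ ∧ p = polyt α κ} ≤
      LinearMap.ker (hat a f) := by
    refine Submodule.span_le.2 ?_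
    rintro _ ⟨α, κ, hT, rfl⟩
    exact h α κ hT
  exact hu' (h1 (straighten hu))

/-- for equivariant `f` every tableau works (`Tab.exists_perm`, `polyt_comp`, `hat_comp`,
`hat_polyt`) -/
theorem HW.alt_ne {ρ : Representation ℂ (Perm X) V} {a : ℕ → ℕ} {f : (X → ℕ) → V}
    (hf : HW a f) (he : Eqv ρ f) (hne : f ≠ 0) {α κ : X → ℕ} (h : Tab a α κ) :
    alt ρ κ (f α) ≠ 0 := by
  obtain ⟨α', κ', h', hne'⟩ := hf.exists_tab_hat_ne hne
  obtain ⟨g, rfl, rfl⟩ := h.exists_perm h'
  rw [← hat_polyt he h]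
  have h1 : polyt α κ = fun β => polyt (α ∘ g) (κ ∘ g) (β ∘ g) := by
    funext β
    rw [polyt_comp]
  rw [h1, hat_comp he]
  intro h2
  refine hne' ?_
  have h3 := congrArg (ρ g⁻¹) h2
  rwa [← Module.End.mul_apply, ← map_mul, inv_mul_cancel, map_one, Module.End.one_apply, map_zero] at h3

end Crest.Agent.R195
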