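import Crest.Agent.R195.Chain

/-!
# Row 195, task Weyl: the positivity lemma
-/

set_option autoImplicit false

open Finset Equiv MvPolynomial

namespace Crest.Agent.R195

variable {X : Type} [Fintype X] [DecidableEq X] {L : Type} [DecidableEq L]
  {V : Type} [AddCommGroup V] [Module ℂ V]

/-- adjointness for the bilinear pairing over words in a finite set `A` of letters:
bijection `(w, x) ↦ (update w x b, x)` -/
theorem opE_adjoint {B : Type} [DecidableEq B] (A : Finset B) {a b : B} (ha : a ∈ A) (hb : b ∈ A)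
    (f g : (X → B) → ℂ) :
    ∑ w ∈ Fintype.piFinset fun _ : X => A, opE a b f w * g w
      = ∑ w ∈ Fintype.piFinset fun _ : X => A, f w * opE b a g w := by
  simp only [opE_apply, Finset.sum_mul, Finset.mul_sum, ite_mul, mul_ite, zero_mul, mul_zero]
  rw [Finset.sum_comm, Finset.sum_comm (s := Fintype.piFinset fun _ : X => A)]
  refine Finset.sum_congr rfl fun x _ => ?_
  rw [← Finset.sum_filter, ← Finset.sum_filter]
  have hm : ∀ {c : B} (w : X → B), c ∈ A → w ∈ Fintype.piFinset (fun _ : X => A) →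
      Function.update w x c ∈ Fintype.piFinset fun _ : X => A := by
    intro c w hc hw
    refine Fintype.mem_piFinset.2 fun y => ?_
    by_cases h : y = x
    · rw [h, Function.update_self]; exact hc
    · rw [Function.update_of_ne h]; exact Fintype.mem_piFinset.1 hw y
  refine Finset.sum_nbij' (fun w => Function.update w x b) (fun w => Function.update w x a)
    (fun w hw => ?_) (fun w hw => ?_) (fun w hw => ?_) (fun w hw => ?_) fun w hw => ?_
  · exact Finset.mem_filter.2 ⟨hm w hb (Finset.mem_filter.1 hw).1, Function.update_self _ _ _⟩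
  · exact Finset.mem_filter.2 ⟨hm w ha (Finset.mem_filter.1 hw).1, Function.update_self _ _ _⟩
  · rw [Function.update_idem, ← (Finset.mem_filter.1 hw).2, Function.update_eq_self]
  · rw [Function.update_idem, ← (Finset.mem_filter.1 hw).2, Function.update_eq_self]
  · rw [Function.update_idem, ← (Finset.mem_filter.1 hw).2, Function.update_eq_self]

namespace WeylA

theorem opE_invol {B : Type} [DecidableEq B] {τ : B → B} (hτ : ∀ l, τ (τ l) = l) (a b : B)
    (f : (X → B) → V) : (fun w => opE a b f (τ ∘ w)) = opE (τ a) (τ b) fun w => f (τ ∘ w) := by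
  funext w
  simp only [opE_apply]
  refine Finset.sum_congr rfl fun x _ => ?_
  rw [Function.comp_update, hτ]
  exact if_congr ⟨fun h => by rw [← h, Function.comp_apply, hτ], fun h => by rw [Function.comp_apply, h, hτ]⟩
    rfl rfl

theorem opE_conj {B : Type} [DecidableEq B] (a b : B) (f : (X → B) → ℂ) :
    opE a b (fun w => (starRingEnd ℂ) (f w)) = fun w => (starRingEnd ℂ) (opE a b f w) := by
  funext w
  simp only [opE_apply, map_sum]
  exact Finset.sum_congr rfl fun x _ => by split_ifs <;> simp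

theorem ev_qq (a : L) (f : (X → Al L) → V) : ev X L V (qq a a) f =
    ∑ c : Fin 4, opE (Sum.inl a) (Sum.inr c) (opE (Sum.inl a) (Sum.inr c) f) := by
  simp only [qq, map_sum, LinearMap.sum_apply, ev_mul, ev_X]

theorem ev_prod_conj {ι : Type} [DecidableEq ι] (m : ι → L) (s : Finset ι) (f : (X → Al L) → ℂ) :
    ev X L ℂ (∏ i ∈ s, qq (m i) (m i)) (fun w => (starRingEnd ℂ) (f w)) =
      fun w => (starRingEnd ℂ) (ev X L ℂ (∏ i ∈ s, qq (m i) (m i)) f w) := by
  induction s using Finset.induction_on with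
  | empty => simp
  | insert i s hi ih =>
    rw [Finset.prod_insert hi, ev_mul, ev_mul, ih, ev_qq, ev_qq]
    funext w
    simp only [opE_conj, Finset.sum_apply, map_sum]

theorem eL_ev_zero {h : (X → Al L) → V} {m : L} (hm : DegLE h m 0) (a : L) (p : Pol L) :
    opE (Sum.inl a) (Sum.inl m) (ev X L V p h) = ev X L V (dE a m p) h := by
  have h1 : eL X V a m h = 0 := by
    funext w
    by_contra hw
    rw [eL_eq] at hw
    obtain ⟨x, -, h1⟩ := opE_ne_zero hw
    exact degLE_zero_iff.1 hm _ h1 x (Function.update_self _ _ _)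
  rw [← eL_eq, eL_ev, h1, map_zero, zero_add]

theorem scalar {h : (X → Al L) → ℂ} {r : ℕ} (h4 : Hom4 h (2 * r)) (m : Fin r → L) (n : Fin 4 → L)
    (hm : Function.Injective m) (hn : Function.Injective n) (hmn : ∀ i c, m i ≠ n c)
    (hm0 : ∀ i, DegLE h (m i) 0) (hn0 : ∀ c, DegLE h (n c) 0)
    (H : (∑ c, qq (n c) (n c)) ^ r ∈ Ann h) : ∏ i, qq (m i) (m i) ∈ Ann h := by
  obtain ⟨τ, t1, t2, t3⟩ : ∃ τ : Al L → Al L, (∀ c, τ (Sum.inr c) = Sum.inl (n c)) ∧
      (∀ c, τ (Sum.inl (n c)) = Sum.inr c) ∧ ∀ a, (∀ c, n c ≠ a) → τ (Sum.inl a) = Sum.inl a := by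
    refine ⟨Sum.elim (fun a => if h : ∃ c, n c = a then Sum.inr h.choose else Sum.inl a)
      fun c => Sum.inl (n c), fun _ => rfl, fun c => ?_, fun a ha => ?_⟩
    · have h : ∃ c', n c' = n c := ⟨c, rfl⟩
      simp only [Sum.elim_inl, dif_pos h]
      rw [hn h.choose_spec]
    · exact dif_neg fun ⟨c, hc⟩ => ha c hc
  have hτ : ∀ l, τ (τ l) = l := by
    rintro (a | c)
    · by_cases h : ∃ c, n c = a
      · obtain ⟨c, rfl⟩ := h
        rw [t2, t1]
      · push Not at h
        rw [t3 a h, t3 a h]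
    · rw [t1, t2]
  rw [mem_Ann]
  funext w0
  set A : Finset (Al L) := univ.image w0 ∪ ((univ.image fun i => Sum.inl (m i)) ∪
    univ.image fun c => Sum.inl (n c)) with hA
  have hAm : ∀ i, Sum.inl (m i) ∈ A := fun i => by simp [hA]
  have hAn : ∀ c, Sum.inl (n c) ∈ A := fun c => by simp [hA]
  set W := Fintype.piFinset fun _ : X => A with hW
  set Q : Pol L := ∑ c, qq (n c) (n c) with hQ
  have key : ∀ (s : Finset (Fin r)) (g : (X → Al L) → ℂ) (p : Pol L),
      (∀ i ∈ s, ∀ c, dE (n c) (m i) p = 0) →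
      ∑ w ∈ W, ev X L ℂ (∏ i ∈ s, qq (m i) (m i)) g (τ ∘ w) * ev X L ℂ ((∏ i ∈ s, qq (m i) (m i)) * p) h w =
        2 ^ #s * ∑ w ∈ W, g (τ ∘ w) * ev X L ℂ (Q ^ #s * p) h w := by
    intro s
    induction s using Finset.induction_on with
    | empty => intro g p _; simp
    | insert i s hi ih =>
      intro g p hp
      have hQ0 : ∀ j c, dE (n c) (m j) Q = 0 := fun j c => by simp [hQ, dE_qq, (hmn j _).symm]
      have hp' : ∀ c, dE (n c) (m i) ((∏ j ∈ s, qq (m j) (m j)) * p) = 0 := fun c => by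
        rw [Derivation.leibniz, hp i (Finset.mem_insert_self _ _), deriv_prod_eq_zero _ _ _ fun j hj => by
          have : m j ≠ m i := fun e => hi (hm e ▸ hj)
          simp [dE_qq, this]]
        simp
      have e := ih g (Q * p) fun j hj c => by
        rw [Derivation.leibniz, hp j (Finset.mem_insert_of_mem hj), hQ0]
        simp
      rw [Finset.prod_insert hi, Finset.card_insert_of_notMem hi, pow_succ, pow_succ, mul_assoc (Q ^ #s),
        mul_comm _ (2 : ℂ), mul_assoc, mul_assoc, ← e, ev_mul, ev_qq]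
      set g₁ := ev X L ℂ (∏ j ∈ s, qq (m j) (m j)) g
      set P := (∏ j ∈ s, qq (m j) (m j)) * p with hP
      have e2 : ∀ c, ∑ w ∈ W, opE (Sum.inl (m i)) (Sum.inr c) (opE (Sum.inl (m i)) (Sum.inr c) g₁) (τ ∘ w) *
          ev X L ℂ (qq (m i) (m i) * P) h w =
          2 * ∑ w ∈ W, g₁ (τ ∘ w) * ev X L ℂ (qq (n c) (n c) * P) h w := by
        intro c
        have a1 : ∀ (f : (X → Al L) → ℂ) w, opE (Sum.inl (m i)) (Sum.inr c) f (τ ∘ w) =
            opE (Sum.inl (m i)) (Sum.inl (n c)) (fun w => f (τ ∘ w)) w := fun f w => by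
          have := congrFun (opE_invol hτ (Sum.inl (m i)) (Sum.inr c) f) w
          rwa [t1, t3 _ fun c => (hmn i c).symm] at this
        have a2 : dE (n c) (m i) (dE (n c) (m i) (qq (m i) (m i) * P)) = (2 : ℂ) • (qq (n c) (n c) * P) := by
          simp only [Derivation.leibniz, hp', smul_eq_mul, mul_zero, zero_add, dE_qq, if_true, map_add,
            (hmn i c).symm, if_false, add_zero, two_smul]
          ring
        simp only [a1]
        rw [opE_adjoint A (hAm i) (hAn c), opE_adjoint A (hAm i) (hAn c), eL_ev_zero (hm0 i),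
          eL_ev_zero (hm0 i), a2, map_smul, Finset.mul_sum]
        exact Finset.sum_congr rfl fun w _ => by simp only [LinearMap.smul_apply, Pi.smul_apply, smul_eq_mul]; ring
      simp only [Finset.sum_apply, Finset.sum_mul]
      rw [Finset.sum_comm, Finset.sum_congr rfl fun c _ => e2 c, ← Finset.mul_sum, Finset.sum_comm,
        mul_left_comm _ Q p, ← hP, hQ]
      simp only [Finset.sum_mul, map_sum, LinearMap.sum_apply, Finset.sum_apply, Finset.mul_sum]
  have e := key univ (fun w => (starRingEnd ℂ) (h w)) 1 fun i _ c => Derivation.map_one_eq_zero _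
  rw [mul_one, mul_one, Finset.card_univ, Fintype.card_fin, mem_Ann.1 H, ev_prod_conj] at e
  set F := ev X L ℂ (∏ i, qq (m i) (m i)) h with hF
  have hs : ∀ w, F w ≠ 0 → τ ∘ w = w := by
    intro w hw
    have b1 : Hom4 F 0 := by
      refine Hom4.ev (m := 2 * r) (by rwa [zero_add]) ?_
      have := IsHomogeneous.prod univ (fun i => qq (m i) (m i)) (fun _ => 2) fun i _ => qq_isHomogeneous _ _
      rwa [Finset.sum_const, smul_eq_mul, Finset.card_univ, Fintype.card_fin, mul_comm] at this
    have b2 : ∀ c, DegLE F (n c) 0 := fun c => (hn0 c).ev fun v hv e => by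
      obtain ⟨i, -, hi⟩ := Finset.mem_biUnion.1 (vars_prod _ hv)
      exact hmn i c (((vars_qq _ _ v hi).elim id id).symm.trans e)
    funext x
    rcases e : w x with a | c
    · rw [Function.comp_apply, e]
      exact t3 a fun c hc => degLE_zero_iff.1 (b2 c) w hw x (hc ▸ e)
    · have := Finset.filter_eq_empty_iff.1 (Finset.card_eq_zero.1 (b1 w hw)) (Finset.mem_univ x)
      simp [e] at this
  have hR : ∀ w, F (τ ∘ w) = F w := by
    intro w
    by_cases h1 : F w = 0
    · by_contra h2
      have h3 := hs (τ ∘ w) (by rwa [h1] at h2)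
      have h4 : τ ∘ τ ∘ w = w := funext fun x => hτ _
      exact h2 (by rw [← h3, h4])
    · rw [hs w h1]
  simp only [hR, Pi.zero_apply, mul_zero, Finset.sum_const_zero, ← Complex.normSq_eq_conj_mul_self] at e
  have e' : ∑ w ∈ W, Complex.normSq (F w) = 0 := by exact_mod_cast e
  exact Complex.normSq_eq_zero.1 ((Finset.sum_eq_zero_iff_of_nonneg fun w _ => Complex.normSq_nonneg _).1 e' w0
    (Fintype.mem_piFinset.2 fun x => by simp [hA]))

end WeylA

/-- **Positivity lemma** ("first fundamental theorem" step).  `m i` (`i < r`) and `n c` (`c < 4`) are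
distinct letters not occurring in `h`, `h` has exactly `2 r` letters from `Fin 4`.

Plan.  By `ev_map` (and a separating functional) assume `V = ℂ`.  Let `T = ev (∏ i, qq (m i) (m i))`.
(1) Let `S i = ∑ c, opE (inl (n c)) (inl (m i)) ^ 2` (`= ∑ c, eL (n c) (m i) ^ 2`).  For a list
(or finset) of indices, `(∏ S i) (T h) = 2 ^ r • ev ((∑ c, qq (n c) (n c)) ^ r) h = 0`: by induction
`eL (n c) (m i) ^ 2 (ev (qq (m i) (m i) * p) h) = 2 • ev (qq (n c) (n c) * p) h` whenever
`dE (n c) (m i) p = 0` (`eL_ev`, `dE_qq`, `eL _ (m i) h = 0`).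
(2) Let `τ : Al L ≃ Al L` be the involution exchanging `inr c ↔ inl (n c)` and
`R f w = f (τ ∘ w)`.  `R (opE a b f) = opE (τ a) (τ b) (R f)`, hence
`R (T g) = T' (R g)` with `T' = ∏ i, ∑ c, opE (inl (m i)) (inl (n c)) ^ 2`, the adjoint of `∏ S i`
(`opE_adjoint`, reverse order; it is easiest to do (1) and (2) in one induction over
`List.finRange r`/`Fin r`: prove for all `g g'`,
`⟨R (ev (∏_{i∈l} qq (m i) (m i)) g), g'⟩ = ⟨R g, (S_{l reversed}) g'⟩`).
(3) `T g` for `g = conj ∘ h` equals `conj ∘ T h` (real coefficients), it has no letters `inr c`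
(`Hom4.ev`) and no letters `n c` (`DegLE.ev`), so `R (T g) = T g`.  Therefore
`∑_{w ∈ A^X} |T h w|² = ⟨R (T g), T h⟩ = ⟨R g, (∏ S i) (T h)⟩ = 0` for every finite `A` containing
all `inl (m i)`, `inl (n c)`, `inr c`; every word lies in some `A^X`. -/
theorem weyl {h : (X → Al L) → V} {r : ℕ} (h4 : Hom4 h (2 * r)) (m : Fin r → L) (n : Fin 4 → L)
    (hm : Function.Injective m) (hn : Function.Injective n) (hmn : ∀ i c, m i ≠ n c)
    (hm0 : ∀ i, DegLE h (m i) 0) (hn0 : ∀ c, DegLE h (n c) 0)
    (H : (∑ c, qq (n c) (n c)) ^ r ∈ Ann h) : ∏ i, qq (m i) (m i) ∈ Ann h := by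
  rw [mem_Ann]
  funext w
  refine (Module.forall_dual_apply_eq_zero_iff ℂ _).1 fun l => ?_
  have hs : ∀ w, l (h w) ≠ 0 → h w ≠ 0 := fun w hw e => hw (by rw [e, map_zero])
  have := WeylA.scalar (h := fun w => l (h w)) (fun w hw => h4 w (hs w hw)) m n hm hn hmn
    (fun i w hw => hm0 i w (hs w hw)) (fun c w hw => hn0 c w (hs w hw)) (by
      rw [mem_Ann, ev_map, mem_Ann.1 H]
      funext w
      simp)
  rw [mem_Ann, ev_map] at this
  exact congrFun this w

end Crest.Agent.R195
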